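import Vale.Agent.P097.H830.Geom4
import Vale.Agent.P097.H128.Conic

/-! # P097 / H830: Case III for a table: the table is a circle -/

set_option linter.all false

open Complex Metric Filter Topology Set
open scoped ComplexConjugate
open Vale.Agent.P097.TA Vale.Agent.P097.H202

namespace Vale.Agent.P097.H830

theorem entire_eq {F G : ℂ → ℂ} (hF : Differentiable ℂ F) (hG : Differentiable ℂ G)
    (h : ∀ᶠ t in 𝓝 (0 : ℂ), F t = G t) (z : ℂ) : F z = G z := by
  have hA : AnalyticOnNhd ℂ F univ := fun z _ => hF.analyticAt z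
  have hB : AnalyticOnNhd ℂ G univ := fun z _ => hG.analyticAt z
  exact hA.eqOn_of_preconnected_of_eventuallyEq hB isPreconnected_univ (mem_univ 0) h (mem_univ z)

/-- the reflection law along one direction -/
theorem law_dir {H n a b : ℂ → ℂ} {a' b' z H' N2 : ℂ} (ha : HasDerivAt a a' z)
    (hb : HasDerivAt b b' z) (hH : HasDerivAt H H' (a z))
    (hn : n =ᶠ[𝓝 z] fun t => 2 * H (a t) * Complex.cos (b t))
    (hN2 : N2 = 2 * H' * Complex.sin (b z)) :
    Complex.sin (b z) * (Complex.cos (b z) * deriv n z + Complex.sin (b z) * n z * b') =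
      Complex.cos (b z) ^ 2 * N2 * a' := by
  have h1 : HasDerivAt (fun t => 2 * H (a t) * Complex.cos (b t))
      (2 * (H' * a') * Complex.cos (b z) + 2 * H (a z) * (-Complex.sin (b z) * b')) z :=
    ((hH.comp z ha).const_mul 2).mul hb.ccos
  have h2 : deriv n z = 2 * (H' * a') * Complex.cos (b z) +
      2 * H (a z) * (-Complex.sin (b z) * b') := by
    rw [hn.deriv_eq, h1.deriv]
  have h3 : n z = 2 * H (a z) * Complex.cos (b z) := hn.self_of_nhds
  rw [h2, h3, hN2]
  ring

section
variable {h : ℝ → ℝ} {κ ρ Λ L : ℝ} {H HH lam Φ : ℂ → ℂ} {l φ : ℝ → ℝ}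
  {r e : ℝ} {α p : ℂ → ℂ → ℂ} {J : ℂ → ℂ} {U : Set ℂ} {αx px : ℂ → ℂ → ℂ}

/-- the extension of `(α, p)` to `ℂ × U` satisfies all the identities -/
theorem c3_of_lines (T : LD h κ ρ Λ L H HH lam Φ l φ) (Ln : Lines κ Λ H Φ r e α p J)
    (hU : IsOpen U) (hUe : ∀ w ∈ U, ‖w‖ < e ∧ 0 < w.im)
    (jα : JD αx (univ ×ˢ U)) (jp : JD px (univ ×ˢ U))
    (eα : ∀ t w : ℂ, |t.im| < r → w ∈ U → αx t w = α t w)
    (ep : ∀ t w : ℂ, |t.im| < r → w ∈ U → px t w = p t w) : C3 U αx px J := by
  have hr := Ln.hr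
  have her := Ln.her
  have hopen := isOpen_cyl hU
  -- the strip where the extension is the original one
  set S : Set (ℂ × ℂ) := {z | |z.1.im| < r} ∩ (univ ×ˢ U) with hS
  have hSo : IsOpen S := (isOpen_lt (by fun_prop) continuous_const).inter hopen
  have hmemW : ∀ {t w : ℂ}, |t.im| < r → w ∈ U → (t, w) ∈ WW 0 r e := by
    intro t w ht hw
    refine ⟨(hUe w hw).1, ?_⟩
    simpa using ht
  have hwim : ∀ w ∈ U, |w.im| < r := fun w hw =>
    lt_of_le_of_lt (Complex.abs_im_le_norm w) (lt_of_lt_of_le (hUe w hw).1 her)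
  -- neighbourhoods of `0` in the phase
  have hnear : ∀ w ∈ U, ∀ᶠ t : ℂ in 𝓝 0, |t.im| + |w.im| < r := by
    intro w hw
    have hc : ContinuousAt (fun t : ℂ => |t.im| + |w.im|) 0 := by fun_prop
    refine hc.eventually_lt continuousAt_const ?_
    simpa using hwim w hw
  have hsl : ∀ {f : ℂ → ℂ → ℂ}, JD f (univ ×ˢ U) → ∀ {w : ℂ}, w ∈ U →
      Differentiable ℂ fun t => f t w := fun hf _ hw => slice_diff_x hf hw
  -- sheared quantities on the small domain
  have jps : JD (ps αx) (univ ×ˢ U) :=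
    (JD.const_mul (1 / 2) ((JD_sh jα).add jα)).congr fun x w _ => by rw [ps]; ring
  have jdl : JD (dl αx) (univ ×ˢ U) :=
    (JD.const_mul (1 / 2) ((JD_sh jα).sub jα)).congr fun x w _ => by rw [dl]; ring
  have jn1 : JD (n1 px) (univ ×ˢ U) := (JD_sh jp).add jp
  have jn2 : JD (n2 px) (univ ×ˢ U) := (JD_sh jp).sub jp
  have js : JD (fun u w => Complex.sin (dl αx u w)) (univ ×ˢ U) :=
    JD.comp_one (U := univ) Complex.differentiable_sin.differentiableOn jdl fun _ _ _ => mem_univ _
  have jk : JD (fun u w => Complex.cos (dl αx u w)) (univ ×ˢ U) :=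
    JD.comp_one (U := univ) Complex.differentiable_cos.differentiableOn jdl fun _ _ _ => mem_univ _
  set S' : Set (ℂ × ℂ) := {z | |z.1.im| + |z.2.im| < r} ∩ (univ ×ˢ U) with hS'
  have hS'o : IsOpen S' := (isOpen_lt (by fun_prop) continuous_const).inter hopen
  have key : ∀ u w : ℂ, (u, w) ∈ S' → ps αx u w ∈ Str κ ∧
      n1 px u w = 2 * H (ps αx u w) * Complex.cos (dl αx u w) ∧
      n2 px u w = 2 * deriv H (ps αx u w) * Complex.sin (dl αx u w) := by
    intro u w huw
    have hw : w ∈ U := huw.2.2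
    have hsum : |u.im| + |w.im| < r := huw.1
    have hw0 := abs_nonneg w.im
    have hu0 := abs_nonneg u.im
    have h1 : |u.im| < r := by linarith
    have h2 : |(u + w).im| < r := by
      rw [Complex.add_im]
      exact lt_of_le_of_lt (abs_add_le _ _) hsum
    have m1 := Ln.mem u w (hmemW h1 hw)
    have m2 := Ln.mem (u + w) w (hmemW h2 hw)
    have hps : ps αx u w = (α (u + w) w + α u w) / 2 := by
      rw [ps, eα _ _ h1 hw, eα _ _ h2 hw]
    have hdl : dl αx u w = (α (u + w) w - α u w) / 2 := by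
      rw [dl, eα _ _ h1 hw, eα _ _ h2 hw]
    have hW : (u + w / 2, w) ∈ WW (1 / 2) r e := by
      refine ⟨(hUe w hw).1, ?_⟩
      have h3 : |(u + w / 2).im| ≤ |u.im| + |w.im| / 2 := by
        have : (u + w / 2).im = u.im + w.im / 2 := by
          rw [Complex.add_im]
          congr 1
          simpa using Complex.div_ofNat_im w 2
        rw [this]
        refine (abs_add_le _ _).trans ?_
        rw [abs_div]
        norm_num
      simp only []
      linarith
    have hsm := Ln.sum (u + w / 2) w hW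
    have hdf := Ln.diff (u + w / 2) w hW
    rw [show u + w / 2 + w / 2 = u + w by ring, show u + w / 2 - w / 2 = u by ring] at hsm hdf
    refine ⟨?_, ?_, ?_⟩
    · rw [hps, mem_Str]
      rw [mem_Str] at m1 m2
      have : ((α (u + w) w + α u w) / 2).im = ((α (u + w) w).im + (α u w).im) / 2 := by
        have := Complex.div_ofNat_im (α (u + w) w + α u w) 2
        simpa using this
      rw [this, abs_div, abs_of_pos (by norm_num : (0 : ℝ) < 2)]
      have h4 := abs_add_le (α (u + w) w).im (α u w).im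
      have := T.κ0
      linarith
    · rw [n1, ep _ _ h1 hw, ep _ _ h2 hw, hps, hdl]
      exact hsm
    · rw [n2, ep _ _ h1 hw, ep _ _ h2 hw, hps, hdl]
      exact hdf
  have hHd : ∀ z ∈ Str κ, HasDerivAt H (deriv H z) z := fun z hz =>
    ((T.dH z hz).differentiableAt ((isOpen_Str κ).mem_nhds hz)).hasDerivAt
  have lawx0 : ∀ u w : ℂ, (u, w) ∈ S' → Complex.sin (dl αx u w) *
      (Complex.cos (dl αx u w) * dx (n1 px) u w +
        Complex.sin (dl αx u w) * n1 px u w * dx (dl αx) u w) =
      Complex.cos (dl αx u w) ^ 2 * n2 px u w * dx (ps αx) u w := by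
    intro u w huw
    obtain ⟨k1, k2, k3⟩ := key u w huw
    have hc : ContinuousAt (fun t : ℂ => (t, w)) u := by fun_prop
    refine law_dir (H := H) (n := fun t => n1 px t w) (a := fun t => ps αx t w)
      (b := fun t => dl αx t w) (hd_x hU jps u huw.2.2) (hd_x hU jdl u huw.2.2) (hHd _ k1) ?_ k3
    filter_upwards [hc.eventually (hS'o.mem_nhds huw)] with t ht
    exact (key t w ht).2.1
  have lawe0 : ∀ u w : ℂ, (u, w) ∈ S' → Complex.sin (dl αx u w) *
      (Complex.cos (dl αx u w) * de (n1 px) u w +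
        Complex.sin (dl αx u w) * n1 px u w * de (dl αx) u w) =
      Complex.cos (dl αx u w) ^ 2 * n2 px u w * de (ps αx) u w := by
    intro u w huw
    obtain ⟨k1, k2, k3⟩ := key u w huw
    have hc : ContinuousAt (fun t : ℂ => (u, t)) w := by fun_prop
    refine law_dir (H := H) (n := fun t => n1 px u t) (a := fun t => ps αx u t)
      (b := fun t => dl αx u t) (hd_e hU jps u huw.2.2) (hd_e hU jdl u huw.2.2) (hHd _ k1) ?_ k3
    filter_upwards [hc.eventually (hS'o.mem_nhds huw)] with t ht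
    exact (key u t ht).2.1
  have hne0 : ∀ w ∈ U, w ≠ 0 := by
    intro w hw h0
    have := (hUe w hw).2
    rw [h0] at this
    simp at this
  refine
    { hU := hU
      jα := jα
      jp := jp
      αper := ?_
      pper := ?_
      brk := ?_
      Jne := fun w hw => Ln.Jne w (hUe w hw).1 (hne0 w hw)
      lawx := ?_
      lawe := ?_ }
  · intro t w hw
    refine entire_eq (F := fun t => αx (t + 1) w) (G := fun t => αx t w + 2 * Real.pi)
      ((hsl jα hw).comp (differentiable_id.add_const 1)) ((hsl jα hw).add_const _) ?_ t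
    filter_upwards [hnear w hw] with t ht
    have h1 : |t.im| < r := by linarith [abs_nonneg w.im]
    have h2 : |(t + 1).im| < r := by simpa using h1
    rw [eα _ _ h1 hw, eα _ _ h2 hw]
    exact Ln.αper t w (hmemW h1 hw)
  · intro t w hw
    refine entire_eq (F := fun t => px (t + 1) w) (G := fun t => px t w)
      ((hsl jp hw).comp (differentiable_id.add_const 1)) (hsl jp hw) ?_ t
    filter_upwards [hnear w hw] with t ht
    have h1 : |t.im| < r := by linarith [abs_nonneg w.im]
    have h2 : |(t + 1).im| < r := by simpa using h1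
    rw [ep _ _ h1 hw, ep _ _ h2 hw]
    exact Ln.pper t w (hmemW h1 hw)
  · intro t w hw
    refine entire_eq (F := fun t => br αx px t w) (G := fun _ => J w)
      (hsl (JD_br hopen jα jp) hw) (differentiable_const _) ?_ t
    filter_upwards [hnear w hw] with t ht
    have h1 : |t.im| < r := by linarith [abs_nonneg w.im]
    have hmem : (t, w) ∈ S := ⟨h1, mem_univ _, hw⟩
    have c1 : ∀ x w, (x, w) ∈ S → αx x w = α x w := fun x w hx => eα x w hx.1 hx.2.2
    have c2 : ∀ x w, (x, w) ∈ S → px x w = p x w := fun x w hx => ep x w hx.1 hx.2.2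
    rw [br, dx_congr hSo c1 hmem, de_congr hSo c1 hmem, dx_congr hSo c2 hmem,
      de_congr hSo c2 hmem]
    exact Ln.brk t w (hmemW h1 hw)
  · intro u w hw
    refine entire_eq (F := fun u => Complex.sin (dl αx u w) *
      (Complex.cos (dl αx u w) * dx (n1 px) u w +
        Complex.sin (dl αx u w) * n1 px u w * dx (dl αx) u w))
      (G := fun u => Complex.cos (dl αx u w) ^ 2 * n2 px u w * dx (ps αx) u w) ?_ ?_ ?_ u
    · exact (hsl js hw).mul (((hsl jk hw).mul (hsl (jn1.dx hopen) hw)).add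
        (((hsl js hw).mul (hsl jn1 hw)).mul (hsl (jdl.dx hopen) hw)))
    · exact (((hsl jk hw).pow 2).mul (hsl jn2 hw)).mul (hsl (jps.dx hopen) hw)
    · filter_upwards [hnear w hw] with t ht
      exact lawx0 t w ⟨ht, mem_univ _, hw⟩
  · intro u w hw
    refine entire_eq (F := fun u => Complex.sin (dl αx u w) *
      (Complex.cos (dl αx u w) * de (n1 px) u w +
        Complex.sin (dl αx u w) * n1 px u w * de (dl αx) u w))
      (G := fun u => Complex.cos (dl αx u w) ^ 2 * n2 px u w * de (ps αx) u w) ?_ ?_ ?_ u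
    · exact (hsl js hw).mul (((hsl jk hw).mul (hsl (jn1.de hopen) hw)).add
        (((hsl js hw).mul (hsl jn1 hw)).mul (hsl (jdl.de hopen) hw)))
    · exact (((hsl jk hw).pow 2).mul (hsl jn2 hw)).mul (hsl (jps.de hopen) hw)
    · filter_upwards [hnear w hw] with t ht
      exact lawe0 t w ⟨ht, mem_univ _, hw⟩

/-- **Case III**: if for the `w` of a nonempty open set of the upper half plane the line
coordinates extend to all complex phases, the table is a circle (in particular an ellipse). -/
theorem end3 (T : LD h κ ρ Λ L H HH lam Φ l φ) (Ln : Lines κ Λ H Φ r e α p J)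
    (hU : IsOpen U) (hne : U.Nonempty) (hUe : ∀ w ∈ U, ‖w‖ < e ∧ 0 < w.im)
    (jα : JD αx (univ ×ˢ U)) (jp : JD px (univ ×ˢ U))
    (eα : ∀ t w : ℂ, |t.im| < r → w ∈ U → αx t w = α t w)
    (ep : ∀ t w : ℂ, |t.im| < r → w ∈ U → px t w = p t w) :
    ∃ a b φ p q : ℝ, 0 < a ∧ 0 < b ∧ h = fun ψ => p * Real.cos ψ + q * Real.sin ψ +
      √(a ^ 2 * Real.cos (ψ - φ) ^ 2 + b ^ 2 * Real.sin (ψ - φ) ^ 2) := by
  have C := c3_of_lines T Ln hU hUe jα jp eα ep
  have hr := Ln.hr
  have he := Ln.he
  obtain ⟨w0, hw0⟩ := hne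
  have hWo := isOpen_WW 0 r e
  -- `α_t = 2π` on an open set
  have h1 : ∀ᶠ z : ℂ × ℂ in 𝓝 ((0 : ℂ), w0), dx α z.1 z.2 = 2 * Real.pi := by
    set S : Set (ℂ × ℂ) := {z | |z.1.im| < r} ∩ (univ ×ˢ U) with hS
    have hSo : IsOpen S := (isOpen_lt (by fun_prop) continuous_const).inter (isOpen_cyl hU)
    have hmem : ((0 : ℂ), w0) ∈ S := ⟨by simpa using hr, mem_univ _, hw0⟩
    filter_upwards [hSo.mem_nhds hmem] with z hz
    have c1 : ∀ x w, (x, w) ∈ S → α x w = αx x w := fun x w hx => (eα x w hx.1 hx.2.2).symm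
    rw [dx_congr (x := z.1) (w := z.2) hSo c1 hz]
    exact C.main hz.2.2 (hUe _ hz.2.2).2 z.1
  have h0W : ((0 : ℂ), w0) ∈ WW 0 r e := ⟨(hUe w0 hw0).1, by simpa using hr⟩
  have h2 : ∀ t : ℂ, |t.im| < r → dx α t 0 = 2 * Real.pi := by
    have hA := Vale.Agent.P268.analyticOnNhd_of_differentiableOn hWo (Ln.jα.dx hWo)
    have hB : AnalyticOnNhd ℂ (fun _ : ℂ × ℂ => (2 * Real.pi : ℂ)) (WW 0 r e) := fun z _ =>
      analyticAt_const
    have := hA.eqOn_of_preconnected_of_eventuallyEq hB (convex_WW le_rfl).isPreconnected h0W h1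
    intro t ht
    exact this (x := (t, 0)) ⟨by simpa using he, by simpa using ht⟩
  -- the real Lazutkin parameter
  have h3 : ∀ x : ℝ, Λ / l (φ x) = 2 * Real.pi := by
    intro x
    have hx0 : (x : ℂ) ∈ Str ρ := real_mem_Str T.ρ0 x
    have e1 := T.dΦ x hx0
    have e2 : HasDerivAt Φ (dx α x 0) (x : ℂ) := by
      have hmem : ((x : ℂ), (0 : ℂ)) ∈ WW 0 r e := ⟨by simpa using he, by simpa using hr⟩
      have e3 := Ln.jα.hasDerivAt_x hWo hmem
      refine e3.congr_of_eventuallyEq ?_
      have hc : ContinuousAt (fun t : ℂ => |t.im|) (x : ℂ) := by fun_prop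
      have := hc.eventually_lt (continuousAt_const (y := r)) (by simpa using hr)
      filter_upwards [this] with t ht
      exact (Ln.αzero t ht).symm
    have e4 := e1.unique e2
    rw [h2 x (by simpa using hr), T.Φr, T.lamr] at e4
    exact_mod_cast e4
  have hφ : ∀ x, φ x = φ 0 + 2 * Real.pi * x := by
    have hd : ∀ x, HasDerivAt (fun x => φ x - 2 * Real.pi * x) 0 x := by
      intro x
      have := (T.dφ x).sub ((hasDerivAt_id x).const_mul (2 * Real.pi))
      refine this.congr_deriv ?_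
      rw [h3 x]
      ring
    intro x
    have := is_const_of_deriv_eq_zero (fun x => (hd x).differentiableAt) (fun x => (hd x).deriv) x 0
    simp only [mul_zero, sub_zero] at this
    linarith
  have hpi := Real.pi_pos
  set R : ℝ := Λ / (2 * Real.pi) with hR
  have hRpos : 0 < R := div_pos T.Λ0 (by positivity)
  have hl : ∀ y, l y = R := by
    intro y
    have e5 : φ ((y - φ 0) / (2 * Real.pi)) = y := by
      rw [hφ]
      field_simp
      ring
    have e6 := h3 ((y - φ 0) / (2 * Real.pi))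
    rw [e5] at e6
    have hly := T.lpos y
    rw [hR]
    field_simp at e6 ⊢
    linarith
  have hh : ∀ y, h y + deriv (deriv h) y = R ^ 3 := fun y => by rw [← T.l3 y, hl y]
  have han : ∀ x, AnalyticAt ℝ h x := T.tab.1
  have d1 : Differentiable ℝ h := fun x => (han x).differentiableAt
  have d2 : Differentiable ℝ (deriv h) := fun x => ((han x).deriv).differentiableAt
  refine H128.conic_of_const (v := fun _ => (1 / R) ^ 2) (c := 4 * (1 / R) ^ 2) d1 d2
    (differentiable_const _) (by simp) (fun _ => by positivity) (fun y => ?_) (fun y => by simp)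
  rw [hh, Real.sqrt_sq (by positivity)]
  field_simp

end

end Vale.Agent.P097.H830
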