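import Vale.Agent.P097.H830.W3

/-! # P097 / TRIG-T7 (4): the ratio function (helper830) -/

set_option linter.all false

open Complex Metric Filter Topology Set
open scoped ComplexConjugate

namespace Vale.Agent.P097.H830.W

open Vale.Agent.P097.H536 Vale.Agent.P097.TA

variable {n : ℕ} {c K : ℝ} {z : ℂ → ℂ → ℂ}

/-! ## algebra of the model relation -/

lemma Gf_eq {x : ℂ} (hx : x ≠ 1) (n : ℕ) : Gf n x = (x ^ (n + 1) - 1) / (x ^ n - 1) := by
  unfold Gf
  rw [geom_sum_eq hx, geom_sum_eq hx, div_div_div_cancel_right₀ (sub_ne_zero.2 hx)]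

lemma Gf_inv {x : ℂ} (hx : x ≠ 1) (hx0 : x ≠ 0) (n : ℕ) : Gf n (1 / x) = Gf n x / x := by
  have h1 : 1 / x ≠ 1 := by
    intro h
    apply hx
    rw [div_eq_iff hx0, one_mul] at h
    exact h.symm
  rw [Gf_eq h1, Gf_eq hx]
  have p1 : x ^ n ≠ 0 := pow_ne_zero _ hx0
  have p2 : x ^ (n + 1) ≠ 0 := pow_ne_zero _ hx0
  have e1 : (1 / x) ^ (n + 1) - 1 = -(x ^ (n + 1) - 1) / x ^ (n + 1) := by
    rw [one_div, inv_pow, eq_div_iff p2, sub_mul, inv_mul_cancel₀ p2]
    ring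
  have e2 : (1 / x) ^ n - 1 = -(x ^ n - 1) / x ^ n := by
    rw [one_div, inv_pow, eq_div_iff p1, sub_mul, inv_mul_cancel₀ p1]
    ring
  rw [e1, e2]
  by_cases h : x ^ n - 1 = 0
  · rw [h]; simp
  · rw [div_div_div_eq, div_div, div_eq_div_iff (mul_ne_zero p2 (neg_ne_zero.2 h)) (mul_ne_zero h hx0)]
    ring

/-- the relation `(E1)` -/
lemma E1 (hn : 2 ≤ n) {a b : ℂ} (hb : 1 + b ≠ 0) (hQ1 : (a + 1) / (1 + b) ≠ 1)
    (hS : ∑ i ∈ Finset.range n, ((a + 1) / (1 + b)) ^ i ≠ 0) (h : Mf n a 1 b = 0) :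
    Gf n ((a + 1) / (1 + b)) = 2 * ((n : ℂ) + 1) / n / (1 + b) := by
  set Q := (a + 1) / (1 + b) with hQ
  set V := (1 + b) / 2 with hV
  have hV0 : V ≠ 0 := div_ne_zero hb (by norm_num)
  have hn0 : (n : ℂ) ≠ 0 := by
    have : n ≠ 0 := by omega
    exact_mod_cast this
  have hn1 : (n : ℂ) + 1 ≠ 0 := by
    have : n + 1 ≠ 0 := by omega
    exact_mod_cast this
  have hQV : (a + 1) / 2 = Q * V := by
    rw [hQ, hV]; field_simp
  unfold Mf at h
  rw [← hV, hQV] at h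
  unfold Nf at h
  have h2 : V ^ n * ((1 - Q ^ n) / n - V * (1 - Q ^ (n + 1)) / (n + 1)) = 0 := by
    rw [← h, mul_pow, mul_pow, pow_succ V n]
    ring
  have h3 := (mul_eq_zero.1 h2).resolve_left (pow_ne_zero _ hV0)
  have hQn : Q ^ n - 1 ≠ 0 := by
    intro h0
    apply hS
    rw [geom_sum_eq hQ1, h0, zero_div]
  rw [Gf_eq hQ1, div_eq_iff hQn]
  have e1 : 1 + b = 2 * V := by rw [hV]; ring
  rw [e1]
  field_simp at h3 ⊢
  linear_combination h3

/-! ## the germs at zero -/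

/-- `ζ(v) = z(1, v)` -/
lemma zeta_diff (W : World n c K z) : DifferentiableOn ℂ (fun v => z 1 v) (ball 0 c) := by
  have h : DifferentiableOn ℂ (fun v : ℂ => ((1 : ℂ), v)) (ball 0 c) := by fun_prop
  refine W.hol.comp h ?_
  intro v hv
  show ‖v‖ < c * (1 : ℂ).re
  simpa using hv

lemma mem_HP_one {v : ℂ} (hv : ‖v‖ < c) : ((1 : ℂ), v) ∈ HP c := by
  show ‖v‖ < c * (1 : ℂ).re
  simpa using hv

lemma zeta_bd (W : World n c K z) {v : ℂ} (hv : ‖v‖ < c) : ‖z 1 v - 1‖ ≤ K * ‖v‖ ^ 2 := by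
  have := W.bd 1 v (mem_HP_one hv)
  simpa using this

lemma zeta_re (W : World n c K z) {v : ℂ} (hv : ‖v‖ < c) : 0 < (z 1 v).re :=
  world_re_pos W (mem_HP_one hv)

lemma zeta_zero (W : World n c K z) : z 1 0 = 1 := by
  have := zeta_bd W (v := 0) (by simpa using W.hc)
  simp at this
  exact sub_eq_zero.1 this

lemma zeta_deriv (W : World n c K z) : HasDerivAt (fun v => z 1 v) 0 0 := by
  rw [hasDerivAt_iff_isLittleO]
  simp only [sub_zero, smul_zero]
  have h1 : (fun v : ℂ => z 1 v - z 1 0) =O[𝓝 0] (fun v : ℂ => v ^ 2) := by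
    refine Asymptotics.IsBigO.of_bound K ?_
    filter_upwards [ball_mem_nhds (0 : ℂ) W.hc] with v hv
    rw [zeta_zero W, norm_pow]
    exact zeta_bd W (by simpa using hv)
  exact h1.trans_isLittleO (Asymptotics.isLittleO_pow_id one_lt_two)

lemma zeta_conj (W : World n c K z) {v : ℂ} (hv : ‖v‖ < c) : z 1 (conj v) = conj (z 1 v) := by
  obtain ⟨M, hM1, -, hM⟩ := hom_real W
  have hd := zeta_diff W
  have hd2 : DifferentiableOn ℂ (fun v => conj (z 1 (conj v))) (ball 0 c) := by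
    intro v hv
    have hv' : conj v ∈ ball (0 : ℂ) c := by
      simpa using hv
    have h1 : DifferentiableAt ℂ (fun v => z 1 v) (conj v) :=
      (hd _ hv').differentiableAt (isOpen_ball.mem_nhds hv')
    have h2 := DifferentiableAt.conj_conj (f := fun v => z 1 v) (x := conj v) h1
    rw [Complex.conj_conj] at h2
    exact h2.differentiableWithinAt
  have key := eq_of_real (f := fun v => z 1 v) (g := fun v => conj (z 1 (conj v))) W.hc
    (ε := 1 / M) (by positivity) hd hd2 ?_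
  · have := key v (by simpa using hv)
    rw [this, Complex.conj_conj]
  · intro t ht ht2
    simp only [conj_ofReal]
    have h1 := hM 1 t one_pos ht ?_
    · rw [ofReal_one] at h1
      exact h1.symm
    · rw [lt_div_iff₀ (by linarith)] at ht2
      rw [le_div_iff₀ ht]
      linarith

/-- shifts: `z(1 + σ v, v) = (1 + σ v) ζ(v / (1 + σ v))` -/
lemma shift (W : World n c K z) {σ : ℝ} (hσ : |σ| = 1) {v : ℂ} (hv : ‖v‖ < c / 4) :
    z (1 + σ * v) v = (1 + σ * v) * z 1 (v / (1 + σ * v)) := by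
  have hc := W.hc
  have hc1 := W.hc1
  obtain ⟨M, hM1, hM, -⟩ := hom_real W
  have hre : ∀ v ∈ ball (0 : ℂ) (c / 4), 1 / 2 ≤ (1 + σ * v).re ∧ 1 / 2 ≤ ‖1 + σ * v‖ := by
    intro v hv
    have h0 : ‖v‖ < c / 4 := by simpa using hv
    have h1 : ‖(σ : ℂ) * v‖ < c / 4 := by
      rw [norm_mul, norm_real, Real.norm_eq_abs, hσ, one_mul]; exact h0
    have h2 := (abs_re_le_norm ((σ : ℂ) * v))
    have h3 := neg_abs_le ((σ : ℂ) * v).re
    have h4 : (1 + (σ : ℂ) * v).re = 1 + ((σ : ℂ) * v).re := by simp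
    have h5 : 1 / 2 ≤ (1 + σ * v).re := by rw [h4]; linarith
    exact ⟨h5, h5.trans ((le_abs_self _).trans (abs_re_le_norm _))⟩
  have hd1 : DifferentiableOn ℂ (fun v => z (1 + σ * v) v) (ball 0 (c / 4)) := by
    have h : DifferentiableOn ℂ (fun v : ℂ => ((1 + σ * v : ℂ), v)) (ball 0 (c / 4)) := by fun_prop
    refine W.hol.comp h ?_
    intro v hv
    show ‖v‖ < c * (1 + σ * v).re
    have := (hre v hv).1
    have h0 : ‖v‖ < c / 4 := by simpa using hv
    nlinarith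
  have hd2 : DifferentiableOn ℂ (fun v => (1 + σ * v) * z 1 (v / (1 + σ * v))) (ball 0 (c / 4)) := by
    have h0 : ∀ v ∈ ball (0 : ℂ) (c / 4), (1 + σ * v : ℂ) ≠ 0 := by
      intro v hv h
      have := (hre v hv).2
      rw [h, norm_zero] at this
      linarith
    have h : DifferentiableOn ℂ (fun v : ℂ => v / (1 + σ * v)) (ball 0 (c / 4)) :=
      differentiableOn_id.div (by fun_prop) h0
    have h2 : DifferentiableOn ℂ (fun v => z 1 (v / (1 + σ * v))) (ball 0 (c / 4)) := by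
      refine (zeta_diff W).comp h ?_
      intro v hv
      have h3 := (hre v hv).2
      have h4 : ‖v‖ < c / 4 := by simpa using hv
      simp only [mem_ball, dist_zero_right]
      rw [norm_div, div_lt_iff₀ (by linarith)]
      nlinarith
    exact DifferentiableOn.mul (by fun_prop) h2
  refine eq_of_real (f := fun v => z (1 + σ * v) v)
    (g := fun v => (1 + σ * v) * z 1 (v / (1 + σ * v))) (by linarith : 0 < c / 4)
    (ε := 1 / (M + 1)) (by positivity) hd1 hd2 ?_ v (by simpa using hv)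
  intro t ht ht2
  rw [lt_div_iff₀ (by linarith)] at ht2
  have hσt : -t ≤ σ * t := by
    have := neg_abs_le σ
    nlinarith
  have h1t : 0 < 1 + σ * t := by nlinarith
  have hst : (1 + σ * t) / t = 1 / (t / (1 + σ * t)) := by
    field_simp
  have := hM (1 + σ * t) t 1 (t / (1 + σ * t)) h1t ht one_pos (by positivity) ?_ hst
  · push_cast at this
    have ht0 : (t : ℂ) ≠ 0 := by exact_mod_cast ht.ne'
    have h1t0 : (1 + σ * t : ℂ) ≠ 0 := by
      have : ((1 + σ * t : ℝ) : ℂ) ≠ 0 := by exact_mod_cast h1t.ne'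
      push_cast at this
      exact this
    field_simp at this
    rw [this]
  · rw [le_div_iff₀ ht]
    nlinarith

/-- `X_σ(v)` -/
noncomputable def XX (z : ℂ → ℂ → ℂ) (σ : ℝ) (v : ℂ) : ℂ :=
  (1 + σ * v) * z 1 (v / (1 + σ * v)) / z 1 v

lemma XX_zero (W : World n c K z) (σ : ℝ) : XX z σ 0 = 1 := by
  unfold XX
  simp [zeta_zero W]

lemma XX_deriv (W : World n c K z) (σ : ℝ) : HasDerivAt (XX z σ) σ 0 := by
  have h1 : HasDerivAt (fun v : ℂ => 1 + σ * v) σ 0 := by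
    simpa using ((hasDerivAt_id (0 : ℂ)).const_mul (σ : ℂ)).const_add 1
  have h2 : HasDerivAt (fun v : ℂ => v / (1 + σ * v)) 1 0 := by
    have h := HasDerivAt.fun_div (hasDerivAt_id' (0 : ℂ)) h1 (by simp)
    have e : (1 * (1 + (σ : ℂ) * 0) - 0 * (σ : ℂ)) / (1 + (σ : ℂ) * 0) ^ 2 = 1 := by simp
    rw [e] at h
    exact h
  have h3 : HasDerivAt (fun v : ℂ => z 1 (v / (1 + σ * v))) 0 0 := by
    have hz : HasDerivAt (fun v => z 1 v) 0 ((0 : ℂ) / (1 + σ * 0)) := by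
      simpa using zeta_deriv W
    have h := HasDerivAt.comp (0 : ℂ) hz h2
    rw [zero_mul] at h
    exact h
  have h4 := HasDerivAt.fun_div (h1.fun_mul h3) (zeta_deriv W) (by rw [zeta_zero W]; exact one_ne_zero)
  have e : ((↑σ * z 1 (0 / (1 + ↑σ * 0)) + (1 + ↑σ * 0) * 0) * z 1 0 -
      (1 + ↑σ * 0) * z 1 (0 / (1 + ↑σ * 0)) * 0) / z 1 0 ^ 2 = (σ : ℂ) := by
    simp [zeta_zero W]
  rw [e] at h4
  exact h4

lemma XX_diff (W : World n c K z) {σ : ℝ} (hσ : |σ| = 1) {v : ℂ} (hv : ‖v‖ < c / 4) :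
    DifferentiableAt ℂ (XX z σ) v := by
  have hc := W.hc
  have hc1 := W.hc1
  have h1 : ‖(σ : ℂ) * v‖ < c / 4 := by
    rw [norm_mul, norm_real, Real.norm_eq_abs, hσ, one_mul]; exact hv
  have h2 := (abs_re_le_norm ((σ : ℂ) * v))
  have h3 := neg_abs_le ((σ : ℂ) * v).re
  have h4 : (1 + (σ : ℂ) * v).re = 1 + ((σ : ℂ) * v).re := by simp
  have h5 : 1 / 2 ≤ (1 + σ * v).re := by rw [h4]; linarith
  have h6 : 1 / 2 ≤ ‖1 + σ * v‖ := h5.trans ((le_abs_self _).trans (abs_re_le_norm _))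
  have h7 : (1 + σ * v : ℂ) ≠ 0 := by
    intro h
    rw [h, norm_zero] at h6
    linarith
  have h8 : ‖v / (1 + σ * v)‖ < c := by
    rw [norm_div, div_lt_iff₀ (by linarith)]
    nlinarith
  have d1 : DifferentiableAt ℂ (fun v => z 1 v) (v / (1 + σ * v)) := by
    have hm : v / (1 + σ * v) ∈ ball (0 : ℂ) c := by simpa using h8
    exact (zeta_diff W _ hm).differentiableAt (isOpen_ball.mem_nhds hm)
  have d2 : DifferentiableAt ℂ (fun v => z 1 v) v := by
    have hm : v ∈ ball (0 : ℂ) c := by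
      simp only [mem_ball, dist_zero_right]
      linarith
    exact (zeta_diff W _ hm).differentiableAt (isOpen_ball.mem_nhds hm)
  have d3 : DifferentiableAt ℂ (fun v : ℂ => v / (1 + σ * v)) v :=
    differentiableAt_id.div (by fun_prop) h7
  have d4 : DifferentiableAt ℂ (fun v => z 1 (v / (1 + σ * v))) v :=
    DifferentiableAt.comp v d1 d3
  have h9 : z 1 v ≠ 0 := by
    intro h
    have := zeta_re W (v := v) (by linarith)
    rw [h] at this
    simp at this
  unfold XX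
  exact DifferentiableAt.div (DifferentiableAt.mul (by fun_prop) d4) d2 h9

lemma XX_conj (W : World n c K z) {σ : ℝ} (hσ : |σ| = 1) {v : ℂ} (hv : ‖v‖ < c / 4) :
    XX z σ (conj v) = conj (XX z σ v) := by
  have hc := W.hc
  have hc1 := W.hc1
  have h1 : ‖(σ : ℂ) * v‖ < c / 4 := by
    rw [norm_mul, norm_real, Real.norm_eq_abs, hσ, one_mul]; exact hv
  have h2 := (abs_re_le_norm ((σ : ℂ) * v))
  have h3 := neg_abs_le ((σ : ℂ) * v).re
  have h4 : (1 + (σ : ℂ) * v).re = 1 + ((σ : ℂ) * v).re := by simp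
  have h5 : 1 / 2 ≤ (1 + σ * v).re := by rw [h4]; linarith
  have h6 : 1 / 2 ≤ ‖1 + σ * v‖ := h5.trans ((le_abs_self _).trans (abs_re_le_norm _))
  have h8 : ‖v / (1 + σ * v)‖ < c := by
    rw [norm_div, div_lt_iff₀ (by linarith)]
    nlinarith
  unfold XX
  have e1 : conj v / (1 + σ * conj v) = conj (v / (1 + σ * v)) := by
    rw [map_div₀, map_add, map_mul, map_one, conj_ofReal]
  rw [e1, zeta_conj W h8, zeta_conj W (by linarith : ‖v‖ < c), map_div₀, map_mul, map_add, map_mul,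
    map_one, conj_ofReal]

lemma asym2 {f : ℂ → ℂ} {ρ : ℝ} {b : ℂ} (hρ : 0 < ρ) (hf : DifferentiableOn ℂ f (ball 0 ρ))
    (hb : HasDerivAt f b 0) :
    ∃ C : ℝ, 0 ≤ C ∧ ∀ v : ℂ, ‖v‖ ≤ ρ / 2 → ‖f v - f 0 - b * v‖ ≤ C * ‖v‖ ^ 2 := by
  have hn : ball (0 : ℂ) ρ ∈ 𝓝 (0 : ℂ) := ball_mem_nhds _ hρ
  have h1 := (Complex.differentiableOn_dslope (E := ℂ) (f := f) hn).2 hf
  have h2 := (Complex.differentiableOn_dslope (E := ℂ) (f := dslope f 0) hn).2 h1
  obtain ⟨C, hC⟩ := (isCompact_closedBall (0 : ℂ) (ρ / 2)).exists_bound_of_continuousOn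
    (h2.continuousOn.mono (closedBall_subset_ball (by linarith)))
  refine ⟨max C 0, le_max_right _ _, ?_⟩
  intro v hv
  have e1 := sub_smul_dslope f 0 v
  have e2 := sub_smul_dslope (dslope f 0) 0 v
  rw [dslope_same, hb.deriv] at e2
  simp only [smul_eq_mul, sub_zero] at e1 e2
  have e3 : f v - f 0 - b * v = v ^ 2 * dslope (dslope f 0) 0 v := by
    linear_combination (-1 : ℂ) * e1 - v * e2
  rw [e3, norm_mul, norm_pow, mul_comm]
  have := (hC v (by simpa using hv)).trans (le_max_left C 0)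
  gcongr

/-- **T7** -/
theorem t7 : T7 := by
  intro n c K z W
  have hn := W.hn
  have hc := W.hc
  have hc1 := W.hc1
  have hn0 : (n : ℂ) ≠ 0 := by
    have : n ≠ 0 := by omega
    exact_mod_cast this
  have hn1 : (n : ℂ) + 1 ≠ 0 := by
    have : n + 1 ≠ 0 := by omega
    exact_mod_cast this
  set μ := mu n with hμ
  have hμ0 : μ ≠ 0 := mu_ne n
  -- ratios
  set Rp : ℂ → ℂ := fun v => XX z 1 v ^ μ with hRp
  set Rm : ℂ → ℂ := fun v => XX z (-1) v ^ μ with hRm
  set Q : ℂ → ℂ := fun v => (Rm v + 1) / (1 + Rp v) with hQ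
  have hp1 : |(1 : ℝ)| = 1 := by norm_num
  have hm1 : |(-1 : ℝ)| = 1 := by norm_num
  have hXp0 : XX z 1 0 = 1 := XX_zero W 1
  have hXm0 : XX z (-1) 0 = 1 := XX_zero W (-1)
  have hRp0 : Rp 0 = 1 := by simp only [hRp]; rw [hXp0, one_cpow]
  have hRm0 : Rm 0 = 1 := by simp only [hRm]; rw [hXm0, one_cpow]
  have hQ0 : Q 0 = 1 := by simp only [hQ]; rw [hRp0, hRm0]; norm_num
  have dRp : HasDerivAt Rp μ 0 := by
    have := (XX_deriv W 1).cpow_const (c := μ) (by rw [hXp0]; exact one_mem_slitPlane)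
    rw [hXp0] at this
    simpa using this
  have dRm : HasDerivAt Rm (-μ) 0 := by
    have := (XX_deriv W (-1)).cpow_const (c := μ) (by rw [hXm0]; exact one_mem_slitPlane)
    rw [hXm0] at this
    simpa using this
  have dQ : HasDerivAt Q (-μ) 0 := by
    have h1 := (dRm.add_const 1).div (dRp.const_add 1) (by rw [hRp0]; norm_num)
    have e : (-μ * (1 + Rp 0) - (Rm 0 + 1) * μ) / (1 + Rp 0) ^ 2 = -μ := by
      rw [hRp0, hRm0]; ring
    rw [e] at h1
    exact h1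
  have eQ0 : ∀ i : ℕ, Q 0 ^ i = 1 := by intro i; rw [hQ0, one_pow]
  -- conditions near zero
  have cXp : ContinuousAt (XX z 1) 0 := (XX_deriv W 1).continuousAt
  have cXm : ContinuousAt (XX z (-1)) 0 := (XX_deriv W (-1)).continuousAt
  have cRp : ContinuousAt Rp 0 := dRp.continuousAt
  have cQ : ContinuousAt Q 0 := dQ.continuousAt
  have ev1 : ∀ᶠ v in 𝓝 (0 : ℂ), 0 < (XX z 1 v).re := by
    have h : Tendsto (fun v => (XX z 1 v).re) (𝓝 0) (𝓝 ((XX z 1 0).re)) :=
      (continuous_re.tendsto _).comp cXp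
    rw [hXp0, one_re] at h
    exact h.eventually (lt_mem_nhds one_pos)
  have ev2 : ∀ᶠ v in 𝓝 (0 : ℂ), 0 < (XX z (-1) v).re := by
    have h : Tendsto (fun v => (XX z (-1) v).re) (𝓝 0) (𝓝 ((XX z (-1) 0).re)) :=
      (continuous_re.tendsto _).comp cXm
    rw [hXm0, one_re] at h
    exact h.eventually (lt_mem_nhds one_pos)
  have ev3 : ∀ᶠ v in 𝓝 (0 : ℂ), 1 + Rp v ≠ 0 := by
    have h : ContinuousAt (fun v => 1 + Rp v) 0 := continuousAt_const.add cRp
    exact h.eventually_ne (by rw [hRp0]; norm_num)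
  have ev4 : ∀ᶠ v in 𝓝 (0 : ℂ), Q v ≠ 0 := cQ.eventually_ne (by rw [hQ0]; norm_num)
  have ev5 : ∀ᶠ v in 𝓝 (0 : ℂ), ∑ i ∈ Finset.range n, Q v ^ i ≠ 0 := by
    have h : ContinuousAt (fun v => ∑ i ∈ Finset.range n, Q v ^ i) 0 := by
      refine tendsto_finset_sum _ ?_
      intro i _
      exact cQ.pow i
    refine h.eventually_ne ?_
    simp only [eQ0, Finset.sum_const, Finset.card_range, nsmul_eq_mul, mul_one]
    exact hn0
  have ev6 : ∀ᶠ v in 𝓝 (0 : ℂ), ‖v‖ < c / 4 := by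
    filter_upwards [ball_mem_nhds (0 : ℂ) (by linarith : 0 < c / 4)] with v hv
    simpa using hv
  obtain ⟨ρ0, hρ0, hball⟩ := Metric.eventually_nhds_iff_ball.1
    (ev1.and (ev2.and (ev3.and (ev4.and (ev5.and ev6)))))
  -- differentiability of Q
  have hQd : DifferentiableOn ℂ Q (ball 0 ρ0) := by
    intro v hv
    obtain ⟨b1, b2, b3, b4, b5, b6⟩ := hball v hv
    have d1 : DifferentiableAt ℂ Rp v := (XX_diff W hp1 b6).cpow_const (Or.inl b1)
    have d2 : DifferentiableAt ℂ Rm v := (XX_diff W hm1 b6).cpow_const (Or.inl b2)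
    exact ((d2.add_const 1).div (d1.const_add 1) b3).differentiableWithinAt
  obtain ⟨C, hC0, hCb⟩ := asym2 hρ0 hQd dQ
  rw [hQ0] at hCb
  have hμn : 0 < ‖μ‖ := norm_pos_iff.2 hμ0
  set ρ : ℝ := min (ρ0 / 2) (‖μ‖ / (C + 1)) with hρdef
  have hρ : 0 < ρ := lt_min (by positivity) (by positivity)
  have hρ1 : ρ ≤ ρ0 / 2 := min_le_left _ _
  have hρ2 : ρ ≤ ‖μ‖ / (C + 1) := min_le_right _ _
  have hQ1 : ∀ v : ℂ, v ≠ 0 → ‖v‖ < ρ → Q v ≠ 1 := by
    intro v hv0 hv h1
    have h2 := hCb v (by linarith)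
    rw [h1, sub_self, zero_sub, norm_neg, norm_mul, norm_neg] at h2
    have h3 : 0 < ‖v‖ := norm_pos_iff.2 hv0
    have h4 : ‖μ‖ ≤ C * ‖v‖ := by
      have : ‖μ‖ * ‖v‖ ≤ (C * ‖v‖) * ‖v‖ := by
        calc ‖μ‖ * ‖v‖ ≤ C * ‖v‖ ^ 2 := h2
          _ = (C * ‖v‖) * ‖v‖ := by ring
      exact le_of_mul_le_mul_right this h3
    have h5 : ‖v‖ < ‖μ‖ / (C + 1) := hv.trans_le hρ2
    rw [lt_div_iff₀ (by linarith)] at h5
    nlinarith
  -- the model relation
  have hmod : ∀ v : ℂ, ‖v‖ < ρ → Mf n (Rm v) 1 (Rp v) = 0 := by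
    intro v hv
    obtain ⟨b1, b2, b3, b4, b5, b6⟩ := hball v (by simp only [mem_ball, dist_zero_right]; linarith)
    have hz0 : 0 < (z 1 v).re := zeta_re W (by linarith)
    have hzne : z 1 v ≠ 0 := by
      intro h; rw [h] at hz0; simp at hz0
    have hel := W.el 1 v (by
      show ‖v‖ < c / 2 * (1 : ℂ).re
      rw [one_re]; linarith)
    have s1 := shift W hp1 b6
    have s2 := shift W hm1 b6
    have t1 : z (1 + v) v = z 1 v * XX z 1 v := by
      have e : (1 : ℂ) + v = 1 + ((1 : ℝ) : ℂ) * v := by push_cast; ring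
      rw [e, s1]
      unfold XX
      field_simp
    have t2 : z (1 - v) v = z 1 v * XX z (-1) v := by
      have e : (1 : ℂ) - v = 1 + ((-1 : ℝ) : ℂ) * v := by push_cast; ring
      rw [e, s2]
      unfold XX
      field_simp
    rw [t1, t2, cpow_mul_rhp hz0 b1, cpow_mul_rhp hz0 b2] at hel
    have h1 : Mf n (z 1 v ^ μ * Rm v) (z 1 v ^ μ * 1) (z 1 v ^ μ * Rp v) = 0 := by
      rw [mul_one]; exact hel
    rw [Mf_hom] at h1
    refine (mul_eq_zero.1 h1).resolve_left (pow_ne_zero _ ?_)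
    rw [cpow_def_of_ne_zero hzne]
    exact exp_ne_zero _
  have hE1 : ∀ v : ℂ, v ≠ 0 → ‖v‖ < ρ → Gf n (Q v) = 2 * ((n : ℂ) + 1) / n / (1 + Rp v) := by
    intro v hv0 hv
    obtain ⟨b1, b2, b3, b4, b5, b6⟩ := hball v (by simp only [mem_ball, dist_zero_right]; linarith)
    exact E1 hn b3 (hQ1 v hv0 hv) b5 (hmod v hv)
  -- inversion
  have hinv : ∀ v : ℂ, ‖v‖ < ρ → 1 + v ≠ 0 → Rm (v / (1 + v)) = (Rp v)⁻¹ := by
    intro v hv hv1
    obtain ⟨b1, b2, b3, b4, b5, b6⟩ := hball v (by simp only [mem_ball, dist_zero_right]; linarith)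
    have hX : XX z (-1) (v / (1 + v)) = (XX z 1 v)⁻¹ := by
      unfold XX
      have e1 : (1 : ℂ) + ((-1 : ℝ) : ℂ) * (v / (1 + v)) = 1 / (1 + v) := by
        push_cast; field_simp; ring
      have e2 : v / (1 + v) / (1 / (1 + v)) = v := by field_simp
      have e3 : (1 : ℂ) + ((1 : ℝ) : ℂ) * v = 1 + v := by push_cast; ring
      rw [e1, e2, e3]
      rw [inv_div, one_div, inv_mul_eq_div, div_div]
    have harg : (XX z 1 v).arg ≠ Real.pi := by
      have h1 := abs_arg_lt_pi_div_two_iff.2 (Or.inl b1)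
      rw [abs_lt] at h1
      have := Real.pi_pos
      intro h2
      rw [h2] at h1
      linarith [h1.2]
    simp only [hRm, hRp]
    rw [hX, inv_cpow _ _ harg]
  -- conclusion
  refine ⟨1 / ρ, fun l => Q (1 / l), hn, by positivity, ?_, ?_, ?_, ?_⟩
  · have hin : ∀ l ∈ {l : ℂ | 1 / ρ < ‖l‖}, l ≠ 0 ∧ (1 / l) ∈ ball (0 : ℂ) ρ0 := by
      intro l hl
      have hl1 : 1 / ρ < ‖l‖ := hl
      have hl2 : 0 < ‖l‖ := lt_trans (by positivity) hl1
      refine ⟨norm_pos_iff.1 hl2, ?_⟩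
      simp only [mem_ball, dist_zero_right, norm_div, norm_one]
      rw [div_lt_iff₀ hρ] at hl1
      rw [div_lt_iff₀ hl2]
      nlinarith
    intro l hl
    obtain ⟨h1, h2⟩ := hin l hl
    have d1 : DifferentiableAt ℂ Q (1 / l) := (hQd _ h2).differentiableAt (isOpen_ball.mem_nhds h2)
    have d2 : DifferentiableAt ℂ (fun l : ℂ => 1 / l) l :=
      (differentiableAt_const 1).div differentiableAt_id h1
    exact (DifferentiableAt.comp l d1 d2).differentiableWithinAt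
  · intro l hl
    have hl2 : 0 < ‖l‖ := lt_trans (by positivity) hl
    have hv : ‖1 / l‖ < ρ := by
      rw [norm_div, norm_one, div_lt_iff₀ hl2]
      rw [div_lt_iff₀ hρ] at hl
      nlinarith
    obtain ⟨b1, b2, b3, b4, b5, b6⟩ := hball (1 / l)
      (by simp only [mem_ball, dist_zero_right]; linarith)
    have e : 1 / conj l = conj (1 / l) := by rw [map_div₀, map_one]
    simp only [hQ, hRp, hRm]
    rw [e, XX_conj W hp1 b6, XX_conj W hm1 b6, conj_cpow_mu n b1, conj_cpow_mu n b2, map_div₀,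
      map_add, map_add, map_one]
  · refine ⟨C, ?_⟩
    intro l hl
    have hl2 : 0 < ‖l‖ := lt_trans (by positivity) hl
    have hv : ‖1 / l‖ < ρ := by
      rw [norm_div, norm_one, div_lt_iff₀ hl2]
      rw [div_lt_iff₀ hρ] at hl
      nlinarith
    have h1 := hCb (1 / l) (by linarith)
    have e : Q (1 / l) - 1 + mu n / l = Q (1 / l) - 1 - -μ * (1 / l) := by
      rw [hμ]; ring
    rw [e]
    refine h1.trans (le_of_eq ?_)
    rw [norm_div, norm_one]
    ring
  · intro l hl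
    have hρi : 0 < 1 / ρ := by positivity
    have hl1 : 1 / ρ < ‖l‖ := by linarith
    have hl2 : 0 < ‖l‖ := lt_trans (by positivity) hl1
    have hl3 : 1 / ρ < ‖l + 1‖ := by
      have : ‖l‖ ≤ ‖l + 1‖ + 1 := by
        have e : l = (l + 1) - 1 := by ring
        conv_lhs => rw [e]
        refine (norm_sub_le _ _).trans ?_
        rw [norm_one]
      linarith
    have hl4 : 0 < ‖l + 1‖ := lt_trans (by positivity) hl3
    have hl0 : l ≠ 0 := norm_pos_iff.1 hl2
    have hl10 : l + 1 ≠ 0 := norm_pos_iff.1 hl4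
    have hv : ‖1 / l‖ < ρ := by
      rw [norm_div, norm_one, div_lt_iff₀ hl2]
      rw [div_lt_iff₀ hρ] at hl1
      nlinarith
    have hv' : ‖1 / (l + 1)‖ < ρ := by
      rw [norm_div, norm_one, div_lt_iff₀ hl4]
      rw [div_lt_iff₀ hρ] at hl3
      nlinarith
    have hv0 : 1 / l ≠ 0 := one_div_ne_zero hl0
    have hv0' : 1 / (l + 1) ≠ 0 := one_div_ne_zero hl10
    have h1v : 1 + 1 / l ≠ 0 := by
      have : 1 + 1 / l = (l + 1) / l := by field_simp
      rw [this]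
      exact div_ne_zero hl10 hl0
    have evv : 1 / l / (1 + 1 / l) = 1 / (l + 1) := by
      field_simp
    have hi := hinv (1 / l) hv h1v
    rw [evv] at hi
    obtain ⟨b1, b2, b3, b4, b5, b6⟩ := hball (1 / l)
      (by simp only [mem_ball, dist_zero_right]; linarith)
    obtain ⟨b1', b2', b3', b4', b5', b6'⟩ := hball (1 / (l + 1))
      (by simp only [mem_ball, dist_zero_right]; linarith)
    show Gf n (Q (1 / l)) + Gf n (1 / Q (1 / (l + 1))) = 2 * ((n : ℂ) + 1) / n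
    rw [Gf_inv (hQ1 _ hv0' hv') b4', hE1 _ hv0 hv, hE1 _ hv0' hv']
    have hQv' : Q (1 / (l + 1)) = ((Rp (1 / l))⁻¹ + 1) / (1 + Rp (1 / (l + 1))) := by
      show (Rm (1 / (l + 1)) + 1) / (1 + Rp (1 / (l + 1))) = _
      rw [hi]
    have hRne : Rp (1 / l) ≠ 0 := by
      intro h0
      have hX0 : XX z 1 (1 / l) ≠ 0 := by
        intro h; rw [h] at b1; simp at b1
      simp only [hRp] at h0
      rw [cpow_def_of_ne_zero hX0] at h0
      exact exp_ne_zero _ h0
    rw [hQv'] at b4' ⊢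
    have hne2 : (Rp (1 / l))⁻¹ + 1 ≠ 0 := by
      intro h0
      rw [h0, zero_div] at b4'
      exact b4' rfl
    set A := Rp (1 / l) with hA
    set B := Rp (1 / (l + 1)) with hB
    have hA1 : A⁻¹ + 1 = (1 + A) / A := by field_simp
    rw [hA1]
    field_simp

end Vale.Agent.P097.H830.W
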