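import Mathlib

/-!
# P097 (helper830): a chain all of whose letters are glancing is the natural chain

Row S9 of the package STAR of helper82 (notes 8271 (4), 8731).  Pure algebra over `k⟦X⟧`, where `k`
is a field of characteristic `0` with a derivation `d` (`X = s`, `w = s ^ N`).  Lines are pairs
`(e, m)`, `m = p - e ^ 2 * q` for the points `(p, q)` of the line; the law of reflection is
`D p = e * e' * D q` for the two derivations `D` (coefficientwise derivative `Dt`, formal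
derivative `Ds`).
-/

open PowerSeries

namespace Vale.Agent.P097.H830.Glance

variable {k : Type*} [Field k]

/-- additive and Leibniz -/
structure IsD {R : Type*} [CommRing R] (D : R → R) : Prop where
  add : ∀ a b, D (a + b) = D a + D b
  mul : ∀ a b, D (a * b) = D a * b + a * D b

namespace IsD

variable {R : Type*} [CommRing R] {D : R → R} (h : IsD D)
include h

theorem zero : D 0 = 0 := by
  have := h.add 0 0
  simpa using this

theorem neg (a : R) : D (-a) = - D a := by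
  have := h.add a (-a)
  rw [add_neg_cancel, h.zero] at this
  linear_combination -this

theorem sub (a b : R) : D (a - b) = D a - D b := by
  rw [sub_eq_add_neg, h.add, h.neg, sub_eq_add_neg]

theorem sq (a : R) : D (a ^ 2) = 2 * a * D a := by
  rw [pow_two, h.mul]; ring

/-- Reflection law with first line `(e, m)`. -/
theorem law₁ {e e' m p q : R} (h1 : p - e ^ 2 * q = m) (h2 : D p = e * e' * D q) :
    2 * e * D e * q + D m = e * (e' - e) * D q := by
  rw [← h1, h.sub, h.mul, h.sq, h2]; ring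

/-- Reflection law with second line `(e', m')`. -/
theorem law₂ {e e' m' p q : R} (h1 : p - e' ^ 2 * q = m') (h2 : D p = e * e' * D q) :
    2 * e' * D e' * q + D m' = e' * (e - e') * D q := by
  rw [← h1, h.sub, h.mul, h.sq, h2]; ring

end IsD

section series

variable {d : k → k} {Dt Ds : k⟦X⟧ → k⟦X⟧}

theorem isD_of_coeff (hd : IsD d) (hDt : ∀ f n, coeff n (Dt f) = d (coeff n f)) : IsD Dt where
  add a b := by
    ext n
    simp only [hDt, map_add, hd.add]
  mul a b := by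
    have hsum : ∀ (s : Finset (ℕ × ℕ)) (F : ℕ × ℕ → k), d (∑ i ∈ s, F i) = ∑ i ∈ s, d (F i) := by
      classical
      intro s F
      induction s using Finset.induction_on with
      | empty => simp [hd.zero]
      | insert a s ha ih => rw [Finset.sum_insert ha, Finset.sum_insert ha, hd.add, ih]
    ext n
    rw [hDt, coeff_mul, hsum, map_add, coeff_mul, coeff_mul, ← Finset.sum_add_distrib]
    refine Finset.sum_congr rfl fun i _ => ?_
    rw [hd.mul, hDt, hDt]

theorem isD_of_deriv (hDs : ∀ f n, coeff n (Ds f) = coeff (n + 1) f * (n + 1)) : IsD Ds := by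
  have : Ds = fun f => PowerSeries.derivative k f := by
    funext f
    ext n
    rw [hDs, coeff_derivative]
  rw [this]
  refine ⟨fun a b => map_add _ a b, fun a b => ?_⟩
  rw [Derivation.leibniz]
  simp only [smul_eq_mul]
  ring

theorem Dt_X_pow (hd : IsD d) (hDt : ∀ f n, coeff n (Dt f) = d (coeff n f)) (n : ℕ) (f : k⟦X⟧) :
    Dt (X ^ n * f) = X ^ n * Dt f := by
  ext m
  rw [hDt, coeff_X_pow_mul', coeff_X_pow_mul']
  split_ifs with h
  · rw [hDt]
  · exact hd.zero

theorem Ds_X_pow (hDs : ∀ f n, coeff n (Ds f) = coeff (n + 1) f * (n + 1)) (n : ℕ) (f : k⟦X⟧) :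
    Ds (X ^ (n + 1) * f) = X ^ n * ((n + 1 : k⟦X⟧) * f + X * Ds f) := by
  have h : Ds = fun f => PowerSeries.derivative k f := by
    funext f
    ext n
    rw [hDs, coeff_derivative]
  rw [h]
  simp only [Derivation.leibniz, Derivation.leibniz_pow, smul_eq_mul, nsmul_eq_mul]
  rw [show PowerSeries.derivative k (X : k⟦X⟧) = 1 by
    ext n
    rw [coeff_derivative, coeff_X, coeff_one]
    by_cases hn : n = 0
    · simp [hn]
    · have : n + 1 ≠ 1 := by omega
      simp [hn]]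
  push_cast
  ring

theorem Ds_C (hDs : ∀ f n, coeff n (Ds f) = coeff (n + 1) f * (n + 1)) (a : k) :
    Ds (C a) = 0 := by
  ext n
  rw [hDs, coeff_C]
  simp

theorem Dt_cc (hDt : ∀ f n, coeff n (Dt f) = d (coeff n f)) (f : k⟦X⟧) :
    constantCoeff (Dt f) = d (constantCoeff f) := by
  rw [← coeff_zero_eq_constantCoeff_apply, hDt, coeff_zero_eq_constantCoeff_apply]

/-- The comparison of a point of the line `(e, m)` satisfying the rank condition with a natural
one. -/
theorem core [CharZero k] (hd : IsD d) (hDt : ∀ f n, coeff n (Dt f) = d (coeff n f))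
    (hDs : ∀ f n, coeff n (Ds f) = coeff (n + 1) f * (n + 1))
    {N' : ℕ} {e0 q0 κ σ : k} (he0 : e0 ≠ 0) (he0' : d e0 ≠ 0) (hq0' : d q0 ≠ 0) (hσ : σ ≠ 0)
    {e m qh q f g h c : k⟦X⟧}
    (he : e = C e0 + X ^ (N' + 1) * (C (κ * d e0) + X * f))
    (hqh : qh = C q0 + X ^ (N' + 1) * (C ((κ + σ / 2) * d q0) + X * g))
    (hA : 2 * e * Dt e * qh + Dt m = X ^ (N' + 1) * (C (σ * (e0 * d e0 * d q0)) + X * h))
    (hB : 2 * e * Ds e * qh + Ds m = X ^ (N' + 1) * c)
    (hR : (2 * e * Dt e * qh + Dt m) * Ds qh = (2 * e * Ds e * qh + Ds m) * Dt qh)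
    (hq : constantCoeff q = q0)
    (hRq : (2 * e * Dt e * q + Dt m) * Ds q = (2 * e * Ds e * q + Ds m) * Dt q)
    (hne : q ≠ qh) :
    ∃ u, q = qh + X ^ (N' + 1) * u ∧ constantCoeff u = - σ * d q0 := by
  have iDt := isD_of_coeff hd hDt
  have iDs := isD_of_deriv hDs
  have hx0 : q - qh ≠ 0 := sub_ne_zero.2 hne
  have hcc : constantCoeff (q - qh) = 0 := by
    rw [map_sub, hq, hqh]
    simp
  obtain ⟨r, u, hxu, hu0⟩ : ∃ (r : ℕ) (u : k⟦X⟧), q - qh = X ^ r * u ∧ constantCoeff u ≠ 0 :=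
    ⟨_, _, X_pow_order_mul_divXPowOrder.symm, fun h => hx0 (constantCoeff_divXPowOrder_eq_zero_iff.1 h)⟩
  have hr : r ≠ 0 := by
    rintro rfl
    rw [pow_zero, one_mul] at hxu
    rw [hxu] at hcc
    exact hu0 hcc
  obtain ⟨r', rfl⟩ := Nat.exists_eq_succ_of_ne_zero hr
  rw [Nat.succ_eq_add_one] at hxu
  have hqx : q = qh + X ^ (r' + 1) * u := by rw [← hxu]; ring
  -- derivatives
  set v : k⟦X⟧ := (r' + 1 : k⟦X⟧) * u + X * Ds u with hv
  set b : k⟦X⟧ := (N' + 1 : k⟦X⟧) * (C ((κ + σ / 2) * d q0) + X * g) +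
    X * Ds (C ((κ + σ / 2) * d q0) + X * g) with hb
  set γ : k⟦X⟧ := (N' + 1 : k⟦X⟧) * (C (κ * d e0) + X * f) + X * Ds (C (κ * d e0) + X * f) with hγ
  have h1 : Ds qh = X ^ N' * b := by
    rw [hqh, iDs.add, Ds_C hDs, Ds_X_pow hDs, zero_add]
  have h2 : Ds e = X ^ N' * γ := by
    rw [he, iDs.add, Ds_C hDs, Ds_X_pow hDs, zero_add]
  have h3 : Ds q = X ^ N' * b + X ^ r' * v := by
    rw [hqx, iDs.add, h1, Ds_X_pow hDs]
  have h4 : Dt q = Dt qh + X ^ (r' + 1) * Dt u := by
    rw [hqx, iDt.add, Dt_X_pow hd hDt]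
  set a : k⟦X⟧ := C (σ * (e0 * d e0 * d q0)) + X * h with ha
  set F1 : k⟦X⟧ := a * v + 2 * e * Dt e * u * b - X * c * Dt u - 2 * e * γ * u * Dt qh -
    2 * e * γ * X ^ (r' + 1) * u * Dt u with hF1
  set F2 : k⟦X⟧ := 2 * e * Dt e * u * v with hF2
  have key : X ^ (r' + 1) * (X ^ N' * F1 + X ^ r' * F2) = 0 := by
    rw [h3, h4] at hRq
    rw [h1] at hR
    have e1 : 2 * e * Dt e * q + Dt m = X ^ (N' + 1) * a + 2 * e * Dt e * (X ^ (r' + 1) * u) := by
      rw [← hA, hqx]; ring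
    have e2 : 2 * e * Ds e * q + Ds m = X ^ (N' + 1) * c +
        2 * e * (X ^ N' * γ) * (X ^ (r' + 1) * u) := by
      rw [← hB, ← h2, hqx]; ring
    rw [e1, e2] at hRq
    rw [hA, hB] at hR
    rw [hF1, hF2]
    linear_combination hRq - hR
  have key2 : X ^ N' * F1 + X ^ r' * F2 = 0 :=
    (mul_eq_zero.1 key).resolve_left (pow_ne_zero _ X_ne_zero)
  have cce : constantCoeff e = e0 := by rw [he]; simp
  have ccv : constantCoeff v = (r' + 1) * constantCoeff u := by rw [hv]; simp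
  have ccb : constantCoeff b = (N' + 1) * ((κ + σ / 2) * d q0) := by rw [hb]; simp
  have ccγ : constantCoeff γ = (N' + 1) * (κ * d e0) := by rw [hγ]; simp
  have cca : constantCoeff a = σ * (e0 * d e0 * d q0) := by rw [ha]; simp
  have ccet : constantCoeff (Dt e) = d e0 := by rw [Dt_cc hDt, cce]
  have ccqt : constantCoeff (Dt qh) = d q0 := by rw [Dt_cc hDt, hqh]; simp
  have F1c : constantCoeff F1 = σ * e0 * d e0 * d q0 * constantCoeff u * (r' + 1 + (N' + 1)) := by
    rw [hF1]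
    simp only [map_sub, map_add, map_mul, map_pow, constantCoeff_X, cca, ccv, cce, ccet, ccb, ccγ,
      ccqt, map_ofNat]
    ring
  have F2c : constantCoeff F2 = 2 * e0 * d e0 * constantCoeff u ^ 2 * (r' + 1) := by
    rw [hF2]
    simp only [map_mul, cce, ccet, ccv, map_ofNat]
    ring
  have hr1 : (r' + 1 : k) ≠ 0 := by exact_mod_cast Nat.succ_ne_zero r'
  have hN1 : (N' + 1 : k) ≠ 0 := by exact_mod_cast Nat.succ_ne_zero N'
  have hrN : (r' + 1 + (N' + 1) : k) ≠ 0 := by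
    have : ((r' + 1 + (N' + 1) : ℕ) : k) ≠ 0 := Nat.cast_ne_zero.2 (by omega)
    push_cast at this
    exact this
  rcases lt_trichotomy r' N' with hlt | heq | hgt
  · exfalso
    obtain ⟨j, rfl⟩ := Nat.exists_eq_add_of_lt hlt
    have : X ^ r' * (X * (X ^ j * F1) + F2) = 0 := by
      rw [← key2]; ring
    have h5 := (mul_eq_zero.1 this).resolve_left (pow_ne_zero _ X_ne_zero)
    have h6 := congrArg constantCoeff h5
    rw [map_add, map_mul, constantCoeff_X, zero_mul, zero_add, F2c, map_zero] at h6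
    have : 2 * e0 * d e0 * constantCoeff u ^ 2 * (r' + 1) ≠ 0 := by
      refine mul_ne_zero (mul_ne_zero (mul_ne_zero (mul_ne_zero two_ne_zero he0) he0')
        (pow_ne_zero _ hu0)) hr1
    exact this h6
  · subst heq
    refine ⟨u, hqx, ?_⟩
    have h5 : X ^ r' * (F1 + F2) = 0 := by rw [← key2]; ring
    have h6 := congrArg constantCoeff ((mul_eq_zero.1 h5).resolve_left (pow_ne_zero _ X_ne_zero))
    rw [map_add, F1c, F2c, map_zero] at h6
    have h7 : (2 * (r' + 1) * e0 * d e0 * constantCoeff u) * (σ * d q0 + constantCoeff u) = 0 := by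
      rw [← h6]; ring
    have h8 := (mul_eq_zero.1 h7).resolve_left
      (mul_ne_zero (mul_ne_zero (mul_ne_zero (mul_ne_zero two_ne_zero hr1) he0) he0') hu0)
    linear_combination h8
  · exfalso
    obtain ⟨j, rfl⟩ := Nat.exists_eq_add_of_lt hgt
    have : X ^ N' * (F1 + X * (X ^ j * F2)) = 0 := by
      rw [← key2]; ring
    have h5 := (mul_eq_zero.1 this).resolve_left (pow_ne_zero _ X_ne_zero)
    have h6 := congrArg constantCoeff h5
    rw [map_add, map_mul, constantCoeff_X, zero_mul, add_zero, F1c, map_zero] at h6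
    exact (mul_ne_zero (mul_ne_zero (mul_ne_zero (mul_ne_zero (mul_ne_zero hσ he0) he0') hq0') hu0)
      hrN) h6

/-- Natural data: lines `(E κ, M κ)` and vertices `(P κ, Q κ)` between the lines `κ` and `κ + 1`,
`κ : ℤ`, with the expansions of an integrable table at `w = X ^ N`. -/
structure Nat' (d : k → k) (Dt Ds : k⟦X⟧ → k⟦X⟧) (N : ℕ) (e0 q0 : k) (E M P Q : ℤ → k⟦X⟧) :
    Prop where
  e : ∀ κ : ℤ, ∃ f, E κ = C e0 + X ^ N * (C (κ * d e0) + X * f)
  q : ∀ κ : ℤ, ∃ f, Q κ = C q0 + X ^ N * (C ((κ + 1 / 2) * d q0) + X * f)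
  inc₁ : ∀ κ, P κ - E κ ^ 2 * Q κ = M κ
  inc₂ : ∀ κ, P κ - E (κ + 1) ^ 2 * Q κ = M (κ + 1)
  lawt : ∀ κ, Dt (P κ) = E κ * E (κ + 1) * Dt (Q κ)
  laws : ∀ κ, Ds (P κ) = E κ * E (κ + 1) * Ds (Q κ)

section step

variable [CharZero k] {N : ℕ} {e0 q0 : k} {E M P Q : ℤ → k⟦X⟧}

/-- A vertex on a natural line, whose next direction has the same constant coefficient, is one of
the two natural vertices of this line. -/
theorem step (hd : IsD d) (hDt : ∀ f n, coeff n (Dt f) = d (coeff n f))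
    (hDs : ∀ f n, coeff n (Ds f) = coeff (n + 1) f * (n + 1)) (hN : 0 < N)
    (he0 : e0 ≠ 0) (he0' : d e0 ≠ 0) (hq0' : d q0 ≠ 0) (H : Nat' d Dt Ds N e0 q0 E M P Q)
    {κ : ℤ} {p q e' m' : k⟦X⟧} (i1 : p - E κ ^ 2 * q = M κ) (i2 : p - e' ^ 2 * q = m')
    (l1 : Dt p = E κ * e' * Dt q) (l2 : Ds p = E κ * e' * Ds q)
    (he' : constantCoeff e' = e0) (hq' : d (constantCoeff q) ≠ 0) :
    (q = Q κ ∧ p = P κ ∧ e' = E (κ + 1) ∧ m' = M (κ + 1)) ∨
      (q = Q (κ - 1) ∧ p = P (κ - 1) ∧ e' = E (κ - 1) ∧ m' = M (κ - 1)) := by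
  have iDt := isD_of_coeff hd hDt
  have iDs := isD_of_deriv hDs
  obtain ⟨N', rfl⟩ := Nat.exists_eq_succ_of_ne_zero hN.ne'
  rw [Nat.succ_eq_add_one] at H
  -- the two natural points on the line `κ`
  have Ap := iDt.law₁ (H.inc₁ κ) (H.lawt κ)
  have Bp := iDs.law₁ (H.inc₁ κ) (H.laws κ)
  have i1m : P (κ - 1) - E κ ^ 2 * Q (κ - 1) = M κ := by
    have := H.inc₂ (κ - 1)
    rwa [sub_add_cancel] at this
  have ltm : Dt (P (κ - 1)) = E (κ - 1) * E κ * Dt (Q (κ - 1)) := by
    have := H.lawt (κ - 1)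
    rwa [sub_add_cancel] at this
  have lsm : Ds (P (κ - 1)) = E (κ - 1) * E κ * Ds (Q (κ - 1)) := by
    have := H.laws (κ - 1)
    rwa [sub_add_cancel] at this
  have Am := iDt.law₂ i1m ltm
  have Bm := iDs.law₂ i1m lsm
  have A := iDt.law₁ i1 l1
  have B := iDs.law₁ i1 l2
  obtain ⟨f, hf⟩ := H.e κ
  obtain ⟨fp, hfp⟩ := H.e (κ + 1)
  obtain ⟨fm, hfm⟩ := H.e (κ - 1)
  obtain ⟨g, hg⟩ := H.q κ
  obtain ⟨gm, hgm⟩ := H.q (κ - 1)
  have cE : constantCoeff (E κ) = e0 := by rw [hf]; simp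
  have cEt : constantCoeff (Dt (E κ)) = d e0 := by rw [Dt_cc hDt, cE]
  have cQ : constantCoeff (Q κ) = q0 := by rw [hg]; simp
  have cEp : constantCoeff (E (κ + 1)) = e0 := by rw [hfp]; simp
  have cEm : constantCoeff (E (κ - 1)) = e0 := by rw [hfm]; simp
  -- constant coefficient of `q`
  have hq : constantCoeff q = q0 := by
    have h1 := congrArg constantCoeff A
    have h2 := congrArg constantCoeff Ap
    simp only [map_add, map_mul, map_sub, cE, cEt, cQ, cEp, he', sub_self, mul_zero, zero_mul,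
      map_ofNat] at h1 h2
    have h3 : 2 * e0 * d e0 * (constantCoeff q - q0) = 0 := by linear_combination h1 - h2
    exact sub_eq_zero.1 ((mul_eq_zero.1 h3).resolve_left
      (mul_ne_zero (mul_ne_zero two_ne_zero he0) he0'))
  have hEp : E (κ + 1) - E κ = X ^ (N' + 1) * (C (d e0) + X * (fp - f)) := by
    rw [hf, hfp]
    push_cast
    simp only [map_mul, map_add, map_one]
    ring
  have hEm : E (κ - 1) - E κ = X ^ (N' + 1) * (C (-d e0) + X * (fm - f)) := by
    rw [hf, hfm]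
    push_cast
    simp only [map_mul, map_sub, map_one, map_neg]
    ring
  have exX : ∀ F : k⟦X⟧, ∃ G, F = C (constantCoeff F) + X * G := by
    intro F
    obtain ⟨G, hG⟩ := X_dvd_iff.2 (show constantCoeff (F - C (constantCoeff F)) = 0 by simp)
    exact ⟨G, by rw [← hG]; ring⟩
  have cQt : constantCoeff (Dt (Q κ)) = d q0 := by rw [Dt_cc hDt, cQ]
  have cQm : constantCoeff (Q (κ - 1)) = q0 := by rw [hgm]; simp
  have cQmt : constantCoeff (Dt (Q (κ - 1))) = d q0 := by rw [Dt_cc hDt, cQm]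
  -- `A(q₊)`
  obtain ⟨hp, hhp⟩ := exX (E κ * (C (d e0) + X * (fp - f)) * Dt (Q κ))
  have Ap' : 2 * E κ * Dt (E κ) * Q κ + Dt (M κ) =
      X ^ (N' + 1) * (C ((1 : k) * (e0 * d e0 * d q0)) + X * hp) := by
    rw [Ap, hEp, show e0 * d e0 * d q0 =
      constantCoeff (E κ * (C (d e0) + X * (fp - f)) * Dt (Q κ)) by simp [cE, cQt], one_mul,
      ← hhp]
    ring
  obtain ⟨hm, hhm⟩ := exX (E κ * (C (-d e0) + X * (fm - f)) * Dt (Q (κ - 1)))
  have Am' : 2 * E κ * Dt (E κ) * Q (κ - 1) + Dt (M κ) =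
      X ^ (N' + 1) * (C ((-1 : k) * (e0 * d e0 * d q0)) + X * hm) := by
    rw [Am, hEm, show (-1 : k) * (e0 * d e0 * d q0) =
      constantCoeff (E κ * (C (-d e0) + X * (fm - f)) * Dt (Q (κ - 1))) by simp [cE, cQmt],
      ← hhm]
    ring
  have Bp' : 2 * E κ * Ds (E κ) * Q κ + Ds (M κ) =
      X ^ (N' + 1) * (E κ * (C (d e0) + X * (fp - f)) * Ds (Q κ)) := by
    rw [Bp, hEp]
    ring
  have Bm' : 2 * E κ * Ds (E κ) * Q (κ - 1) + Ds (M κ) =
      X ^ (N' + 1) * (E κ * (C (-d e0) + X * (fm - f)) * Ds (Q (κ - 1))) := by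
    rw [Bm, hEm]
    ring
  have Rp : (2 * E κ * Dt (E κ) * Q κ + Dt (M κ)) * Ds (Q κ) =
      (2 * E κ * Ds (E κ) * Q κ + Ds (M κ)) * Dt (Q κ) := by
    rw [Ap, Bp]; ring
  have Rm : (2 * E κ * Dt (E κ) * Q (κ - 1) + Dt (M κ)) * Ds (Q (κ - 1)) =
      (2 * E κ * Ds (E κ) * Q (κ - 1) + Ds (M κ)) * Dt (Q (κ - 1)) := by
    rw [Am, Bm]; ring
  have R : (2 * E κ * Dt (E κ) * q + Dt (M κ)) * Ds q =
      (2 * E κ * Ds (E κ) * q + Ds (M κ)) * Dt q := by
    rw [A, B]; ring
  have hqp : Q κ = C q0 + X ^ (N' + 1) * (C (((κ : k) + (1 : k) / 2) * d q0) + X * g) := hg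
  have hqm : Q (κ - 1) = C q0 + X ^ (N' + 1) * (C (((κ : k) + (-1 : k) / 2) * d q0) + X * gm) := by
    rw [hgm]
    congr 4
    push_cast
    ring
  -- the dichotomy
  have hcase : q = Q κ ∨ q = Q (κ - 1) := by
    by_contra hcon
    push Not at hcon
    obtain ⟨u, hu, hu0⟩ := core hd hDt hDs he0 he0' hq0' one_ne_zero hf hqp Ap' Bp' Rp hq R hcon.1
    obtain ⟨v, hv, hv0⟩ := core hd hDt hDs he0 he0' hq0' (neg_ne_zero.2 one_ne_zero) hf hqm Am' Bm'
      Rm hq R hcon.2
    have h1 : X ^ (N' + 1) * (C (((κ : k) + (1 : k) / 2) * d q0) + X * g + u -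
        (C (((κ : k) + (-1 : k) / 2) * d q0) + X * gm + v)) = 0 := by
      have h2 : Q κ + X ^ (N' + 1) * u = Q (κ - 1) + X ^ (N' + 1) * v := hu.symm.trans hv
      rw [hqp, hqm] at h2
      linear_combination h2
    have h3 := congrArg constantCoeff ((mul_eq_zero.1 h1).resolve_left (pow_ne_zero _ X_ne_zero))
    simp only [map_sub, map_add, map_mul, constantCoeff_C, constantCoeff_X, zero_mul, add_zero,
      hu0, hv0, map_zero] at h3
    apply hq0'
    linear_combination -h3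
  have hEκ : E κ ≠ 0 := by
    intro h
    rw [h] at cE
    exact he0 (by rw [← cE]; simp)
  have hqt : Dt q ≠ 0 := by
    intro h
    apply hq'
    rw [← Dt_cc hDt, h, map_zero]
  rcases hcase with rfl | rfl
  · left
    have h1 : E κ * (e' - E κ) * Dt (Q κ) = E κ * (E (κ + 1) - E κ) * Dt (Q κ) := by
      rw [← A, ← Ap]
    have h2 := mul_left_cancel₀ hEκ (mul_right_cancel₀ hqt h1)
    have h3 : e' = E (κ + 1) := by linear_combination h2
    have h4 : p = P κ := by
      linear_combination i1 - H.inc₁ κ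
    refine ⟨rfl, h4, h3, ?_⟩
    rw [← i2, h3, h4, H.inc₂]
  · right
    have h1 : E κ * (e' - E κ) * Dt (Q (κ - 1)) = E κ * (E (κ - 1) - E κ) * Dt (Q (κ - 1)) := by
      rw [← A, ← Am]
    have h2 := mul_left_cancel₀ hEκ (mul_right_cancel₀ hqt h1)
    have h3 : e' = E (κ - 1) := by linear_combination h2
    have h4 : p = P (κ - 1) := by
      linear_combination i1 - i1m
    refine ⟨rfl, h4, h3, ?_⟩
    rw [← i2, h3, h4, H.inc₁]

/-- **All letters glancing: the chain is the natural chain.** -/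
theorem glance (hd : IsD d) (hDt : ∀ f n, coeff n (Dt f) = d (coeff n f))
    (hDs : ∀ f n, coeff n (Ds f) = coeff (n + 1) f * (n + 1)) (hN : 0 < N)
    (he0 : e0 ≠ 0) (he0' : d e0 ≠ 0) (hq0' : d q0 ≠ 0) (H : Nat' d Dt Ds N e0 q0 E M P Q)
    {n : ℕ} {p q e m : ℕ → k⟦X⟧}
    (i1 : ∀ j < n, p j - e j ^ 2 * q j = m j) (i2 : ∀ j < n, p j - e (j + 1) ^ 2 * q j = m (j + 1))
    (l1 : ∀ j < n, Dt (p j) = e j * e (j + 1) * Dt (q j))
    (l2 : ∀ j < n, Ds (p j) = e j * e (j + 1) * Ds (q j))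
    (s1 : e 0 = E 0) (s2 : m 0 = M 0) (t1 : e n = E n)
    (he : ∀ j < n, constantCoeff (e (j + 1)) = e0) (hq : ∀ j < n, d (constantCoeff (q j)) ≠ 0) :
    (∀ j ≤ n, e j = E j ∧ m j = M j) ∧ ∀ j < n, q j = Q j ∧ p j = P j := by
  -- the lines are natural lines
  have h1 : ∀ j ≤ n, ∃ κ : ℤ, κ ≤ j ∧ e j = E κ ∧ m j = M κ ∧
      (κ = j → (∀ i ≤ j, e i = E i ∧ m i = M i) ∧ ∀ i < j, q i = Q i ∧ p i = P i) := by
    intro j
    induction j with
    | zero =>
      intro _
      refine ⟨0, le_refl _, s1, s2, fun _ => ⟨fun i hi => ?_, fun i hi => absurd hi (by omega)⟩⟩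
      obtain rfl : i = 0 := by omega
      exact ⟨s1, s2⟩
    | succ j ih =>
      intro hj
      obtain ⟨κ, hκ, h2, h3, h4⟩ := ih (by omega)
      have i1' := i1 j (by omega)
      have l1' := l1 j (by omega)
      have l2' := l2 j (by omega)
      rw [h2, h3] at i1'
      rw [h2] at l1' l2'
      rcases step hd hDt hDs hN he0 he0' hq0' H i1' (i2 j (by omega)) l1' l2' (he j (by omega))
        (hq j (by omega)) with ⟨a1, a2, a3, a4⟩ | ⟨a1, a2, a3, a4⟩
      · refine ⟨κ + 1, by push_cast; omega, a3, a4, fun h5 => ?_⟩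
        have h6 : κ = j := by push_cast at h5; omega
        obtain ⟨b1, b2⟩ := h4 h6
        subst h6
        refine ⟨fun i hi => ?_, fun i hi => ?_⟩
        · rcases Nat.lt_or_ge i (j + 1) with h7 | h7
          · exact b1 i (by omega)
          · obtain rfl : i = j + 1 := by omega
            push_cast
            exact ⟨a3, a4⟩
        · rcases Nat.lt_or_ge i j with h7 | h7
          · exact b2 i h7
          · obtain rfl : i = j := by omega
            exact ⟨a1, a2⟩
      · refine ⟨κ - 1, by push_cast; omega, a3, a4, fun h5 => ?_⟩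
        exfalso
        push_cast at h5
        omega
  obtain ⟨κ, hκ, h2, h3, h4⟩ := h1 n le_rfl
  have h5 : κ = n := by
    obtain ⟨f, hf⟩ := H.e κ
    obtain ⟨g, hg⟩ := H.e n
    have h6 : X ^ N * (C ((κ : k) * d e0) + X * f - (C (((n : ℤ) : k) * d e0) + X * g)) = 0 := by
      have : E κ = E n := by rw [← h2, t1]
      rw [hf, hg] at this
      linear_combination this
    have h7 := congrArg constantCoeff ((mul_eq_zero.1 h6).resolve_left (pow_ne_zero _ X_ne_zero))
    simp only [map_sub, map_add, map_mul, constantCoeff_C, constantCoeff_X, zero_mul, add_zero,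
      map_zero] at h7
    have h8 : ((κ - (n : ℤ) : ℤ) : k) * d e0 = 0 := by
      push_cast
      push_cast at h7
      linear_combination h7
    have h9 := (mul_eq_zero.1 h8).resolve_right he0'
    have h10 : κ - (n : ℤ) = 0 := by exact_mod_cast h9
    omega
  exact h4 h5

end step

end series

end Vale.Agent.P097.H830.Glance
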