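import Vale.Agent.P097.H830.NQ
import Vale.Agent.P097.H226.W.Defs2

/-!
# P097 / block (W), row W-BRG, mid-level half: the nested point in the coordinates `StM`
-/

set_option linter.all false

open Complex Metric Set Filter Topology
open scoped ComplexConjugate

namespace Vale.Agent.P097.H830.NQ

open Vale.Agent.P097.TC Vale.Agent.P097.H85 Vale.Agent.P097.H929 Vale.Agent.P097.H560
open Vale.Agent.P097.H226.W (Bx Qu Md ax StM)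

/-- the coordinates `Sm` of helper560 and `StM` of helper226, rescaled -/
theorem StM_eq_Sm (P : ℝ → ℂ) (Ψ : ℂ → ℂ) (y u ρ S : ℝ) (hρ : ρ ≠ 0) (β : ℂ × ℂ) :
    StM P Ψ y u ρ (((S / ρ : ℝ) : ℂ) * β.1, ((S / ρ : ℝ) : ℂ) * β.2) = Sm P Ψ y u S β := by
  have h1 : (ρ : ℂ) * ((S / ρ : ℝ) : ℂ) = (S : ℂ) := by
    rw [← ofReal_mul]
    congr 1
    field_simp
  have h2 : ∀ z : ℂ, (ρ : ℂ) * (((S / ρ : ℝ) : ℂ) * z) = S * z := by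
    intro z
    rw [← mul_assoc, h1]
  show ((((y - (P u).re : ℝ) : ℂ) + ρ * (((S / ρ : ℝ) : ℂ) * β.1) +
    Ψ (u + ρ * (((S / ρ : ℝ) : ℂ) * β.2)), (u : ℂ) + ρ * (((S / ρ : ℝ) : ℂ) * β.2)) : ℂ × ℂ) = _
  rw [h2, h2]
  rfl

/-- mid-level windows do not depend on the scale of the coordinates -/
theorem Md_scale {H : ℝ} {F : ℂ → ℂ} {th : ℂ × ℂ → ℂ} {P : ℝ → ℂ} {Ψ : ℂ → ℂ} {y u S ρ X om e t : ℝ}
    (hS : 0 < S) (hρ : 0 < ρ) (h : Md H F (th ∘ Sm P Ψ y u S) X om e (t / S)) :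
    Md H F (fun z => th (StM P Ψ y u ρ z)) X om e (t / ρ) := by
  obtain ⟨β, h1, h2, h3, h4, h5⟩ := h
  have hq : 0 < S / ρ := div_pos hS hρ
  have e1 : om * (t / ρ) = S / ρ * (om * (t / S)) := by
    field_simp
  have e2 : X * (t / ρ) = S / ρ * (X * (t / S)) := by
    field_simp
  have e3 : StM P Ψ y u ρ (((S / ρ : ℝ) : ℂ) * β.1, ((S / ρ : ℝ) : ℂ) * β.2) = Sm P Ψ y u S β :=
    StM_eq_Sm P Ψ y u ρ S hρ.ne' β
  refine ⟨(((S / ρ : ℝ) : ℂ) * β.1, ((S / ρ : ℝ) : ℂ) * β.2), ?_, ?_, ?_, ?_, ?_⟩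
  · show _ ≤ -(((S / ρ : ℝ) : ℂ) * β.1).im
    rw [e1, im_ofReal_mul, ← mul_neg]
    exact mul_le_mul_of_nonneg_left h1 hq.le
  · show _ ≤ (((S / ρ : ℝ) : ℂ) * β.2).im
    rw [e1, im_ofReal_mul]
    exact mul_le_mul_of_nonneg_left h2 hq.le
  · have e4 : ((((S / ρ : ℝ) : ℂ) * β.1, ((S / ρ : ℝ) : ℂ) * β.2) : ℂ × ℂ) =
        ((S / ρ : ℝ) : ℂ) • β := rfl
    rw [e4, norm_smul, norm_real, Real.norm_eq_abs, abs_of_pos hq, e2]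
    exact mul_le_mul_of_nonneg_left h3 hq.le
  · show |(th (StM P Ψ y u ρ _)).im| ≤ _
    rw [e3]
    exact h4
  · show _ ≤ ‖deriv F (th (StM P Ψ y u ρ _))‖
    rw [e3]
    exact h5

/-- **row W-BRG, mid-level half**, literally the first clause of `H226.W.Brg` -/
theorem brg_md {Λ H : ℝ} {F q : ℂ → ℂ} {b m : ℝ} {Ψ : ℂ → ℂ} {Mj Mk B : Set (ℂ × ℂ)}
    {A : Set ℝ} {P : ℝ → ℂ} {c k : ℝ → ℝ} {K y₀ u₀ σ s : ℝ} {al p th : ℂ × ℂ → ℂ} {J : ℂ → ℂ}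
    (W : A5.W5 Λ H F q b m Ψ Mj Mk B A P c k K y₀ u₀ σ s al p th J) {C c₁ : ℝ}
    (hC : 0 < C) (hc : 0 < c₁) :
    ∃ X om e d : ℝ, 1 ≤ X ∧ 0 < om ∧ om ≤ 1 ∧ 0 < e ∧ 0 < d ∧ d ≤ 1 ∧
    ∀ u ∈ A, |u - u₀| < d → ∀ y : ℝ, |y - y₀| < d → ∀ h : ℝ, A5.Nst H b F P th C c₁ h y u →
    ∀ ρ : ℝ, 0 < ρ → ρ ≤ d → ρ ≤ d * h → ∀ t : ℝ, 0 < t → t ≤ 1 →
      Md H F (fun z => th (StM P Ψ y u ρ z)) X om e t := by
  obtain ⟨X, om, e, d, τ, hX, hom, hom1, he, hd, hτ, hτ1, hh⟩ := nq W hC hc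
  have hτ2 : 0 < τ * τ := mul_pos hτ hτ
  refine ⟨X, om, e, min (min d (τ * τ)) 1, hX, hom, hom1, he,
    lt_min (lt_min hd hτ2) one_pos, min_le_right _ _, ?_⟩
  intro u hu hud y hyd h hN ρ hρ hρd hρh t ht ht1
  have a1 : min (min d (τ * τ)) 1 ≤ d := (min_le_left _ _).trans (min_le_left _ _)
  have a2 : min (min d (τ * τ)) 1 ≤ τ * τ := (min_le_left _ _).trans (min_le_right _ _)
  have a3 : τ * τ ≤ τ := by nlinarith
  have hh0 : 0 < h := by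
    by_contra hn
    have : min (min d (τ * τ)) 1 * h ≤ 0 :=
      mul_nonpos_of_nonneg_of_nonpos (le_min (le_min hd.le hτ2.le) zero_le_one) (not_lt.1 hn)
    linarith
  have hS : 0 < ρ / τ := div_pos hρ hτ
  have b1 : ρ / τ ≤ τ := by
    rw [div_le_iff₀ hτ]
    exact hρd.trans a2
  have b2 : ρ * t ≤ τ * (ρ / τ) := by
    rw [mul_div_cancel₀ _ hτ.ne']
    nlinarith
  have b3 : ρ * t ≤ τ * h := by
    have c1 : ρ * t ≤ ρ := by nlinarith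
    have c2 : min (min d (τ * τ)) 1 * h ≤ τ * h :=
      mul_le_mul_of_nonneg_right (a2.trans a3) hh0.le
    linarith
  obtain ⟨h1, -⟩ := hh u hu (lt_of_lt_of_le hud a1) y (lt_of_lt_of_le hyd a1) h hN (ρ / τ) (ρ * t)
    hS b1 (mul_pos hρ ht) b2 b3
  have h2 := Md_scale hS hρ h1
  rwa [mul_div_cancel_left₀ _ hρ.ne'] at h2

end Vale.Agent.P097.H830.NQ
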