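import Vale.Agent.P097.H202.Lines2
import Vale.Agent.P097.H330.Core

/-! # P097 / H830: Case III, algebra of the reflection law (line coordinates) -/

set_option linter.all false

open Complex Metric Filter Topology Set
open Vale.Agent.P097.TA Vale.Agent.P097.H202

namespace Vale.Agent.P097.H830

/-- half sum of the directions of two consecutive lines -/
noncomputable def ps (α : ℂ → ℂ → ℂ) (u w : ℂ) : ℂ := (α (u + w) w + α u w) / 2

/-- half difference of the directions of two consecutive lines -/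
noncomputable def dl (α : ℂ → ℂ → ℂ) (u w : ℂ) : ℂ := (α (u + w) w - α u w) / 2

noncomputable def n1 (p : ℂ → ℂ → ℂ) (u w : ℂ) : ℂ := p (u + w) w + p u w

noncomputable def n2 (p : ℂ → ℂ → ℂ) (u w : ℂ) : ℂ := p (u + w) w - p u w

/-- the input of Case III -/
structure C3 (U : Set ℂ) (α p : ℂ → ℂ → ℂ) (J : ℂ → ℂ) : Prop where
  hU : IsOpen U
  jα : JD α (univ ×ˢ U)
  jp : JD p (univ ×ˢ U)
  αper : ∀ t w : ℂ, w ∈ U → α (t + 1) w = α t w + 2 * Real.pi
  pper : ∀ t w : ℂ, w ∈ U → p (t + 1) w = p t w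
  brk : ∀ t w : ℂ, w ∈ U → br α p t w = J w
  Jne : ∀ w ∈ U, J w ≠ 0
  lawx : ∀ u w : ℂ, w ∈ U → Complex.sin (dl α u w) * (Complex.cos (dl α u w) * dx (n1 p) u w +
    Complex.sin (dl α u w) * n1 p u w * dx (dl α) u w) =
      Complex.cos (dl α u w) ^ 2 * n2 p u w * dx (ps α) u w
  lawe : ∀ u w : ℂ, w ∈ U → Complex.sin (dl α u w) * (Complex.cos (dl α u w) * de (n1 p) u w +
    Complex.sin (dl α u w) * n1 p u w * de (dl α) u w) =
      Complex.cos (dl α u w) ^ 2 * n2 p u w * de (ps α) u w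

section
variable {U : Set ℂ} {f g α p : ℂ → ℂ → ℂ} {J : ℂ → ℂ}

theorem isOpen_cyl (hU : IsOpen U) : IsOpen ((univ : Set ℂ) ×ˢ U) := isOpen_univ.prod hU

theorem mem_cyl {u w : ℂ} (hw : w ∈ U) : (u, w) ∈ (univ : Set ℂ) ×ˢ U := ⟨mem_univ _, hw⟩

theorem JD_sh (hf : JD f (univ ×ˢ U)) : JD (fun u w => f (u + w) w) (univ ×ˢ U) :=
  JD.comp (f := fun x w => x + w) (g := fun _ w => w) hf (JD.fst.add JD.snd) JD.snd
    fun x w h => ⟨mem_univ _, h.2⟩

theorem hd_sh_x (hU : IsOpen U) (hf : JD f (univ ×ˢ U)) (u : ℂ) {w : ℂ} (hw : w ∈ U) :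
    HasDerivAt (fun t => f (t + w) w) (dx f (u + w) w) u := by
  have h1 := hf.hasDerivAt_comp (isOpen_cyl hU) (u := fun t => t + w) (v := fun _ => w) (t := u)
    ((hasDerivAt_id u).add_const _) (hasDerivAt_const u w) (mem_cyl hw)
  refine h1.congr_deriv ?_
  ring

theorem hd_sh_e (hU : IsOpen U) (hf : JD f (univ ×ˢ U)) (u : ℂ) {w : ℂ} (hw : w ∈ U) :
    HasDerivAt (fun t => f (u + t) t) (dx f (u + w) w + de f (u + w) w) w := by
  have h1 := hf.hasDerivAt_comp (isOpen_cyl hU) (u := fun t => u + t) (v := fun t => t) (t := w)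
    ((hasDerivAt_id w).const_add u) (hasDerivAt_id w) (mem_cyl hw)
  refine h1.congr_deriv ?_
  ring

theorem hd_x (hU : IsOpen U) (hf : JD f (univ ×ˢ U)) (u : ℂ) {w : ℂ} (hw : w ∈ U) :
    HasDerivAt (fun t => f t w) (dx f u w) u := hf.hasDerivAt_x (isOpen_cyl hU) (mem_cyl hw)

theorem hd_e (hU : IsOpen U) (hf : JD f (univ ×ˢ U)) (u : ℂ) {w : ℂ} (hw : w ∈ U) :
    HasDerivAt (fun t => f u t) (de f u w) w := hf.hasDerivAt_e (isOpen_cyl hU) (mem_cyl hw)

theorem slice_diff_x (hf : JD f (univ ×ˢ U)) {w : ℂ} (hw : w ∈ U) :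
    Differentiable ℂ fun u => f u w := by
  have := hf.differentiableOn_x (ε := w) (U := univ) fun x _ => mem_cyl hw
  exact differentiableOn_univ.1 this

variable (C : C3 U α p J)
include C

theorem C3.op : IsOpen ((univ : Set ℂ) ×ˢ U) := isOpen_cyl C.hU

theorem C3.mono {V : Set ℂ} (hV : IsOpen V) (h : V ⊆ U) : C3 V α p J where
  hU := hV
  jα := C.jα.mono (prod_mono subset_rfl h)
  jp := C.jp.mono (prod_mono subset_rfl h)
  αper := fun t w hw => C.αper t w (h hw)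
  pper := fun t w hw => C.pper t w (h hw)
  brk := fun t w hw => C.brk t w (h hw)
  Jne := fun w hw => C.Jne w (h hw)
  lawx := fun u w hw => C.lawx u w (h hw)
  lawe := fun u w hw => C.lawe u w (h hw)

theorem C3.j_ps : JD (ps α) (univ ×ˢ U) :=
  (JD.const_mul (1 / 2) ((JD_sh C.jα).add C.jα)).congr fun x w _ => by rw [ps]; ring

theorem C3.j_dl : JD (dl α) (univ ×ˢ U) :=
  (JD.const_mul (1 / 2) ((JD_sh C.jα).sub C.jα)).congr fun x w _ => by rw [dl]; ring

theorem C3.j_n1 : JD (n1 p) (univ ×ˢ U) := (JD_sh C.jp).add C.jp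

theorem C3.j_n2 : JD (n2 p) (univ ×ˢ U) := (JD_sh C.jp).sub C.jp

theorem C3.j_s : JD (fun u w => Complex.sin (dl α u w)) (univ ×ˢ U) :=
  JD.comp_one (U := univ) Complex.differentiable_sin.differentiableOn C.j_dl fun _ _ _ => mem_univ _

theorem C3.j_k : JD (fun u w => Complex.cos (dl α u w)) (univ ×ˢ U) :=
  JD.comp_one (U := univ) Complex.differentiable_cos.differentiableOn C.j_dl fun _ _ _ => mem_univ _

variable {w : ℂ} (hw : w ∈ U) (u : ℂ)
include hw

theorem C3.dx_ps : dx (ps α) u w = (dx α (u + w) w + dx α u w) / 2 :=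
  (((hd_sh_x C.hU C.jα u hw).add (hd_x C.hU C.jα u hw)).div_const 2).deriv

theorem C3.de_ps : de (ps α) u w = (dx α (u + w) w + de α (u + w) w + de α u w) / 2 :=
  (((hd_sh_e C.hU C.jα u hw).add (hd_e C.hU C.jα u hw)).div_const 2).deriv

theorem C3.dx_dl : dx (dl α) u w = (dx α (u + w) w - dx α u w) / 2 :=
  (((hd_sh_x C.hU C.jα u hw).sub (hd_x C.hU C.jα u hw)).div_const 2).deriv

theorem C3.de_dl : de (dl α) u w = (dx α (u + w) w + de α (u + w) w - de α u w) / 2 :=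
  (((hd_sh_e C.hU C.jα u hw).sub (hd_e C.hU C.jα u hw)).div_const 2).deriv

theorem C3.dx_n1 : dx (n1 p) u w = dx p (u + w) w + dx p u w :=
  ((hd_sh_x C.hU C.jp u hw).add (hd_x C.hU C.jp u hw)).deriv

theorem C3.de_n1 : de (n1 p) u w = dx p (u + w) w + de p (u + w) w + de p u w :=
  ((hd_sh_e C.hU C.jp u hw).add (hd_e C.hU C.jp u hw)).deriv

theorem C3.dx_n2 : dx (n2 p) u w = dx p (u + w) w - dx p u w :=
  ((hd_sh_x C.hU C.jp u hw).sub (hd_x C.hU C.jp u hw)).deriv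

theorem C3.de_n2 : de (n2 p) u w = dx p (u + w) w + de p (u + w) w - de p u w :=
  ((hd_sh_e C.hU C.jp u hw).sub (hd_e C.hU C.jp u hw)).deriv

/-- `{ψ, N₂} + {δ, N₁} = 0` -/
theorem C3.q1 : br (ps α) (n2 p) u w + br (dl α) (n1 p) u w = 0 := by
  have h1 := C.brk (u + w) w hw
  have h2 := C.brk u w hw
  rw [br] at h1 h2
  rw [br, br, C.dx_ps hw, C.de_ps hw, C.dx_dl hw, C.de_dl hw, C.dx_n1 hw, C.de_n1 hw, C.dx_n2 hw,
    C.de_n2 hw]
  linear_combination h1 - h2

/-- `{ψ, N₁} + {δ, N₂} = 2 J` -/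
theorem C3.q2 : br (ps α) (n1 p) u w + br (dl α) (n2 p) u w = 2 * J w := by
  have h1 := C.brk (u + w) w hw
  have h2 := C.brk u w hw
  rw [br] at h1 h2
  rw [br, br, C.dx_ps hw, C.de_ps hw, C.dx_dl hw, C.de_dl hw, C.dx_n1 hw, C.de_n1 hw, C.dx_n2 hw,
    C.de_n2 hw]
  linear_combination h1 + h2

theorem C3.p1 : Complex.sin (dl α u w) * (Complex.cos (dl α u w) * br (ps α) (n1 p) u w +
    Complex.sin (dl α u w) * n1 p u w * br (ps α) (dl α) u w) = 0 := by
  have h1 := C.lawx u w hw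
  have h2 := C.lawe u w hw
  rw [br, br]
  linear_combination dx (ps α) u w * h2 - de (ps α) u w * h1

theorem C3.p2 : Complex.cos (dl α u w) * (Complex.sin (dl α u w) * br (dl α) (n1 p) u w -
    Complex.cos (dl α u w) * n2 p u w * br (dl α) (ps α) u w) = 0 := by
  have h1 := C.lawx u w hw
  have h2 := C.lawe u w hw
  rw [br, br]
  linear_combination dx (dl α) u w * h2 - de (dl α) u w * h1

theorem C3.p3 : Complex.sin (dl α u w) * (Complex.cos (dl α u w) * br (n1 p) (n2 p) u w +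
    Complex.sin (dl α u w) * n1 p u w * br (dl α) (n2 p) u w) =
      Complex.cos (dl α u w) ^ 2 * n2 p u w * br (ps α) (n2 p) u w := by
  have h1 := C.lawx u w hw
  have h2 := C.lawe u w hw
  rw [br, br, br]
  linear_combination de (n2 p) u w * h1 - dx (n2 p) u w * h2

end

/-- product of entire functions -/
theorem entire_mul_eq_zero {F G : ℂ → ℂ} (hF : Differentiable ℂ F) (hG : Differentiable ℂ G)
    (h : ∀ z, F z * G z = 0) : (∀ z, F z = 0) ∨ ∀ z, G z = 0 := by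
  have hA : AnalyticOnNhd ℂ F univ := fun z _ => hF.analyticAt z
  have hB : AnalyticOnNhd ℂ G univ := fun z _ => hG.analyticAt z
  rcases AnalyticOnNhd.eq_zero_or_eq_zero_of_mul_eq_zero hA hB (fun z _ => h z)
    isPreconnected_univ with h | h
  · exact Or.inl fun z => h z (mem_univ z)
  · exact Or.inr fun z => h z (mem_univ z)

theorem entire_cancel {F G : ℂ → ℂ} (hF : Differentiable ℂ F) (hG : Differentiable ℂ G)
    (h : ∀ z, F z * G z = 0) (hne : ∃ z, F z ≠ 0) (z : ℂ) : G z = 0 := by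
  rcases entire_mul_eq_zero hF hG h with h | h
  · obtain ⟨z0, hz0⟩ := hne
    exact absurd (h z0) hz0
  · exact h z

section
variable {U : Set ℂ} {α p : ℂ → ℂ → ℂ} {J : ℂ → ℂ} (C : C3 U α p J) {w : ℂ} (hw : w ∈ U)
  (hs : ∃ u, Complex.sin (dl α u w) ≠ 0) (hk : ∃ u, Complex.cos (dl α u w) ≠ 0)
include C hw hs

theorem C3.p1' (u : ℂ) : Complex.cos (dl α u w) * br (ps α) (n1 p) u w +
    Complex.sin (dl α u w) * n1 p u w * br (ps α) (dl α) u w = 0 := by
  have j1 : JD (fun u w => Complex.cos (dl α u w) * br (ps α) (n1 p) u w +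
    Complex.sin (dl α u w) * n1 p u w * br (ps α) (dl α) u w) (univ ×ˢ U) :=
    (C.j_k.mul (JD_br C.op C.j_ps C.j_n1)).add ((C.j_s.mul C.j_n1).mul (JD_br C.op C.j_ps C.j_dl))
  exact entire_cancel (slice_diff_x C.j_s hw) (slice_diff_x j1 hw) (fun z => C.p1 hw z) hs u

omit hs in
include hk in
theorem C3.p2' (u : ℂ) : Complex.sin (dl α u w) * br (dl α) (n1 p) u w =
    Complex.cos (dl α u w) * n2 p u w * br (dl α) (ps α) u w := by
  have j1 : JD (fun u w => Complex.sin (dl α u w) * br (dl α) (n1 p) u w -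
    Complex.cos (dl α u w) * n2 p u w * br (dl α) (ps α) u w) (univ ×ˢ U) :=
    (C.j_s.mul (JD_br C.op C.j_dl C.j_n1)).sub ((C.j_k.mul C.j_n2).mul (JD_br C.op C.j_dl C.j_ps))
  exact sub_eq_zero.1
    (entire_cancel (slice_diff_x C.j_k hw) (slice_diff_x j1 hw) (fun z => C.p2 hw z) hk u)

omit hs in
include hk in
/-- the Euler relation `s {N₂, ψ} = N₂ {s, ψ}` -/
theorem C3.euler (u : ℂ) : Complex.sin (dl α u w) * br (n2 p) (ps α) u w =
    n2 p u w * (Complex.cos (dl α u w) * br (dl α) (ps α) u w) := by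
  have h1 := C.p2' hw hk u
  have h2 := C.q1 hw u
  have h3 : br (n2 p) (ps α) u w = -br (ps α) (n2 p) u w := by rw [br, br]; ring
  rw [h3]
  linear_combination h1 - Complex.sin (dl α u w) * h2

end

end Vale.Agent.P097.H830
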