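import Vale.Agent.P097.H830.Geom1

/-! # P097 / H830: Case III, `sin δ = 0` implies `N₂ ≠ 0` -/

set_option linter.all false

open Complex Metric Filter Topology Set
open Vale.Agent.P097.TA Vale.Agent.P097.H202

namespace Vale.Agent.P097.H830

/-- the linear map with matrix `(a b; c d)` -/
noncomputable def lin2 (a b c d : ℂ) : ℂ × ℂ →L[ℂ] ℂ × ℂ :=
  (a • ContinuousLinearMap.fst ℂ ℂ ℂ + b • ContinuousLinearMap.snd ℂ ℂ ℂ).prod
    (c • ContinuousLinearMap.fst ℂ ℂ ℂ + d • ContinuousLinearMap.snd ℂ ℂ ℂ)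

theorem lin2_apply (a b c d : ℂ) (v : ℂ × ℂ) :
    lin2 a b c d v = (a * v.1 + b * v.2, c * v.1 + d * v.2) := by
  simp [lin2]

/-- the linear equivalence with matrix `(a b; c d)` -/
noncomputable def linE (a b c d D : ℂ) (hD : D = a * d - b * c) (h : D ≠ 0) :
    (ℂ × ℂ) ≃L[ℂ] (ℂ × ℂ) :=
  ContinuousLinearEquiv.equivOfInverse (lin2 a b c d)
    (lin2 (d / D) (-b / D) (-c / D) (a / D))
    (fun v => by
      rw [lin2_apply, lin2_apply]
      apply Prod.ext
      · simp only []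
        field_simp
        rw [hD]
        ring
      · simp only []
        field_simp
        rw [hD]
        ring)
    (fun v => by
      rw [lin2_apply, lin2_apply]
      apply Prod.ext
      · simp only []
        field_simp
        rw [hD]
        ring
      · simp only []
        field_simp
        rw [hD]
        ring)

theorem euler_const {S : Set (ℂ × ℂ)} (hS : IsOpen S) {X Y ψ : ℂ → ℂ → ℂ} (jX : JD X S)
    (jY : JD Y S) (jψ : JD ψ S) {u0 w0 : ℂ} (h0 : (u0, w0) ∈ S) (X0 : X u0 w0 = 0)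
    (Y0 : Y u0 w0 = 0) (hD : br X Y u0 w0 ≠ 0)
    (hE : ∀ u w, (u, w) ∈ S → X u w * br Y ψ u w = Y u w * br X ψ u w) :
    ∀ᶠ z : ℂ × ℂ in 𝓝 (u0, w0), ψ z.1 z.2 = ψ u0 w0 := by
  set Θ : ℂ × ℂ → ℂ × ℂ := fun z => (X z.1 z.2, Y z.1 z.2) with hΘ
  have aX := Vale.Agent.P268.analyticAt_of_differentiableOn hS jX h0
  have aY := Vale.Agent.P268.analyticAt_of_differentiableOn hS jY h0
  have cΘ : ContDiffAt ℂ 1 Θ (u0, w0) := (aX.contDiffAt).prodMk (aY.contDiffAt)
  have hfd : ∀ u w, (u, w) ∈ S → HasFDerivAt Θ (lin2 (dx X u w) (de X u w) (dx Y u w) (de Y u w))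
      (u, w) := by
    intro u w h
    have h1 := (jX.hasFDerivAt hS h).prodMk (jY.hasFDerivAt hS h)
    refine h1.congr_fderiv ?_
    ext
    · simp [lin2, jX.dx_eq hS h]
    · simp [lin2, jY.dx_eq hS h]
    · simp [lin2, jX.de_eq hS h]
    · simp [lin2, jY.de_eq hS h]
  have hfd0 : HasFDerivAt Θ ((linE (dx X u0 w0) (de X u0 w0) (dx Y u0 w0) (de Y u0 w0)
      (br X Y u0 w0) rfl hD : (ℂ × ℂ) ≃L[ℂ] (ℂ × ℂ)) : ℂ × ℂ →L[ℂ] ℂ × ℂ) (u0, w0) :=
    hfd u0 w0 h0
  set e := cΘ.toOpenPartialHomeomorph Θ hfd0 one_ne_zero with he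
  have ecoe : ∀ z, e z = Θ z := fun z => rfl
  have hsrc : (u0, w0) ∈ e.source := cΘ.mem_toOpenPartialHomeomorph_source hfd0 one_ne_zero
  have hΘ0 : Θ (u0, w0) = 0 := by
    simp only [hΘ, X0, Y0]
    rfl
  have htgt : (0 : ℂ × ℂ) ∈ e.target := by
    have := cΘ.image_mem_toOpenPartialHomeomorph_target hfd0 one_ne_zero
    rwa [hΘ0] at this
  set G : ℂ × ℂ → ℂ × ℂ := fun Z => e.symm Z with hG
  have hG0 : G 0 = (u0, w0) := by
    have := e.left_inv hsrc
    rw [ecoe, hΘ0] at this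
    exact this
  have cG : ContDiffAt ℂ 1 G 0 := by
    have := cΘ.to_localInverse hfd0 one_ne_zero
    rw [hΘ0] at this
    exact this
  have eG : ∀ᶠ Z in 𝓝 (0 : ℂ × ℂ), DifferentiableAt ℂ G Z := by
    have := cG.eventually (by simp)
    filter_upwards [this] with Z hZ
    exact hZ.differentiableAt one_ne_zero
  have eT : ∀ᶠ Z in 𝓝 (0 : ℂ × ℂ), Z ∈ e.target := e.open_target.mem_nhds htgt
  have eS : ∀ᶠ Z in 𝓝 (0 : ℂ × ℂ), G Z ∈ S := by
    apply cG.continuousAt.eventually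
    rw [hG0]
    exact hS.mem_nhds h0
  have eD : ∀ᶠ Z in 𝓝 (0 : ℂ × ℂ), br X Y (G Z).1 (G Z).2 ≠ 0 := by
    have h1 : ContinuousAt (fun z : ℂ × ℂ => br X Y z.1 z.2) (G 0) := by
      rw [hG0]
      exact (JD_br hS jX jY).continuousOn.continuousAt (hS.mem_nhds h0)
    have h2 : ContinuousAt (fun Z : ℂ × ℂ => br X Y (G Z).1 (G Z).2) 0 :=
      ContinuousAt.comp (g := fun z : ℂ × ℂ => br X Y z.1 z.2) h1 cG.continuousAt
    apply h2.eventually_ne
    rw [hG0]
    exact hD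
  obtain ⟨r, hr, hball⟩ := Metric.eventually_nhds_iff_ball.1 (eG.and (eT.and (eS.and eD)))
  set φ : ℂ × ℂ → ℂ := fun Z => ψ (G Z).1 (G Z).2 with hφ
  have key : ∀ Z ∈ ball (0 : ℂ × ℂ) r, ∃ φ' : ℂ × ℂ →L[ℂ] ℂ, HasFDerivAt φ φ' Z ∧ φ' Z = 0 := by
    intro Z hZ
    obtain ⟨h1, h2, h3, h4⟩ := hball Z hZ
    set G' := fderiv ℂ G Z with hG'
    have hGd : HasFDerivAt G G' Z := h1.hasFDerivAt
    set g := G Z with hg
    have hg' : (g.1, g.2) = g := rfl
    have e1 := (hfd g.1 g.2 h3).comp Z hGd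
    have e2 : HasFDerivAt (fun Z : ℂ × ℂ => Z)
        ((lin2 (dx X g.1 g.2) (de X g.1 g.2) (dx Y g.1 g.2) (de Y g.1 g.2)).comp G') Z := by
      refine e1.congr_of_eventuallyEq ?_
      filter_upwards [e.open_target.mem_nhds h2] with Z' hZ'
      exact (e.right_inv hZ').symm
    have e3 := e2.unique (hasFDerivAt_id Z)
    have e4 : lin2 (dx X g.1 g.2) (de X g.1 g.2) (dx Y g.1 g.2) (de Y g.1 g.2) (G' Z) = Z := by
      have := congrArg (fun L : ℂ × ℂ →L[ℂ] ℂ × ℂ => L Z) e3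
      simpa using this
    rw [lin2_apply] at e4
    have e5 : Θ g = Z := e.right_inv h2
    have e6 := (jψ.hasFDerivAt hS (x := g.1) (ε := g.2) h3).comp Z hGd
    refine ⟨_, e6, ?_⟩
    set v := G' Z with hv
    have e7 : (fderiv ℂ (fun p : ℂ × ℂ => ψ p.1 p.2) (g.1, g.2)).comp G' Z =
        dx ψ g.1 g.2 * v.1 + de ψ g.1 g.2 * v.2 := by
      rw [ContinuousLinearMap.comp_apply, ← hv]
      exact jψ.fderiv_apply hS h3 v.1 v.2
    rw [e7]
    have f1 : dx X g.1 g.2 * v.1 + de X g.1 g.2 * v.2 = X g.1 g.2 := by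
      have := congrArg Prod.fst e4
      have h5 := congrArg Prod.fst e5
      simp only [hΘ] at this h5
      rw [h5]
      exact this
    have f2 : dx Y g.1 g.2 * v.1 + de Y g.1 g.2 * v.2 = Y g.1 g.2 := by
      have := congrArg Prod.snd e4
      have h5 := congrArg Prod.snd e5
      simp only [hΘ] at this h5
      rw [h5]
      exact this
    have f3 := hE g.1 g.2 h3
    have f4 : br X Y g.1 g.2 * (dx ψ g.1 g.2 * v.1 + de ψ g.1 g.2 * v.2) = 0 := by
      rw [← f1, ← f2] at f3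
      rw [br, br] at f3
      rw [br]
      linear_combination (-1 : ℂ) * f3
    exact (mul_eq_zero.1 f4).resolve_left h4
  have hconst : ∀ Z ∈ ball (0 : ℂ × ℂ) r, φ Z = φ 0 := by
    intro Z hZ
    set f : ℝ → ℂ := fun σ => φ (((1 - σ : ℝ) : ℂ) • Z) with hf
    have hmem : ∀ σ : ℝ, 0 ≤ σ → σ ≤ 1 → (((1 - σ : ℝ) : ℂ) • Z) ∈ ball (0 : ℂ × ℂ) r := by
      intro σ h1 h2
      rw [mem_ball_zero_iff] at hZ ⊢
      rw [norm_smul, Complex.norm_real, Real.norm_eq_abs, abs_of_nonneg (by linarith)]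
      have := norm_nonneg Z
      nlinarith
    have hcurve : ∀ σ : ℝ, HasDerivAt (fun σ : ℝ => ((1 - σ : ℝ) : ℂ) • Z) (-Z) σ := by
      intro σ
      have h1 : HasDerivAt (fun σ : ℝ => ((1 - σ : ℝ) : ℂ)) (-1 : ℂ) σ := by
        have := ((hasDerivAt_id σ).const_sub 1).ofReal_comp
        simpa using this
      have := h1.smul_const Z
      simpa using this
    have hder : ∀ σ : ℝ, 0 ≤ σ → σ < 1 → HasDerivAt f 0 σ := by
      intro σ h1 h2
      obtain ⟨φ', hφ', h0'⟩ := key _ (hmem σ h1 h2.le)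
      have h3 := (hφ'.restrictScalars ℝ).comp_hasDerivAt σ (hcurve σ)
      refine h3.congr_deriv ?_
      have hne : ((1 - σ : ℝ) : ℂ) ≠ 0 := by
        rw [Ne, Complex.ofReal_eq_zero]
        linarith
      rw [map_smul, smul_eq_zero] at h0'
      have h4 := h0'.resolve_left hne
      simp [h4]
    have hcont : ContinuousOn f (Icc 0 1) := by
      intro σ hσ
      obtain ⟨φ', hφ', -⟩ := key _ (hmem σ hσ.1 hσ.2)
      exact (ContinuousAt.comp (f := fun σ : ℝ => ((1 - σ : ℝ) : ℂ) • Z) (g := φ) (x := σ)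
        hφ'.continuousAt (hcurve σ).continuousAt).continuousWithinAt
    have := constant_of_has_deriv_right_zero hcont
      (fun σ hσ => (hder σ hσ.1 hσ.2).hasDerivWithinAt) 1 (right_mem_Icc.2 zero_le_one)
    simp only [hf] at this
    simp at this
    exact this.symm
  have hcontΘ : ContinuousAt Θ (u0, w0) := cΘ.continuousAt
  have hnear : ∀ᶠ z in 𝓝 (u0, w0), Θ z ∈ ball (0 : ℂ × ℂ) r := by
    apply hcontΘ.eventually
    rw [hΘ0]
    exact ball_mem_nhds _ hr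
  filter_upwards [hnear, e.open_source.mem_nhds hsrc] with z h1 h2
  have h3 := hconst (Θ z) h1
  have h4 : G (Θ z) = z := e.left_inv h2
  simp only [hφ, h4, hG0] at h3
  exact h3

end Vale.Agent.P097.H830
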