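import Vale.Agent.P097.H830.Geom2

/-! # P097 / H830: Case III, the directions are `2πt + c(w)` for non-real `w` -/

set_option linter.all false

open Complex Metric Filter Topology Set
open Vale.Agent.P097.TA Vale.Agent.P097.H202

namespace Vale.Agent.P097.H830

theorem br_anti (f g : ℂ → ℂ → ℂ) (u w : ℂ) : br f g u w = -br g f u w := by
  rw [br, br]; ring

section
variable {U : Set ℂ} {α p : ℂ → ℂ → ℂ} {J : ℂ → ℂ} (C : C3 U α p J)
include C

theorem C3.ps_per (u : ℂ) {w : ℂ} (hw : w ∈ U) : ps α (u + 1) w = ps α u w + 2 * Real.pi := by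
  rw [ps, ps, C.αper u w hw, show u + 1 + w = u + w + 1 by ring, C.αper (u + w) w hw]
  ring

theorem C3.dl_per (u : ℂ) {w : ℂ} (hw : w ∈ U) : dl α (u + 1) w = dl α u w := by
  rw [dl, dl, C.αper u w hw, show u + 1 + w = u + w + 1 by ring, C.αper (u + w) w hw]
  ring

theorem C3.br_s {g : ℂ → ℂ → ℂ} (u : ℂ) {w : ℂ} (hw : w ∈ U) :
    br (fun u w => Complex.sin (dl α u w)) g u w = Complex.cos (dl α u w) * br (dl α) g u w := by
  rw [br, br, dx_comp C.op C.j_dl (mem_cyl hw) (Complex.hasDerivAt_sin _),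
    de_comp C.op C.j_dl (mem_cyl hw) (Complex.hasDerivAt_sin _)]
  ring

/-- `ψ` is not locally constant -/
theorem C3.ps_not_const {u w : ℂ} (hw : w ∈ U) :
    ¬ ∀ᶠ z : ℂ × ℂ in 𝓝 (u, w), ps α z.1 z.2 = ps α u w := by
  intro h
  have hc : ContinuousAt (fun t : ℂ => (t, w)) u := by fun_prop
  have h1 : ∀ᶠ t in 𝓝 u, ps α t w = ps α u w := hc.eventually h
  have hA : AnalyticOnNhd ℂ (fun t => ps α t w) univ := fun z _ =>
    (slice_diff_x C.j_ps hw).analyticAt z
  have hB : AnalyticOnNhd ℂ (fun _ : ℂ => ps α u w) univ := fun z _ => analyticAt_const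
  have h2 := hA.eqOn_of_preconnected_of_eventuallyEq hB isPreconnected_univ (mem_univ u) h1
  have h3 := h2 (mem_univ (u + 1))
  simp only [] at h3
  rw [C.ps_per u hw] at h3
  have h4 : (2 * Real.pi : ℂ) = 0 := by linear_combination h3
  have h5 : (2 * Real.pi : ℝ) = 0 := by exact_mod_cast h4
  linarith [Real.pi_pos]

/-- non degeneracy -/
def ND (U : Set ℂ) (α : ℂ → ℂ → ℂ) : Prop :=
  ∀ w ∈ U, (∃ u, Complex.sin (dl α u w) ≠ 0) ∧ ∃ u, Complex.cos (dl α u w) ≠ 0

theorem C3.claim1 (nd : ND U α) {u w : ℂ} (hw : w ∈ U) (h0 : Complex.sin (dl α u w) = 0) :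
    n2 p u w ≠ 0 := by
  intro hN
  have hk : Complex.cos (dl α u w) ≠ 0 := by
    intro hk
    have := Complex.sin_sq_add_cos_sq (dl α u w)
    rw [h0, hk] at this
    norm_num at this
  have h1 := C.p1' hw (nd w hw).1 u
  rw [h0, zero_mul, zero_mul, add_zero, mul_eq_zero] at h1
  have h2 := h1.resolve_left hk
  have h3 := C.q2 hw u
  rw [h2, zero_add] at h3
  refine C.ps_not_const hw (euler_const C.op C.j_s C.j_n2 C.j_ps (mem_cyl hw) h0 hN ?_ ?_)
  · rw [C.br_s u hw, h3]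
    exact mul_ne_zero hk (mul_ne_zero two_ne_zero (C.Jne w hw))
  · intro u' w' h'
    have h4 := C.euler h'.2 (nd w' h'.2).2 u'
    rw [C.br_s u' h'.2]
    exact h4

/-- the quotient `{ψ, δ} / (2 sin² δ)` -/
noncomputable def hh (α p : ℂ → ℂ → ℂ) (u w : ℂ) : ℂ :=
  open Classical in
  if Complex.sin (dl α u w) = 0 then
    (Complex.cos (dl α u w) * br (n1 p) (n2 p) u w +
      Complex.sin (dl α u w) * n1 p u w * br (dl α) (n2 p) u w) /
      (2 * Complex.cos (dl α u w) ^ 3 * n2 p u w ^ 2)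
  else br (ps α) (dl α) u w / (2 * Complex.sin (dl α u w) ^ 2)

theorem C3.hh_eq (nd : ND U α) {u w : ℂ} (hw : w ∈ U) (hk : Complex.cos (dl α u w) ≠ 0)
    (hN : n2 p u w ≠ 0) : hh α p u w =
    (Complex.cos (dl α u w) * br (n1 p) (n2 p) u w +
      Complex.sin (dl α u w) * n1 p u w * br (dl α) (n2 p) u w) /
      (2 * Complex.cos (dl α u w) ^ 3 * n2 p u w ^ 2) := by
  unfold hh
  split_ifs with hs
  · rfl
  · have h1 := C.p3 hw u
    have h2 := C.p2' hw (nd w hw).2 u
    have h3 := C.q1 hw u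
    rw [div_eq_div_iff (mul_ne_zero two_ne_zero (pow_ne_zero 2 hs))
      (mul_ne_zero (mul_ne_zero two_ne_zero (pow_ne_zero 3 hk)) (pow_ne_zero 2 hN))]
    rw [br_anti (dl α) (ps α)] at h2
    apply mul_left_cancel₀ hs
    linear_combination (norm := skip) (-2 * Complex.sin (dl α u w) ^ 2) * h1 +
      (2 * Complex.cos (dl α u w) ^ 2 * n2 p u w * Complex.sin (dl α u w)) * h2 -
      (2 * Complex.cos (dl α u w) ^ 2 * n2 p u w * Complex.sin (dl α u w) ^ 2) * h3
    ring_nf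

theorem C3.k_ne (u : ℂ) {w : ℂ} (h0 : Complex.sin (dl α u w) = 0) :
    Complex.cos (dl α u w) ≠ 0 := by
  intro hk
  have := Complex.sin_sq_add_cos_sq (dl α u w)
  rw [h0, hk] at this
  norm_num at this

theorem C3.j_hh (nd : ND U α) : JD (hh α p) (univ ×ˢ U) := by
  rintro ⟨u, w⟩ ⟨-, hw⟩
  apply DifferentiableAt.differentiableWithinAt
  have hcyl := C.op.mem_nhds (mem_cyl (u := u) hw)
  have cs : ContinuousAt (fun z : ℂ × ℂ => Complex.sin (dl α z.1 z.2)) (u, w) :=
    C.j_s.continuousOn.continuousAt hcyl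
  have ck : ContinuousAt (fun z : ℂ × ℂ => Complex.cos (dl α z.1 z.2)) (u, w) :=
    C.j_k.continuousOn.continuousAt hcyl
  have cN : ContinuousAt (fun z : ℂ × ℂ => n2 p z.1 z.2) (u, w) :=
    C.j_n2.continuousOn.continuousAt hcyl
  have ds := C.j_s.at C.op (mem_cyl (u := u) hw)
  have dk := C.j_k.at C.op (mem_cyl (u := u) hw)
  have dN := C.j_n2.at C.op (mem_cyl (u := u) hw)
  have dM := C.j_n1.at C.op (mem_cyl (u := u) hw)
  have db1 := (JD_br C.op C.j_ps C.j_dl).at C.op (mem_cyl (u := u) hw)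
  have db2 := (JD_br C.op C.j_n1 C.j_n2).at C.op (mem_cyl (u := u) hw)
  have db3 := (JD_br C.op C.j_dl C.j_n2).at C.op (mem_cyl (u := u) hw)
  by_cases h0 : Complex.sin (dl α u w) = 0
  · have hk := C.k_ne u h0
    have hN := C.claim1 nd hw h0
    have hd : DifferentiableAt ℂ (fun z : ℂ × ℂ =>
        (Complex.cos (dl α z.1 z.2) * br (n1 p) (n2 p) z.1 z.2 +
          Complex.sin (dl α z.1 z.2) * n1 p z.1 z.2 * br (dl α) (n2 p) z.1 z.2) /
          (2 * Complex.cos (dl α z.1 z.2) ^ 3 * n2 p z.1 z.2 ^ 2)) (u, w) := by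
      have hnum : DifferentiableAt ℂ (fun z : ℂ × ℂ =>
        Complex.cos (dl α z.1 z.2) * br (n1 p) (n2 p) z.1 z.2 +
          Complex.sin (dl α z.1 z.2) * n1 p z.1 z.2 * br (dl α) (n2 p) z.1 z.2) (u, w) :=
        (dk.mul db2).add ((ds.mul dM).mul db3)
      have hden : DifferentiableAt ℂ (fun z : ℂ × ℂ =>
          2 * Complex.cos (dl α z.1 z.2) ^ 3 * n2 p z.1 z.2 ^ 2) (u, w) :=
        ((dk.pow 3).const_mul 2).mul (dN.pow 2)
      simp only [div_eq_mul_inv]
      refine hnum.mul (hden.inv ?_)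
      exact mul_ne_zero (mul_ne_zero two_ne_zero (pow_ne_zero 3 hk)) (pow_ne_zero 2 hN)
    refine hd.congr_of_eventuallyEq ?_
    filter_upwards [ck.eventually_ne hk, cN.eventually_ne hN, hcyl] with z h1 h2 h3
    exact C.hh_eq nd h3.2 h1 h2
  · have hd : DifferentiableAt ℂ (fun z : ℂ × ℂ =>
        br (ps α) (dl α) z.1 z.2 / (2 * Complex.sin (dl α z.1 z.2) ^ 2)) (u, w) := by
      have hden : DifferentiableAt ℂ (fun z : ℂ × ℂ => 2 * Complex.sin (dl α z.1 z.2) ^ 2) (u, w) :=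
        (ds.pow 2).const_mul 2
      simp only [div_eq_mul_inv]
      refine DifferentiableAt.mul db1 (hden.inv ?_)
      exact mul_ne_zero two_ne_zero (pow_ne_zero 2 h0)
    refine hd.congr_of_eventuallyEq ?_
    filter_upwards [cs.eventually_ne h0] with z h1
    unfold hh
    rw [if_neg h1]

theorem C3.hh_mul (nd : ND U α) (u : ℂ) {w : ℂ} (hw : w ∈ U) :
    br (ps α) (dl α) u w = 2 * (hh α p u w * Complex.sin (dl α u w) ^ 2) := by
  by_cases h0 : Complex.sin (dl α u w) = 0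
  · have h2 := C.p2' hw (nd w hw).2 u
    rw [h0, zero_mul] at h2
    have h3 : br (dl α) (ps α) u w = 0 :=
      (mul_eq_zero.1 h2.symm).resolve_left (mul_ne_zero (C.k_ne u h0) (C.claim1 nd hw h0))
    rw [br_anti, h3, h0]
    ring
  · unfold hh
    rw [if_neg h0]
    field_simp

theorem C3.dat {w0 : ℂ} {ρ0 : ℝ} (hρ : 0 < ρ0) (nd : ND U α) (hb : ball w0 ρ0 ⊆ U) :
    H330.Dat (fun u w => α u w / 2) (hh α p) Real.pi w0 ρ0 := by
  have hdif : ∀ u w, H330.dif (fun u w => α u w / 2) u w = dl α u w := by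
    intro u w
    rw [H330.dif, dl]
    ring
  refine ⟨hρ, ?_, ?_, ?_, ?_, ?_⟩
  · intro u w hw
    have := Vale.Agent.P268.analyticAt_of_differentiableOn C.op
      ((JD.const_mul (1 / 2) C.jα)) (mem_cyl (u := u) (hb hw))
    refine this.congr (Eventually.of_forall fun z => ?_)
    simp only []
    ring
  · intro u w hw
    rw [C.αper u w (hb hw)]
    ring
  · intro w hw
    exact slice_diff_x (C.j_hh nd) (hb hw)
  · intro u w hw
    exact (C.j_hh nd).continuousOn.continuousAt (C.op.mem_nhds (mem_cyl (hb hw)))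
  · intro u w hw
    have hw' := hb hw
    simp only [hdif]
    have e1 : deriv (fun u => α u w / 2) u = dx α u w / 2 :=
      ((hd_x C.hU C.jα u hw').div_const 2).deriv
    have e2 : deriv (fun w => α u w / 2) w = de α u w / 2 :=
      ((hd_e C.hU C.jα u hw').div_const 2).deriv
    have e3 : deriv (fun w => dl α u w) w = de (dl α) u w := rfl
    have e4 : deriv (fun u => dl α u w) u = dx (dl α) u w := rfl
    have h1 := C.hh_mul nd u hw'
    rw [br, C.dx_ps hw', C.de_ps hw'] at h1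
    have h2 := C.dx_dl hw' u
    have h3 := C.de_dl hw' u
    rw [e1, e2, e3, e4]
    linear_combination (1 / 2 : ℂ) * h1 + (de (dl α) u w / 2) * h2 - (dx (dl α) u w / 2) * h3

end

end Vale.Agent.P097.H830
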