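import Vale.Agent.P097.H830.Geom3

/-! # P097 / H830: Case III, conclusion for one non-real `w` -/

set_option linter.all false

open Complex Metric Filter Topology Set
open Vale.Agent.P097.TA Vale.Agent.P097.H202

namespace Vale.Agent.P097.H830

/-- an entire function with periods `1` and `w`, `Im w > 0`, is constant -/
theorem const_of_two_periods {F : ℂ → ℂ} (hF : Differentiable ℂ F) {w : ℂ} (hw : 0 < w.im)
    (h1 : ∀ z, F (z + 1) = F z) (h2 : ∀ z, F (z + w) = F z) (z z' : ℂ) : F z = F z' := by
  have hK : IsCompact ((fun q : ℝ × ℝ => ((q.1 : ℂ) + q.2 * I)) '' (Icc (0 : ℝ) 1 ×ˢ Icc (0 : ℝ) w.im)) :=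
    (isCompact_Icc.prod isCompact_Icc).image (by fun_prop)
  obtain ⟨B, hB⟩ := hK.exists_bound_of_continuousOn hF.continuous.continuousOn
  have p1 : ∀ (n : ℤ) z, F (z + n) = F z := by
    have hp : Function.Periodic F 1 := h1
    intro n z
    have := hp.int_mul n z
    simpa using this
  have p2 : ∀ (n : ℤ) z, F (z + n * w) = F z := by
    have hp : Function.Periodic F w := h2
    intro n z
    exact hp.int_mul n z
  apply hF.apply_eq_apply_of_bounded
  rw [isBounded_iff_forall_norm_le]
  refine ⟨B, ?_⟩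
  rintro _ ⟨x, rfl⟩
  set n : ℤ := ⌊x.im / w.im⌋ with hn
  set x1 : ℂ := x + ((-n : ℤ) : ℂ) * w with hx1
  set m : ℤ := ⌊x1.re⌋ with hm
  set x2 : ℂ := x1 + ((-m : ℤ) : ℂ) with hx2
  have e1 : F x2 = F x := by rw [hx2, p1, hx1, p2]
  rw [← e1]
  apply hB
  have him1 : x1.im = x.im - n * w.im := by
    simp [hx1]
    ring
  have him : x2.im = x.im - n * w.im := by
    rw [← him1]
    simp [hx2]
  have hre : x2.re = x1.re - m := by
    simp [hx2]
    ring
  have hf1 : (n : ℝ) ≤ x.im / w.im := Int.floor_le _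
  have hf2 : x.im / w.im < n + 1 := Int.lt_floor_add_one _
  rw [le_div_iff₀ hw] at hf1
  rw [div_lt_iff₀ hw] at hf2
  have hg1 : (m : ℝ) ≤ x1.re := Int.floor_le _
  have hg2 : x1.re < m + 1 := Int.lt_floor_add_one _
  refine ⟨(x2.re, x2.im), ⟨⟨by rw [hre]; linarith, by rw [hre]; linarith⟩,
    ⟨by rw [him]; linarith, by rw [him]; linarith⟩⟩, ?_⟩
  exact Complex.re_add_im x2

section
variable {U : Set ℂ} {α p : ℂ → ℂ → ℂ} {J : ℂ → ℂ} (C : C3 U α p J)
include C

theorem C3.exists_hh_ne (nd : ND U α) {w : ℂ} (hw : w ∈ U) : ∃ u, hh α p u w ≠ 0 := by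
  by_contra hcon
  push Not at hcon
  have hb : ∀ u, br (ps α) (dl α) u w = 0 := fun u => by
    rw [C.hh_mul nd u hw, hcon u]
    ring
  have hX : ∀ u, dx (ps α) u w = 0 := by
    have d1 := slice_diff_x C.j_s hw
    have d2 := slice_diff_x C.j_k hw
    have d3 := slice_diff_x (C.j_ps.dx C.op) hw
    have h1 : ∀ u, Complex.sin (dl α u w) * (Complex.cos (dl α u w) * dx (ps α) u w) = 0 := by
      intro u
      by_contra hne
      have hs : Complex.sin (dl α u w) ≠ 0 := left_ne_zero_of_mul hne
      have hk : Complex.cos (dl α u w) ≠ 0 := left_ne_zero_of_mul (right_ne_zero_of_mul hne)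
      have hx : dx (ps α) u w ≠ 0 := right_ne_zero_of_mul (right_ne_zero_of_mul hne)
      have e1 := C.p1' hw (nd w hw).1 u
      rw [hb u, mul_zero, add_zero, mul_eq_zero] at e1
      have e2 : br (ps α) (n1 p) u w = 0 := e1.resolve_left hk
      have e3 := C.p2' hw (nd w hw).2 u
      rw [br_anti (dl α) (ps α), hb u, neg_zero, mul_zero, mul_eq_zero] at e3
      have e4 : br (dl α) (n1 p) u w = 0 := e3.resolve_left hs
      have e5 := C.q1 hw u
      rw [e4, add_zero] at e5
      have e6 := C.q2 hw u
      rw [e2, zero_add] at e6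
      have e7 : dx (ps α) u w * br (dl α) (n2 p) u w = 0 := by
        have e8 := hb u
        rw [br] at e5 e8 ⊢
        linear_combination dx (dl α) u w * e5 - dx (n2 p) u w * e8
      rw [mul_eq_zero] at e7
      have e9 := e7.resolve_left hx
      rw [e9] at e6
      exact C.Jne w hw (by
        have : (2 : ℂ) * J w = 0 := e6.symm
        simpa using this)
    have h2 := entire_cancel d1 (d2.mul d3) h1 (nd w hw).1
    exact entire_cancel d2 d3 h2 (nd w hw).2
  have hc : ∀ u v, ps α u w = ps α v w := by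
    have d := slice_diff_x C.j_ps hw
    exact fun u v => is_const_of_deriv_eq_zero d (fun x => hX x) u v
  exact C.ps_not_const (u := 0) hw (by
    have h := C.ps_per 0 hw
    rw [hc (0 + 1) 0] at h
    have h4 : (2 * Real.pi : ℂ) = 0 := by linear_combination -h
    have h5 : (2 * Real.pi : ℝ) = 0 := by exact_mod_cast h4
    exact absurd h5 (by positivity))

theorem C3.const {w : ℂ} (hw : w ∈ U) (him : 0 < w.im) (u v : ℂ) : dl α u w = dl α v w := by
  by_contra hcon
  have d0 := slice_diff_x C.j_dl hw
  -- `sin δ` and `cos δ` are not identically zero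
  have key : ∀ S K : ℂ → ℂ, (∀ z, HasDerivAt S (K z) z) → (∀ z, S z = 0 → K z ≠ 0) →
      ∃ x, S (dl α x w) ≠ 0 := by
    intro S K hS hSK
    by_contra h
    push Not at h
    have hz : ∀ x, deriv (fun x => dl α x w) x = 0 := by
      intro x
      have h1 : HasDerivAt (fun x => S (dl α x w)) (K (dl α x w) * deriv (fun x => dl α x w) x) x :=
        (hS _).comp x (d0 x).hasDerivAt
      have h2 : (fun x => S (dl α x w)) = fun _ => 0 := funext h
      rw [h2] at h1
      have h3 := h1.unique (hasDerivAt_const x 0)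
      exact (mul_eq_zero.1 h3).resolve_left (hSK _ (h x))
    exact hcon (is_const_of_deriv_eq_zero d0 hz u v)
  obtain ⟨x1, hx1⟩ := key Complex.sin Complex.cos Complex.hasDerivAt_sin (fun z h0 hk => by
    have := Complex.sin_sq_add_cos_sq z
    rw [h0, hk] at this
    norm_num at this)
  obtain ⟨x2, hx2⟩ := key Complex.cos (fun z => -Complex.sin z) Complex.hasDerivAt_cos
    (fun z h0 hk => by
      have := Complex.sin_sq_add_cos_sq z
      rw [h0, neg_eq_zero.1 hk] at this
      norm_num at this)
  have c1 : ContinuousAt (fun w' => Complex.sin (dl α x1 w')) w := by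
    have := C.j_s.continuousOn.continuousAt (C.op.mem_nhds (mem_cyl (u := x1) hw))
    exact ContinuousAt.comp (f := fun w' : ℂ => (x1, w')) (x := w) this (by fun_prop)
  have c2 : ContinuousAt (fun w' => Complex.cos (dl α x2 w')) w := by
    have := C.j_k.continuousOn.continuousAt (C.op.mem_nhds (mem_cyl (u := x2) hw))
    exact ContinuousAt.comp (f := fun w' : ℂ => (x2, w')) (x := w) this (by fun_prop)
  have hev : ∀ᶠ w' in 𝓝 w, w' ∈ U ∧ Complex.sin (dl α x1 w') ≠ 0 ∧ Complex.cos (dl α x2 w') ≠ 0 := by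
    filter_upwards [C.hU.mem_nhds hw, c1.eventually_ne hx1, c2.eventually_ne hx2] with w' h1 h2 h3
    exact ⟨h1, h2, h3⟩
  obtain ⟨r, hr, hball⟩ := Metric.eventually_nhds_iff_ball.1 hev
  have C' : C3 (ball w r) α p J := C.mono isOpen_ball fun w' h => (hball w' h).1
  have nd : ND (ball w r) α := fun w' h => ⟨⟨x1, (hball w' h).2.1⟩, ⟨x2, (hball w' h).2.2⟩⟩
  have D := C'.dat hr nd subset_rfl
  have hfin := D.const him (C'.exists_hh_ne nd (mem_ball_self hr)) u v
  apply hcon
  have hdif : ∀ u w, H330.dif (fun u w => α u w / 2) u w = dl α u w := by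
    intro u w
    rw [H330.dif, dl]
    ring
  rw [hdif, hdif] at hfin
  exact hfin

/-- **Case III, abstract form** -/
theorem C3.main {w : ℂ} (hw : w ∈ U) (him : 0 < w.im) (u : ℂ) : dx α u w = 2 * Real.pi := by
  have d0 := slice_diff_x C.jα hw
  have d1 : Differentiable ℂ (fun x => dx α x w) := slice_diff_x (C.jα.dx C.op) hw
  have p1 : ∀ x, dx α (x + 1) w = dx α x w := by
    intro x
    have h1 : HasDerivAt (fun t => α (t + 1) w) (dx α (x + 1) w) x :=
      HasDerivAt.comp_add_const x 1 (hd_x C.hU C.jα (x + 1) hw)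
    have h2 : HasDerivAt (fun t => α (t + 1) w) (dx α x w) x := by
      have h3 := (hd_x C.hU C.jα x hw).add_const (2 * Real.pi : ℂ)
      refine h3.congr_of_eventuallyEq (Eventually.of_forall fun t => ?_)
      exact C.αper t w hw
    exact h1.unique h2
  have p2 : ∀ x, dx α (x + w) w = dx α x w := by
    intro x
    have h1 : HasDerivAt (fun t => α (t + w) w) (dx α (x + w) w) x :=
      HasDerivAt.comp_add_const x w (hd_x C.hU C.jα (x + w) hw)
    have h2 : HasDerivAt (fun t => α (t + w) w) (dx α x w) x := by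
      have h3 := (hd_x C.hU C.jα x hw).add_const (2 * dl α x w)
      refine h3.congr_of_eventuallyEq (Eventually.of_forall fun t => ?_)
      have h4 := C.const hw him t x
      simp only []
      rw [← h4, dl]
      ring
    exact h1.unique h2
  have hc := const_of_two_periods d1 him p1 p2
  have hlin : ∀ x, HasDerivAt (fun t => α t w - dx α u w * t) 0 x := by
    intro x
    have h1 := (hd_x C.hU C.jα x hw).sub ((hasDerivAt_id x).const_mul (dx α u w))
    refine h1.congr_deriv ?_
    rw [hc x u]
    ring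
  have hcst := is_const_of_deriv_eq_zero (fun x => (hlin x).differentiableAt)
    (fun x => (hlin x).deriv) 1 0
  have hper := C.αper 0 w hw
  rw [zero_add] at hper
  simp only [mul_one, mul_zero, sub_zero] at hcst
  rw [hper] at hcst
  linear_combination -hcst

end

end Vale.Agent.P097.H830
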