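import Mathlib
import Vale.Agent.P097.H109.TDc
import Vale.Agent.P097.H845.LeafB
import Vale.Agent.P097.H407.Hol

/-!
# P097 / case (T): non constancy of the normalised lines passes from the small cone to the wide cone

The pick sits at a real label, i.e. on the boundary of the wide cone `D₁ = Wc s'`; the oscillation `1` of the
normalised lines lives in the small cone `D₂` (complex labels of both signs). The limits exist on
`D₁ ∪ D₂`; constancy on `D₁` would give constancy on `D₂`.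
-/

set_option linter.all false

open Complex Metric Set Filter Topology

namespace Vale.Agent.P097.H830.NC

open Vale.Agent.P097.H190.Ult Vale.Agent.P097.H109.TD

variable {ι : Type*}

/-- zero derivative on one convex open set gives equal values on another one which meets it -/
theorem const_transfer {D₁ D₂ : Set (ℂ × ℂ)} (h1 : IsOpen D₁) (c1 : Convex ℝ D₁) (h2 : IsOpen D₂)
    (c2 : Convex ℝ D₂) (hne : (D₁ ∩ D₂).Nonempty) {g : ℂ × ℂ → ℂ} (hg : DifferentiableOn ℂ g (D₁ ∪ D₂))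
    (h0 : ∀ z ∈ D₁, fderiv ℂ g z = 0) : ∀ x ∈ D₁ ∪ D₂, ∀ y ∈ D₁ ∪ D₂, g x = g y := by
  obtain ⟨z0, hz1, hz2⟩ := hne
  have e1 : ∀ x ∈ D₁, g x = g z0 := by
    intro x hx
    have h3 : ∀ z ∈ D₁, fderivWithin ℂ g D₁ z = 0 := by
      intro z hz
      rw [fderivWithin_of_isOpen h1 hz]
      exact h0 z hz
    exact c1.is_const_of_fderivWithin_eq_zero (𝕜 := ℂ) (hg.mono subset_union_left) h3 hx hz1
  have e2 : ∀ x ∈ D₂, g x = g z0 := by
    intro x hx
    have h4 : DifferentiableOn ℂ (fun z => g z - g z0) D₂ :=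
      (hg.mono subset_union_right).sub_const _
    have h5 := (Hol.analyticOnNhd_of_differentiableOn h2 h4).eqOn_zero_of_preconnected_of_eventuallyEq_zero
      c2.isPreconnected hz2 (by
        filter_upwards [h1.mem_nhds hz1] with z hz
        show g z - g z0 = 0
        rw [e1 z hz, sub_self]) hx
    exact sub_eq_zero.1 h5
  have e3 : ∀ x ∈ D₁ ∪ D₂, g x = g z0 := by
    rintro x (hx | hx)
    · exact e1 x hx
    · exact e2 x hx
  intro x hx y hy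
  rw [e3 x hx, e3 y hy]

/-- **passage to the limit with non constancy on the wide cone** -/
theorem nc_transfer {𝒰 : Ultrafilter ι} {D₁ D₂ : Set (ℂ × ℂ)} (h1 : IsOpen D₁) (c1 : Convex ℝ D₁)
    (h2 : IsOpen D₂) (c2 : Convex ℝ D₂) (hne : (D₁ ∩ D₂).Nonempty)
    {a p : ι → ℂ × ℂ → ℂ} {ca cp : ι → ℂ} {ε : ι → ℝ} (hε : ∀ᶠ n in (𝒰 : Filter ι), 0 < ε n)
    (hb1 : ∀ K ⊆ D₁, IsCompact K → ∃ C : ℝ, ∀ᶠ n in (𝒰 : Filter ι), ∀ z ∈ K,
      DifferentiableAt ℂ (a n) z ∧ DifferentiableAt ℂ (p n) z ∧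
      ‖a n z - ca n‖ ≤ C * ε n ∧ ‖p n z - cp n‖ ≤ C * ε n)
    (hb2 : ∀ K ⊆ D₂, IsCompact K → ∃ C : ℝ, ∀ᶠ n in (𝒰 : Filter ι), ∀ z ∈ K,
      DifferentiableAt ℂ (a n) z ∧ DifferentiableAt ℂ (p n) z ∧
      ‖a n z - ca n‖ ≤ C * ε n ∧ ‖p n z - cp n‖ ≤ C * ε n)
    {x y : ℂ × ℂ} (hx : x ∈ D₂) (hy : y ∈ D₂) {u v : ι → ℂ × ℂ} (hu : Tendsto u 𝒰 (𝓝 x))
    (hv : Tendsto v 𝒰 (𝓝 y)) {c : ℝ} (hc : 0 < c)
    (hnc : ∀ᶠ n in (𝒰 : Filter ι), c * ε n ≤ ‖a n (u n) - a n (v n)‖ + ‖p n (u n) - p n (v n)‖) :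
    ∃ A' P' : ℂ × ℂ → ℂ, DifferentiableOn ℂ A' (D₁ ∪ D₂) ∧ DifferentiableOn ℂ P' (D₁ ∪ D₂) ∧
      TendstoLocallyUniformlyOn (fun n z => (a n z - ca n) / (ε n : ℂ)) A' (𝒰 : Filter ι) (D₁ ∪ D₂) ∧
      TendstoLocallyUniformlyOn (fun n z => (p n z - cp n) / (ε n : ℂ)) P' (𝒰 : Filter ι) (D₁ ∪ D₂) ∧
      (∃ z ∈ D₁, fderiv ℂ A' z ≠ 0 ∨ fderiv ℂ P' z ≠ 0) ∧
      (∀ z ∈ D₁ ∪ D₂, ∀ B : ℝ, (∀ᶠ n in (𝒰 : Filter ι), ‖a n z - ca n‖ ≤ B * ε n ∧
        ‖p n z - cp n‖ ≤ B * ε n) → ‖A' z‖ ≤ B ∧ ‖P' z‖ ≤ B) := by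
  have hD : IsOpen (D₁ ∪ D₂) := h1.union h2
  have la : LocBdd (𝒰 : Filter ι) (fun n z => (a n z - ca n) / (ε n : ℂ)) (D₁ ∪ D₂) := by
    rintro z (hz | hz)
    · exact locBdd_norm h1 hε (fun K hK hKc => by
        obtain ⟨C, hC⟩ := hb1 K hK hKc
        exact ⟨C, hC.mono fun n hn z hz => ⟨(hn z hz).1, (hn z hz).2.2.1⟩⟩) z hz
    · exact locBdd_norm h2 hε (fun K hK hKc => by
        obtain ⟨C, hC⟩ := hb2 K hK hKc
        exact ⟨C, hC.mono fun n hn z hz => ⟨(hn z hz).1, (hn z hz).2.2.1⟩⟩) z hz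
  have lp : LocBdd (𝒰 : Filter ι) (fun n z => (p n z - cp n) / (ε n : ℂ)) (D₁ ∪ D₂) := by
    rintro z (hz | hz)
    · exact locBdd_norm h1 hε (fun K hK hKc => by
        obtain ⟨C, hC⟩ := hb1 K hK hKc
        exact ⟨C, hC.mono fun n hn z hz => ⟨(hn z hz).2.1, (hn z hz).2.2.2⟩⟩) z hz
    · exact locBdd_norm h2 hε (fun K hK hKc => by
        obtain ⟨C, hC⟩ := hb2 K hK hKc
        exact ⟨C, hC.mono fun n hn z hz => ⟨(hn z hz).2.1, (hn z hz).2.2.2⟩⟩) z hz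
  obtain ⟨A', dA, tA, cA⟩ := montel_full 𝒰 hD la
  obtain ⟨P', dP, tP, cP⟩ := montel_full 𝒰 hD lp
  refine ⟨A', P', dA, dP, tA, tP, ?_, ?_⟩
  · by_contra hcon
    push Not at hcon
    have kA := const_transfer h1 c1 h2 c2 hne dA (fun z hz => (hcon z hz).1) x (Or.inr hx) y (Or.inr hy)
    have kP := const_transfer h1 c1 h2 c2 hne dP (fun z hz => (hcon z hz).2) x (Or.inr hx) y (Or.inr hy)
    have tx := cA x (Or.inr hx) u hu
    have ty := cA y (Or.inr hy) v hv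
    have sx := cP x (Or.inr hx) u hu
    have sy := cP y (Or.inr hy) v hv
    have t1 := (tx.sub ty).norm
    have s1 := (sx.sub sy).norm
    rw [kA, sub_self, norm_zero] at t1
    rw [kP, sub_self, norm_zero] at s1
    have t2 := t1.add s1
    rw [add_zero] at t2
    have t3 := t2.eventually_lt_const hc
    obtain ⟨n, m1, m2, m3⟩ := (t3.and (hnc.and hε)).exists
    have e1 : ‖(a n (u n) - ca n) / (ε n : ℂ) - (a n (v n) - ca n) / (ε n : ℂ)‖ =
        ‖a n (u n) - a n (v n)‖ / ε n := by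
      rw [← sub_div, sub_sub_sub_cancel_right, norm_div, Complex.norm_real, Real.norm_of_nonneg m3.le]
    have e2 : ‖(p n (u n) - cp n) / (ε n : ℂ) - (p n (v n) - cp n) / (ε n : ℂ)‖ =
        ‖p n (u n) - p n (v n)‖ / ε n := by
      rw [← sub_div, sub_sub_sub_cancel_right, norm_div, Complex.norm_real, Real.norm_of_nonneg m3.le]
    rw [e1, e2, ← add_div, div_lt_iff₀ m3] at m1
    linarith
  · intro z hz B hB
    have t1 := cA z hz (fun _ => z) tendsto_const_nhds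
    have t2 := cP z hz (fun _ => z) tendsto_const_nhds
    refine ⟨le_of_tendsto t1.norm ?_, le_of_tendsto t2.norm ?_⟩
    · filter_upwards [hB, hε] with n hn h0
      rw [norm_div, Complex.norm_real, Real.norm_of_nonneg h0.le, div_le_iff₀ h0]
      exact hn.1
    · filter_upwards [hB, hε] with n hn h0
      rw [norm_div, Complex.norm_real, Real.norm_of_nonneg h0.le, div_le_iff₀ h0]
      exact hn.2

/-- 330's form of non constancy: at ONE point of the wide cone the gradients are `≥ c' ε n` -/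
theorem nc_point {𝒰 : Ultrafilter ι} {D : Set (ℂ × ℂ)} (hD : IsOpen D) {f : ι → ℂ × ℂ → ℂ}
    {g : ℂ × ℂ → ℂ} {cf : ι → ℂ} {ε : ι → ℝ} (hε : ∀ᶠ n in (𝒰 : Filter ι), 0 < ε n)
    (hd : ∀ K ⊆ D, IsCompact K → ∀ᶠ n in (𝒰 : Filter ι), ∀ z ∈ K, DifferentiableAt ℂ (f n) z)
    (hg : DifferentiableOn ℂ g D)
    (hl : TendstoLocallyUniformlyOn (fun n z => (f n z - cf n) / (ε n : ℂ)) g (𝒰 : Filter ι) D)
    {z : ℂ × ℂ} (hz : z ∈ D) (h0 : fderiv ℂ g z ≠ 0) :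
    ∃ c > 0, ∀ᶠ n in (𝒰 : Filter ι), c * ε n ≤ ‖fderiv ℂ (f n) z‖ := by
  obtain ⟨r, hr, h1⟩ := Metric.nhds_basis_closedBall.mem_iff.1 (hD.mem_nhds hz)
  have hd1 := hd _ h1 (isCompact_closedBall z r)
  have hball : ball z r ⊆ D := ball_subset_closedBall.trans h1
  have hj := Vale.Agent.P097.H845.joint_fderiv (l := (𝒰 : Filter ι)) isOpen_ball
    (hl.mono hball) (by
      filter_upwards [hd1] with n hn y hy
      have e1 := (hn y (ball_subset_closedBall hy)).sub_const (cf n)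
      have e2 : DifferentiableAt ℂ (fun y => (f n y - cf n) * ((ε n : ℂ))⁻¹) y := e1.mul_const _
      exact (e2.congr_of_eventuallyEq (Eventually.of_forall fun y => by
        simp only [div_eq_mul_inv])).differentiableWithinAt) (hg.mono hball) (mem_ball_self hr)
  have hc : 0 < ‖fderiv ℂ g z‖ := norm_pos_iff.2 h0
  have ht : Tendsto (fun n => ‖fderiv ℂ (fun y => (f n y - cf n) / (ε n : ℂ)) z‖) 𝒰
      (𝓝 ‖fderiv ℂ g z‖) := by
    have h2 : Tendsto (fun n : ι => (n, z)) (𝒰 : Filter ι) ((𝒰 : Filter ι) ×ˢ 𝓝 z) :=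
      tendsto_id.prodMk tendsto_const_nhds
    exact (hj.comp h2).norm
  refine ⟨‖fderiv ℂ g z‖ / 2, by positivity, ?_⟩
  filter_upwards [ht.eventually_const_le (show ‖fderiv ℂ g z‖ / 2 < ‖fderiv ℂ g z‖ by linarith),
    hε, hd1] with n h3 h4 h5
  have h6 : DifferentiableAt ℂ (f n) z := h5 z (mem_closedBall_self hr.le)
  have h7 : ‖fderiv ℂ (fun y => (f n y - cf n) / (ε n : ℂ)) z‖ = ‖fderiv ℂ (f n) z‖ / ε n := by
    have e1 : (fun z => (f n z - cf n) / (ε n : ℂ)) = ((ε n : ℂ)⁻¹) • (fun z => f n z - cf n) := by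
      funext z
      rw [Pi.smul_apply, smul_eq_mul, div_eq_inv_mul]
    rw [e1, fderiv_const_smul_field, Pi.smul_apply, fderiv_sub_const, norm_smul, norm_inv,
      Complex.norm_real, Real.norm_of_nonneg h4.le]
    ring
  rw [h7, le_div_iff₀ h4] at h3
  exact h3

end Vale.Agent.P097.H830.NC
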