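import Mathlib
import Vale.Agent.P097.TC.Defs5
import Vale.Agent.P097.H560.Inst
import Vale.Agent.P097.H983.Har
import Vale.Agent.P097.H190.Ult

/-!
# P097 / block (W), row NEST-Q: nested points give mid-level non R2 points `Md` at all scales, in the
straight coordinates `Sm` of 560, and the axis point itself is mid-level.
-/

set_option linter.all false

open Complex Metric Set Filter Topology

namespace Vale.Agent.P097.H830.NQ

open Vale.Agent.P097.TC Vale.Agent.P097.H85 Vale.Agent.P097.H929 Vale.Agent.P097.H560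
open Vale.Agent.P097.H226.W (Bx Qu Md ax)

/-- the axis point of depth `t`, original coordinates -/
noncomputable def zp (P : ℝ → ℂ) (Ψ : ℂ → ℂ) (y u t : ℝ) : ℂ × ℂ :=
  (((y - (P u).re : ℝ) : ℂ) - t * I + Ψ ((u : ℂ) + t * I), (u : ℂ) + t * I)

theorem zp_eq (P : ℝ → ℂ) (Ψ : ℂ → ℂ) (y u t : ℝ) {S : ℝ} (hS : S ≠ 0) :
    Sm P Ψ y u S (ax (t / S)) = zp P Ψ y u t := by
  have hS' : (S : ℂ) ≠ 0 := ofReal_ne_zero.2 hS
  have e1 : (S : ℂ) * (((t / S : ℝ) : ℂ) * I) = t * I := by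
    push_cast; field_simp
  have e2 : (S : ℂ) * (-(((t / S : ℝ) : ℂ) * I)) = -(t * I) := by rw [mul_neg, e1]
  unfold Sm ax zp
  simp only [e1, e2]
  rfl

/-- Harnack in a slice (half plane with a real edge) -/
theorem slice {θ : ℂ → ℂ} {b R H C S S' y y' : ℝ} (hC : 1 ≤ C) (hS : 0 < S)
    (h1 : |y' - y| ≤ C * S) (h2 : S ≤ C * S') (h3 : S' ≤ C * S) (h4 : b + 8 * C ^ 3 * S ≤ R)
    (hθ : DifferentiableOn ℂ θ {t | b < t.im ∧ t.im < R})
    (hs : ∀ t : ℂ, b < t.im → t.im < R → |(θ t).im| < H) :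
    3 * (H - |(θ ((y : ℂ) + ((R - S : ℝ) : ℂ) * I)).im|) ≤
      256 * C ^ 7 * (H - |(θ ((y' : ℂ) + ((R - S' : ℝ) : ℂ) * I)).im|) := by
  have hC0 : 0 < C := by linarith
  set L : ℝ := 4 * C ^ 3 with hL
  have hL1 : 1 < L := by
    have : (1 : ℝ) ≤ C ^ 3 := one_le_pow₀ hC
    rw [hL]; linarith
  set c : ℂ := (y : ℂ) + ((R - L * S : ℝ) : ℂ) * I with hc
  have hcim : c.im = R - L * S := by simp [hc]
  have hcre : c.re = y := by simp [hc]
  have hsub : ball c (L * S) ⊆ {t | b < t.im ∧ t.im < R} := by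
    intro t ht
    rw [mem_ball, dist_eq_norm] at ht
    have h5 := (Complex.abs_im_le_norm (t - c)).trans_lt ht
    rw [sub_im, hcim, abs_lt] at h5
    constructor
    · show b < t.im
      have : 8 * C ^ 3 * S = 2 * (L * S) := by rw [hL]; ring
      linarith
    · show t.im < R
      linarith
  have hd := hθ.mono hsub
  have hb : ∀ t ∈ ball c (L * S), |(θ t).im| < H := fun t ht => hs t (hsub ht).1 (hsub ht).2
  set t₁ : ℂ := (y : ℂ) + ((R - S : ℝ) : ℂ) * I with ht1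
  set t₂ : ℂ := (y' : ℂ) + ((R - S' : ℝ) : ℂ) * I with ht2
  have n1 : ‖t₁ - c‖ = (L - 1) * S := by
    have : t₁ - c = (((L - 1) * S : ℝ) : ℂ) * I := by
      rw [ht1, hc]; push_cast; ring
    rw [this, norm_mul, norm_I, mul_one, norm_real, Real.norm_of_nonneg]
    exact mul_nonneg (by linarith) hS.le
  have n2 : ‖t₂ - c‖ ≤ (L - 3 / (4 * C)) * S := by
    have h7 : 3 / (4 * C) < L := by
      rw [div_lt_iff₀ (by positivity)]
      nlinarith
    have h8 : 0 ≤ (L - 3 / (4 * C)) * S := mul_nonneg (by linarith) hS.le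
    have hre : (t₂ - c).re = y' - y := by rw [sub_re, hcre]; simp [ht2]
    have him : (t₂ - c).im = L * S - S' := by rw [sub_im, hcim]; simp [ht2]
    have h9 : ‖t₂ - c‖ ^ 2 ≤ ((L - 3 / (4 * C)) * S) ^ 2 := by
      rw [← Complex.normSq_eq_norm_sq, Complex.normSq_apply, hre, him]
      have e1 : (y' - y) * (y' - y) ≤ C ^ 2 * S ^ 2 := by
        have := mul_self_le_mul_self (abs_nonneg _) h1
        rw [abs_mul_abs_self] at this
        nlinarith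
      have e2 : S' * S' ≤ C ^ 2 * S ^ 2 := by
        have hS' : 0 ≤ S' := by
          by_contra hneg
          push Not at hneg
          nlinarith
        have := mul_self_le_mul_self hS' h3
        nlinarith
      have e3 : 8 * C ^ 2 * S ^ 2 ≤ 2 * L * S * S' := by
        have : 2 * L * S * S' = 8 * C ^ 2 * S * (C * S') := by rw [hL]; ring
        rw [this]
        have : 8 * C ^ 2 * S ^ 2 = 8 * C ^ 2 * S * S := by ring
        rw [this]
        exact mul_le_mul_of_nonneg_left h2 (by positivity)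
      have e4 : ((L - 3 / (4 * C)) * S) ^ 2 = L ^ 2 * S ^ 2 - 6 * C ^ 2 * S ^ 2 +
          (3 / (4 * C)) ^ 2 * S ^ 2 := by
        rw [hL]; field_simp; ring
      rw [e4]
      have e5 : 0 ≤ (3 / (4 * C)) ^ 2 * S ^ 2 := by positivity
      nlinarith
    exact abs_le_of_sq_le_sq' h9 h8 |>.2
  have h5 : 3 / (4 * C) * S > 0 := by positivity
  obtain ⟨-, k1⟩ := H983.wall_ball hd hb (z := t₁) (by rw [n1]; nlinarith)
  obtain ⟨k2, -⟩ := H983.wall_ball hd hb (z := t₂) (by nlinarith)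
  rw [n1] at k1
  have hφc : 0 < H - |(θ c).im| := by
    have := hb c (mem_ball_self (by positivity))
    linarith
  have hφ2 : 0 < H - |(θ t₂).im| := by
    have := hb t₂ (by rw [mem_ball, dist_eq_norm]; nlinarith)
    linarith
  -- S (H - |θ t₁|) ≤ (2L - 1) S (H - |θ c|)
  have m1 : H - |(θ t₁).im| ≤ 2 * L * (H - |(θ c).im|) := by
    have : S * (H - |(θ t₁).im|) ≤ S * (2 * L * (H - |(θ c).im|)) := by
      have e1 : (L * S - (L - 1) * S) * (H - |(θ t₁).im|) = S * (H - |(θ t₁).im|) := by ring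
      rw [e1] at k1
      refine k1.trans ?_
      have e2 : S * (2 * L * (H - |(θ c).im|)) = (2 * L * S) * (H - |(θ c).im|) := by ring
      rw [e2]
      exact mul_le_mul_of_nonneg_right (by nlinarith) hφc.le
    exact le_of_mul_le_mul_left this hS
  have m2 : 3 / (4 * C) * (H - |(θ c).im|) ≤ 2 * L * (H - |(θ t₂).im|) := by
    have : S * (3 / (4 * C) * (H - |(θ c).im|)) ≤ S * (2 * L * (H - |(θ t₂).im|)) := by
      have e1 : S * (3 / (4 * C) * (H - |(θ c).im|)) = (3 / (4 * C) * S) * (H - |(θ c).im|) := by ring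
      have e2 : S * (2 * L * (H - |(θ t₂).im|)) = (2 * L * S) * (H - |(θ t₂).im|) := by ring
      rw [e1, e2]
      refine le_trans (mul_le_mul_of_nonneg_right ?_ hφc.le) (k2.trans
        (mul_le_mul_of_nonneg_right ?_ hφ2.le))
      · nlinarith
      · nlinarith
    exact le_of_mul_le_mul_left this hS
  have m3 : 3 * (H - |(θ c).im|) ≤ 32 * C ^ 4 * (H - |(θ t₂).im|) := by
    have e1 : 3 * (H - |(θ c).im|) = (4 * C) * (3 / (4 * C) * (H - |(θ c).im|)) := by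
      field_simp
    have e2 : 32 * C ^ 4 * (H - |(θ t₂).im|) = (4 * C) * (2 * L * (H - |(θ t₂).im|)) := by
      rw [hL]; ring
    rw [e1, e2]
    exact mul_le_mul_of_nonneg_left m2 (by positivity)
  calc 3 * (H - |(θ t₁).im|) ≤ 3 * (2 * L * (H - |(θ c).im|)) := by linarith
    _ = 2 * L * (3 * (H - |(θ c).im|)) := by ring
    _ ≤ 2 * L * (32 * C ^ 4 * (H - |(θ t₂).im|)) := mul_le_mul_of_nonneg_left m3 (by positivity)
    _ = 256 * C ^ 7 * (H - |(θ t₂).im|) := by rw [hL]; ring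

section world

variable {Λ H : ℝ} {F q : ℂ → ℂ} {b m : ℝ} {Ψ : ℂ → ℂ} {Mj Mk B : Set (ℂ × ℂ)} {A : Set ℝ}
  {P : ℝ → ℂ} {c k : ℝ → ℝ} {K y₀ u₀ σ s : ℝ} {al p th : ℂ × ℂ → ℂ} {J : ℂ → ℂ}

theorem isOpen_Dm (W : A5.W5 Λ H F q b m Ψ Mj Mk B A P c k K y₀ u₀ σ s al p th J) :
    IsOpen (A5.Dm Mj Mk) :=
  (W.rhj.dn.op.inter W.rhk.dn.op).inter (isOpen_ne_fun continuous_snd continuous_const)

/-- the slices at real labels are in the domain -/
theorem sliceD (W : A5.W5 Λ H F q b m Ψ Mj Mk B A P c k K y₀ u₀ σ s al p th J) {u : ℝ}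
    (hu : u ∈ A) {t : ℂ} (h1 : b < t.im) (h2 : t.im < (P u).im) : (t, (u : ℂ)) ∈ A5.Dm Mj Mk := by
  obtain ⟨δ, hδ, h⟩ := W.coneU 1 one_pos
  have h3 := h u hu 0 (by simpa using hδ) t h1 (by simpa using h2)
  rw [add_zero] at h3
  exact ⟨⟨W.Bj h3, W.Bk h3⟩, ofReal_ne_zero.2 (W.uz u hu)⟩

/-- two-sided balls round the real label points -/
theorem ballD (W : A5.W5 Λ H F q b m Ψ Mj Mk B A P c k K y₀ u₀ σ s al p th J) :
    ∃ κ S₀ : ℝ, 0 < κ ∧ κ ≤ 1 / 4 ∧ 0 < S₀ ∧ ∀ u ∈ A, ∀ x S' : ℝ, 0 < S' → S' ≤ S₀ →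
      b + 2 * S' ≤ (P u).im → ball (A5.vp P x u S') (κ * S') ⊆ A5.Dm Mj Mk := by
  obtain ⟨δ, hδ, h⟩ := W.coneU 1 one_pos
  obtain ⟨T, hT⟩ := W.Uj.bd
  have hT0 : 0 ≤ |T| := abs_nonneg T
  have hK := W.K0
  -- distance of the labels to `0`
  obtain ⟨a₀, ha₀, hA⟩ : ∃ a₀ > 0, ∀ u ∈ A, a₀ ≤ |u| := by
    rcases A.eq_empty_or_nonempty with h0 | h0
    · exact ⟨1, one_pos, by simp [h0]⟩
    obtain ⟨x, hx, hxm⟩ := W.cA.exists_isMinOn h0 (continuous_abs.continuousOn)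
    exact ⟨|x|, abs_pos.2 (W.uz x hx), fun u hu => hxm hu⟩
  set κ : ℝ := 1 / (|T| + K + 4) with hκ
  have hκ0 : 0 < κ := by positivity
  have hκ1 : κ * (|T| + K + 4) = 1 := by rw [hκ]; field_simp
  refine ⟨κ, min δ a₀, hκ0, ?_, lt_min hδ ha₀, ?_⟩
  · nlinarith
  intro u hu x S' hS' hS0 hb z hz
  rw [mem_ball, dist_eq_norm, Prod.norm_def, max_lt_iff] at hz
  obtain ⟨z1, z2⟩ := hz
  have z1' := (Complex.abs_im_le_norm _).trans_lt z1
  have e1 : (z - A5.vp P x u S').1.im = z.1.im - ((P u).im - S') := by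
    simp [A5.vp]
  rw [e1, abs_lt] at z1'
  set v : ℂ := z.2 - u with hv
  have z2' : ‖v‖ < κ * S' := by simpa [A5.vp] using z2
  have hκS : κ * S' ≤ S' := by nlinarith
  have h1 : ‖v‖ < δ := (z2'.trans_le hκS).trans_le (hS0.trans (min_le_left _ _))
  have h2 : ‖v‖ < a₀ := (z2'.trans_le hκS).trans_le (hS0.trans (min_le_right _ _))
  have h3 : |c u * v.re| ≤ |T| * ‖v‖ := by
    rw [abs_mul]
    exact mul_le_mul ((hT u hu).1.trans (le_abs_self T)) (Complex.abs_re_le_norm v)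
      (abs_nonneg _) hT0
  have h4 : K * |v.im| ≤ K * ‖v‖ := mul_le_mul_of_nonneg_left (Complex.abs_im_le_norm v) hK.le
  have h5 : (|T| + K + 1) * ‖v‖ ≤ (|T| + K + 1) * (κ * S') :=
    mul_le_mul_of_nonneg_left z2'.le (by positivity)
  have h6 : (|T| + K + 1) * (κ * S') + 3 * (κ * S') = S' := by
    have : (|T| + K + 1) * (κ * S') + 3 * (κ * S') = (κ * (|T| + K + 4)) * S' := by ring
    rw [this, hκ1, one_mul]
  have hκS0 : 0 < κ * S' := by positivity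
  have hmem : (z.1, (u : ℂ) + v) ∈ B := by
    apply h u hu v h1
    · linarith
    · have := (abs_le.1 h3).1
      linarith
  have hz2 : (u : ℂ) + v = z.2 := by rw [hv]; ring
  rw [hz2] at hmem
  refine ⟨⟨W.Bj hmem, W.Bk hmem⟩, ?_⟩
  show z.2 ≠ 0
  intro h0
  have h7 : ‖v‖ = |u| := by rw [hv, h0, zero_sub, norm_neg, norm_real, Real.norm_eq_abs]
  linarith [hA u hu]

/-- bound of `F'` away from the walls -/
theorem dF_bd (h : A5.Gro H F q) {e : ℝ} (he : 0 < e) :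
    ∃ M : ℝ, 1 ≤ M ∧ ∀ x : ℂ, |x.im| ≤ H - e → ‖deriv F x‖ ≤ M := by
  obtain ⟨C, hC, h1⟩ := h 1 one_pos
  refine ⟨Real.exp (C * e⁻¹), Real.one_le_exp (by positivity), fun x hx => ?_⟩
  have h2 : e ≤ H - |x.im| := by linarith
  refine (h1 x (show |x.im| < H by linarith)).2.1.trans (Real.exp_le_exp.2 ?_)
  refine mul_le_mul_of_nonneg_left ?_ hC.le
  rw [Real.rpow_neg_one]
  exact inv_anti₀ he h2

/-- elementary: the scales are far below `h` and `S` -/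
theorem arith {C₁ τ t h : ℝ} (hC1 : 1 ≤ C₁) (ht : 0 < t) (hh : 0 < h)
    (t1 : 16 * C₁ ^ 3 * τ ≤ 1) (hth : t ≤ τ * h) :
    16 * C₁ ^ 3 * t ≤ h ∧ 16 * (C₁ * t) ≤ h ∧ t < h := by
  have hC3 : (1 : ℝ) ≤ C₁ ^ 3 := one_le_pow₀ hC1
  have h1 : 16 * C₁ ^ 3 * t ≤ h := by
    calc 16 * C₁ ^ 3 * t ≤ 16 * C₁ ^ 3 * (τ * h) := mul_le_mul_of_nonneg_left hth (by positivity)
      _ = (16 * C₁ ^ 3 * τ) * h := by ring
      _ ≤ 1 * h := mul_le_mul_of_nonneg_right t1 hh.le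
      _ = h := one_mul h
  have hCsq : C₁ ≤ C₁ ^ 3 := by
    calc C₁ = C₁ ^ 1 := (pow_one _).symm
      _ ≤ C₁ ^ 3 := pow_le_pow_right₀ hC1 (by norm_num)
  have h2 : C₁ * t ≤ C₁ ^ 3 * t := mul_le_mul_of_nonneg_right hCsq ht.le
  have h3 : 1 * t ≤ C₁ * t := mul_le_mul_of_nonneg_right hC1 ht.le
  refine ⟨h1, by linarith, by linarith⟩

/-- step 1 : the non R2 point of the window at the real label and its two-sided ball are mid-level -/
theorem step1 (W : A5.W5 Λ H F q b m Ψ Mj Mk B A P c k K y₀ u₀ σ s al p th J) {C c₁ C₁ : ℝ}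
    (hC : 0 < C) (hc : 0 < c₁) (hC1 : 1 ≤ C₁) (hCC : C ≤ C₁) {κ S₀ : ℝ} (hκ : 0 < κ)
    (hball : ∀ u ∈ A, ∀ x S' : ℝ, 0 < S' → S' ≤ S₀ →
      b + 2 * S' ≤ (P u).im → ball (A5.vp P x u S') (κ * S') ⊆ A5.Dm Mj Mk)
    {u y h t : ℝ} (hu : u ∈ A) (hN : A5.Nst H b F P th C c₁ h y u) (ht : 0 < t)
    (h16 : 16 * C₁ ^ 3 * t ≤ h ∧ 16 * (C₁ * t) ≤ h ∧ t < h) (htS : C₁ * t ≤ S₀) :
    ∃ y' S' : ℝ, 0 < S' ∧ |y' - y| ≤ C₁ * t ∧ t ≤ C₁ * S' ∧ S' ≤ C₁ * t ∧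
      c₁ ≤ ‖deriv F (th (A5.vp P y' u S'))‖ ∧ ball (A5.vp P y' u S') (κ * S') ⊆ A5.Dm Mj Mk ∧
      ∀ z ∈ ball (A5.vp P y' u S') (κ * S' / 2),
        |(th z).im| ≤ H - 3 * (c₁ * H) / (256 * C₁ ^ 7) / 3 := by
  have hDo := isOpen_Dm W
  have hH : 0 < H := W.crv.cv.b0
  have hh := hN.h0
  obtain ⟨g1, g2, g3⟩ := h16
  obtain ⟨y', S', n1, n2, n3, n4⟩ := hN.nr2 t ht g3
  have hS'0 : 0 < S' := by
    by_contra hneg
    push Not at hneg
    have : C * S' ≤ 0 := mul_nonpos_of_nonneg_of_nonpos hC.le hneg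
    linarith
  have n1' : |y' - y| ≤ C₁ * t := n1.trans (mul_le_mul_of_nonneg_right hCC ht.le)
  have n2' : t ≤ C₁ * S' := n2.trans (mul_le_mul_of_nonneg_right hCC hS'0.le)
  have n3' : S' ≤ C₁ * t := n3.trans (mul_le_mul_of_nonneg_right hCC ht.le)
  have hC1' : 1 ≤ C := by
    by_contra hlt
    push Not at hlt
    have q1 : C * S' < 1 * S' := mul_lt_mul_of_pos_right hlt hS'0
    have q2 : C * t < 1 * t := mul_lt_mul_of_pos_right hlt ht
    linarith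
  have hlev : b + h < (P u).im := by
    have h1 := hN.hb
    have h2 : 1 * h ≤ C * h := mul_le_mul_of_nonneg_right hC1' hh.le
    linarith
  have hsl : 3 * (H - |(th (A5.vp P y u t)).im|) ≤
      256 * C₁ ^ 7 * (H - |(th (A5.vp P y' u S')).im|) := by
    refine slice (θ := fun x => th (x, (u : ℂ))) (b := b) (R := (P u).im) hC1 ht n1' n2' n3'
      (by linarith) ?_ ?_
    · intro x hx
      have h1 := sliceD W hu hx.1 hx.2
      have h2 : DifferentiableAt ℂ th (x, (u : ℂ)) :=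
        (W.dth _ h1).differentiableAt (hDo.mem_nhds h1)
      have h3 : DifferentiableAt ℂ (fun x : ℂ => (x, (u : ℂ))) x := by fun_prop
      exact (DifferentiableAt.comp x (f := fun x : ℂ => (x, (u : ℂ))) h2 h3).differentiableWithinAt
    · intro x hx1 hx2
      exact W.mem _ (sliceD W hu hx1 hx2)
  have hmid := hN.mid t ht g3
  set e₁ : ℝ := 3 * (c₁ * H) / (256 * C₁ ^ 7) with he₁
  have he₁0 : 0 < e₁ := by positivity
  have he1 : e₁ ≤ H - |(th (A5.vp P y' u S')).im| := by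
    rw [he₁, div_le_iff₀ (by positivity)]
    have : 3 * (c₁ * H) ≤ 3 * (H - |(th (A5.vp P y u t)).im|) := by linarith
    linarith
  have hB := hball u hu y' S' hS'0 (n3'.trans htS) (by linarith)
  have hr : 0 < κ * S' := by positivity
  have hdB : DifferentiableOn ℂ th (ball (A5.vp P y' u S') (κ * S')) := W.dth.mono hB
  have hsB : ∀ z ∈ ball (A5.vp P y' u S') (κ * S'), |(th z).im| < H := fun z hz => W.mem _ (hB hz)
  refine ⟨y', S', hS'0, n1', n2', n3', n4, hB, ?_⟩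
  intro z hz
  rw [mem_ball, dist_eq_norm] at hz
  obtain ⟨w1, -⟩ := H983.wall_ball hdB hsB (z := z) (by linarith)
  have hpos : 0 < H - |(th z).im| := by
    have := hsB z (by rw [mem_ball, dist_eq_norm]; linarith)
    linarith
  have w2 : κ * S' / 2 * e₁ ≤ 3 / 2 * (κ * S') * (H - |(th z).im|) := by
    refine le_trans ?_ (w1.trans (mul_le_mul_of_nonneg_right (by linarith) hpos.le))
    exact mul_le_mul (by linarith) he1 he₁0.le (by linarith [norm_nonneg (z - A5.vp P y' u S')])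
  have w3 : e₁ ≤ 3 * (H - |(th z).im|) := by
    have : κ * S' * e₁ ≤ κ * S' * (3 * (H - |(th z).im|)) := by linarith
    exact le_of_mul_le_mul_left this hr
  linarith

/-- step 2 : `F'` does not vanish near the centre -/
theorem step2 (cv : Cv Λ H F q) {z₀ : ℂ × ℂ} {r c₁ M : ℝ} (hr : 0 < r) (hM : 0 < M)
    (hd : DifferentiableOn ℂ th (ball z₀ r)) (hs : ∀ z ∈ ball z₀ r, th z ∈ Sb H)
    (hMb : ∀ z ∈ ball z₀ r, ‖deriv F (th z)‖ ≤ M) (h0 : c₁ ≤ ‖deriv F (th z₀)‖) {z : ℂ × ℂ}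
    {δ : ℝ} (hδ : δ < r / 4) (hδ2 : 8 * M * δ ≤ c₁ * r) (hz : dist z z₀ ≤ δ) :
    c₁ / 2 ≤ ‖deriv F (th z)‖ := by
  have hSo : IsOpen (Sb H) := isOpen_lt (continuous_abs.comp continuous_im) continuous_const
  have hdF : DifferentiableOn ℂ (deriv F) (Sb H) := cv.dF.deriv hSo
  have hG : DifferentiableOn ℂ (fun z => deriv F (th z)) (ball z₀ r) := hdF.comp hd hs
  have h1 := H190.Ult.lip_of_bdd hr hG hMb (y := z₀) (z := z) (mem_ball_self (by positivity))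
    (by rw [mem_ball]; linarith)
  have h2 : 4 * M / r * dist z z₀ ≤ c₁ / 2 := by
    rw [div_mul_eq_mul_div, div_le_iff₀ hr]
    have : 4 * M * dist z z₀ ≤ 4 * M * δ := mul_le_mul_of_nonneg_left hz (by positivity)
    linarith
  rw [dist_eq_norm] at h1
  have h3 := norm_sub_norm_le (deriv F (th z₀)) (deriv F (th z))
  rw [norm_sub_rev] at h3
  linarith

/-- step 3 : straight coordinates of the point `β` -/
theorem step3 {M₀ : Set (ℂ × ℂ)} {u ρ₁ T y y' S S' t κ₂ C₁ : ℝ}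
    (hcmp : Cmp M₀ b m Ψ u ρ₁ (P u) (c u) (k u) 1 1) (hT : |c u| ≤ T ∧ |k u| ≤ T) (hS : 0 < S)
    (hS' : 0 < S') (hκ₂ : 0 < κ₂) (k3 : κ₂ * (4 * (T + 2)) ≤ 1) (hρ : κ₂ * S' < ρ₁)
    (hC1 : 1 ≤ C₁) (ht : 0 < t)
    (n1 : |y' - y| ≤ C₁ * t) (n2 : t ≤ C₁ * S') (n3 : S' ≤ C₁ * t) :
    ∃ ζ : ℂ × ℂ, Sm P Ψ y u S ζ = ((y' : ℂ) + (((P u).im - S' : ℝ) : ℂ) * I,
        (u : ℂ) + ((κ₂ * S' : ℝ) : ℂ) * I) ∧ κ₂ / C₁ * (t / S) ≤ -ζ.1.im ∧
      κ₂ / C₁ * (t / S) ≤ ζ.2.im ∧ ‖ζ‖ ≤ 4 * C₁ * (t / S) := by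
  have hT0 : 0 ≤ T := (abs_nonneg _).trans hT.1
  have hSc : (S : ℂ) ≠ 0 := ofReal_ne_zero.2 hS.ne'
  set w : ℂ := (u : ℂ) + ((κ₂ * S' : ℝ) : ℂ) * I with hw
  have hη : 0 < κ₂ * S' := by positivity
  have hwre : w.re = u := by simp [hw]
  have hwim : w.im = κ₂ * S' := by
    rw [hw, add_im, ofReal_im, zero_add, mul_I_im, ofReal_re]
  have hwu : w - u = ((κ₂ * S' : ℝ) : ℂ) * I := by rw [hw]; ring
  have hwn : ‖w - u‖ = κ₂ * S' := by
    rw [hwu, norm_mul, norm_I, mul_one, norm_real, Real.norm_of_nonneg hη.le]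
  have hnt := hcmp.nt w (by rw [hwre, sub_self, abs_zero]; linarith) (by rw [hwim]; exact hη)
    (by rw [hwim]; exact hρ) (by rw [hwre, sub_self, abs_zero, hwim]; linarith)
  rw [hwn, one_mul, hwu] at hnt
  have e0 : (I * (c u : ℂ) + (k u : ℂ)) * (((κ₂ * S' : ℝ) : ℂ) * I) =
      ((-(c u * (κ₂ * S')) : ℝ) : ℂ) + ((k u * (κ₂ * S') : ℝ) : ℂ) * I := by
    push_cast
    linear_combination (c u : ℂ) * (κ₂ * S') * I_mul_I
  rw [e0] at hnt
  have i1 := (Complex.abs_im_le_norm _).trans hnt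
  have r1 := (Complex.abs_re_le_norm _).trans hnt
  simp only [sub_im, add_im, ofReal_im, mul_I_im, ofReal_re, zero_add] at i1
  simp only [sub_re, add_re, ofReal_re, mul_I_re, ofReal_im, neg_zero, add_zero] at r1
  have q1 : |k u * (κ₂ * S')| ≤ T * (κ₂ * S') := by
    rw [abs_mul, abs_of_pos hη]
    exact mul_le_mul_of_nonneg_right hT.2 hη.le
  have q2 : |c u * (κ₂ * S')| ≤ T * (κ₂ * S') := by
    rw [abs_mul, abs_of_pos hη]
    exact mul_le_mul_of_nonneg_right hT.1 hη.le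
  have q3 : (T + 2) * (κ₂ * S') ≤ S' / 4 := by
    have : κ₂ * (4 * (T + 2)) * S' ≤ 1 * S' := mul_le_mul_of_nonneg_right k3 hS'.le
    have e : κ₂ * (4 * (T + 2)) * S' = 4 * ((T + 2) * (κ₂ * S')) := by ring
    linarith
  have i2 : |(Ψ w).im - (P u).im| ≤ S' / 4 := by
    rw [abs_le] at i1 q1 ⊢
    constructor <;> linarith
  have r2 : |(Ψ w).re - (P u).re| ≤ S' / 4 := by
    rw [abs_le] at r1 q2 ⊢
    constructor <;> linarith
  set x : ℂ := (y' : ℂ) + (((P u).im - S' : ℝ) : ℂ) * I - ((y - (P u).re : ℝ) : ℂ) - Ψ w with hx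
  have hxim : x.im = -S' - ((Ψ w).im - (P u).im) := by
    rw [hx]; simp only [sub_im, add_im, ofReal_im, mul_I_im, ofReal_re]; ring
  have hxre : x.re = (y' - y) - ((Ψ w).re - (P u).re) := by
    rw [hx]; simp only [sub_re, add_re, ofReal_re, mul_I_re, ofReal_im]; ring
  have d1 : (x / (S : ℂ)).im = x.im / S := by
    rw [Complex.div_ofReal_im]
  have d2 : ((w - u) / (S : ℂ)).im = κ₂ * S' / S := by
    rw [hwu, Complex.div_ofReal_im, mul_I_im, ofReal_re]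
  have hS'C : t / C₁ ≤ S' := by rw [div_le_iff₀ (by linarith)]; linarith
  have k5 : κ₂ ≤ 1 / 8 := by nlinarith
  refine ⟨(x / S, (w - u) / S), ?_, ?_, ?_, ?_⟩
  · have e1 : (u : ℂ) + (S : ℂ) * ((w - u) / S) = w := by field_simp; ring
    unfold Sm
    simp only [e1]
    ext1
    · show ((y - (P u).re : ℝ) : ℂ) + (S : ℂ) * (x / S) + Ψ w = _
      rw [mul_div_cancel₀ _ hSc, hx]
      ring
    · rfl
  · show κ₂ / C₁ * (t / S) ≤ -(x / (S : ℂ)).im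
    rw [d1]
    have h1 : κ₂ / C₁ * (t / S) = κ₂ * (t / C₁) / S := by ring
    have h2 : -(x.im / S) = -x.im / S := by ring
    rw [h1, h2]
    apply div_le_div_of_nonneg_right _ hS.le
    have h3 : κ₂ * (t / C₁) ≤ 1 / 8 * S' :=
      mul_le_mul k5 hS'C (by positivity) (by norm_num)
    rw [hxim]
    have := (abs_le.1 i2).1
    linarith
  · show κ₂ / C₁ * (t / S) ≤ ((w - u) / (S : ℂ)).im
    rw [d2]
    have h1 : κ₂ / C₁ * (t / S) = κ₂ * (t / C₁) / S := by ring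
    rw [h1]
    apply div_le_div_of_nonneg_right _ hS.le
    exact mul_le_mul_of_nonneg_left hS'C hκ₂.le
  · have hn1 : ‖x‖ ≤ 4 * C₁ * t := by
      refine (Complex.norm_le_abs_re_add_abs_im x).trans ?_
      rw [hxre, hxim]
      have a1 : |y' - y - ((Ψ w).re - (P u).re)| ≤ C₁ * t + S' / 4 :=
        (abs_sub _ _).trans (add_le_add n1 r2)
      have a2 : |-S' - ((Ψ w).im - (P u).im)| ≤ S' + S' / 4 := by
        refine (abs_sub _ _).trans (add_le_add ?_ i2)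
        rw [abs_neg, abs_of_pos hS']
      linarith
    have hn2 : ‖w - u‖ ≤ 4 * C₁ * t := by
      rw [hwn]
      have : κ₂ * S' ≤ 1 / 8 * S' := mul_le_mul_of_nonneg_right k5 hS'.le
      linarith
    rw [Prod.norm_def]
    apply max_le
    · show ‖x / (S : ℂ)‖ ≤ _
      rw [norm_div, norm_real, Real.norm_of_nonneg hS.le, ← mul_div_assoc]
      exact div_le_div_of_nonneg_right hn1 hS.le
    · show ‖(w - u) / (S : ℂ)‖ ≤ _
      rw [norm_div, norm_real, Real.norm_of_nonneg hS.le, ← mul_div_assoc]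
      exact div_le_div_of_nonneg_right hn2 hS.le

/-- step 4 : the axis point -/
theorem step4 {θ : ℂ × ℂ → ℂ} {X om ρ e : ℝ} (hX : 1 ≤ X) (hom : 0 < om) (hom1 : om ≤ 1)
    (hρ : 0 < ρ) (hρ1 : 10 * X * ρ ≤ 1) (hd : DifferentiableOn ℂ θ (Bx 1 ∩ Qu))
    (hs : ∀ z ∈ Bx 1 ∩ Qu, |(θ z).im| < H) {ζ : ℂ × ℂ} (h1 : om * ρ ≤ -ζ.1.im)
    (h2 : om * ρ ≤ ζ.2.im) (h3 : ‖ζ‖ ≤ X * ρ) (he : |(θ ζ).im| ≤ H - e) :
    |(θ (ax ρ)).im| ≤ H - om * e / (243 * X ^ 2) := by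
  have hsub : H983.QT 0 0 (10 * X * ρ) ⊆ Bx 1 ∩ Qu := by
    rintro z ⟨g1, g2, g3⟩
    rw [dist_zero_right] at g3
    have g4 : ‖z‖ < 1 := lt_of_lt_of_le g3 hρ1
    have g5 := (norm_fst_le z).trans_lt g4
    have g6 := (norm_snd_le z).trans_lt g4
    refine ⟨⟨(Complex.abs_re_le_norm _).trans_lt g5, (Complex.abs_im_le_norm _).trans_lt g5,
      (Complex.abs_re_le_norm _).trans_lt g6, (Complex.abs_im_le_norm _).trans_lt g6⟩, ?_, g2⟩
    show z.1.im < 0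
    linarith
  have hax : ‖ax ρ‖ = ρ := by
    unfold ax
    rw [Prod.norm_def]
    simp only [norm_neg, norm_mul, norm_I, mul_one, norm_real, Real.norm_of_nonneg hρ.le, max_self]
  obtain ⟨g, -⟩ := H983.wall_quad (θ := θ) (p := 0) (b := ζ) (z := ax ρ) (H := H) (X := X) (ρ := ρ)
    (om := 1) (om0 := om) hX hρ one_pos le_rfl hom hom1 h1 h2 (by rw [dist_zero_right]; exact h3)
    (by simp [ax]) (by simp [ax]) (by rw [dist_zero_right, hax]; nlinarith) (hd.mono hsub)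
    (fun y hy => hs y (hsub hy))
  rw [one_mul] at g
  have g1 : om * e ≤ 243 * X ^ 2 * (H - |(θ (ax ρ)).im|) :=
    (mul_le_mul_of_nonneg_left (by linarith) hom.le).trans g
  have g2 : om * e / (243 * X ^ 2) ≤ H - |(θ (ax ρ)).im| := by
    rw [div_le_iff₀ (by positivity)]
    linarith
  linarith

/-- the position in straight coordinates -/
theorem diff_th (W : A5.W5 Λ H F q b m Ψ Mj Mk B A P c k K y₀ u₀ σ s al p th J) :
    ∃ d > 0, ∃ ρ₀ > 0, ∀ u ∈ A, |u - u₀| < d → ∀ y : ℝ, |y - y₀| < d → ∀ ρ : ℝ, 0 < ρ → ρ ≤ ρ₀ →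
      DifferentiableOn ℂ (th ∘ Sm P Ψ y u ρ) (Bx 1 ∩ Qu) ∧
      ∀ z ∈ Bx 1 ∩ Qu, |((th ∘ Sm P Ψ y u ρ) z).im| < H := by
  obtain ⟨d, hd, ρ₀, hρ₀, h⟩ := Sm_mem W.rhk W.Uj W.Uk W.bm (W.regk 1 one_pos) (γ := 1) one_pos
  refine ⟨d, hd, ρ₀, hρ₀, fun u hu hud y hyd ρ hρ hρρ => ?_⟩
  obtain ⟨h1, -, h3⟩ := h u hu hud y hyd ρ hρ hρρ
  have hD : ∀ z ∈ Bx 1 ∩ Qu, Sm P Ψ y u ρ z ∈ A5.Dm Mj Mk := by
    rintro z ⟨hz, hz1, hz0⟩
    refine ⟨h3 z ⟨hz, hz1, hz0⟩, ?_⟩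
    show (Sm P Ψ y u ρ z).2 ≠ 0
    intro h0
    have h4 := (h1 z hz hz0).2
    rw [h0, zero_im] at h4
    have : 0 < ρ * z.2.im := mul_pos hρ hz0
    linarith
  refine ⟨fun z hz => ?_, fun z hz => W.mem _ (hD z hz)⟩
  have h5 : DifferentiableAt ℂ th (Sm P Ψ y u ρ z) :=
    (W.dth _ (hD z hz)).differentiableAt ((isOpen_Dm W).mem_nhds (hD z hz))
  exact (DifferentiableAt.comp z h5 (h1 z hz.1 hz.2.2).1).differentiableWithinAt

/-- **row NEST-Q** : nested points in straight coordinates -/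
theorem nq (W : A5.W5 Λ H F q b m Ψ Mj Mk B A P c k K y₀ u₀ σ s al p th J) {C c₁ : ℝ}
    (hC : 0 < C) (hc : 0 < c₁) :
    ∃ X om e d τ : ℝ, 1 ≤ X ∧ 0 < om ∧ om ≤ 1 ∧ 0 < e ∧ 0 < d ∧ 0 < τ ∧ τ ≤ 1 ∧
      ∀ u ∈ A, |u - u₀| < d → ∀ y : ℝ, |y - y₀| < d → ∀ h : ℝ, A5.Nst H b F P th C c₁ h y u →
      ∀ S t : ℝ, 0 < S → S ≤ τ → 0 < t → t ≤ τ * S → t ≤ τ * h →
      Md H F (th ∘ Sm P Ψ y u S) X om e (t / S) ∧ |(th (zp P Ψ y u t)).im| ≤ H - e := by
  obtain ⟨κ, S₀, hκ, hκ4, hS₀, hball⟩ := ballD W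
  obtain ⟨T, hT⟩ := W.Uj.bd
  obtain ⟨ρ₁, hρ₁, hcmp⟩ := W.Uj.cmp 1 one_pos 1 one_pos
  obtain ⟨d, hd, ρ₀, hρ₀, hSm⟩ := diff_th W
  have hH : 0 < H := W.crv.cv.b0
  set C₁ : ℝ := max C 1 with hC₁
  have hC1 : 1 ≤ C₁ := le_max_right _ _
  have hCC : C ≤ C₁ := le_max_left _ _
  have hC0 : 0 < C₁ := by linarith
  set e₂ : ℝ := 3 * (c₁ * H) / (256 * C₁ ^ 7) / 3 with he₂
  have he₂0 : 0 < e₂ := by positivity
  obtain ⟨M, hM, hMb⟩ := dF_bd W.crv.gro he₂0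
  have hM0 : 0 < M := by linarith
  have hT1 : ∀ u ∈ A, |c u| ≤ |T| ∧ |k u| ≤ |T| := fun u hu =>
    ⟨(hT u hu).1.trans (le_abs_self T), (hT u hu).2.trans (le_abs_self T)⟩
  obtain ⟨κ₂, hκ₂, k1, k2, k3⟩ : ∃ κ₂ : ℝ, 0 < κ₂ ∧ κ₂ ≤ κ / 16 ∧ κ₂ * (16 * M) ≤ κ * c₁ ∧
      κ₂ * (4 * (|T| + 2)) ≤ 1 := by
    have a1 : 0 < 16 * M := by positivity
    have a2 : 0 < 4 * (|T| + 2) := by positivity
    refine ⟨min (κ / 16) (min (κ * c₁ / (16 * M)) (1 / (4 * (|T| + 2)))),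
      lt_min (by positivity) (lt_min (by positivity) (by positivity)), min_le_left _ _, ?_, ?_⟩
    · rw [← le_div_iff₀ a1]
      exact (min_le_right _ _).trans (min_le_left _ _)
    · rw [← le_div_iff₀ a2]
      exact (min_le_right _ _).trans (min_le_right _ _)
  have hom0 : 0 < κ₂ / C₁ := by positivity
  have hom1 : κ₂ / C₁ ≤ 1 := (div_le_self hκ₂.le hC1).trans (by linarith)
  have hX1 : 1 ≤ 4 * C₁ := by linarith
  obtain ⟨τ, hτ0, t1, t2, t3, t4, t5, t6⟩ : ∃ τ : ℝ, 0 < τ ∧ 16 * C₁ ^ 3 * τ ≤ 1 ∧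
      10 * (4 * C₁) * τ ≤ 1 ∧ τ ≤ ρ₀ ∧ τ ≤ S₀ ∧ τ ≤ 1 ∧ τ ≤ ρ₁ := by
    have a1 : 0 < 16 * C₁ ^ 3 := by positivity
    have a2 : 0 < 10 * (4 * C₁) := by positivity
    refine ⟨min (1 / (16 * C₁ ^ 3)) (min (1 / (10 * (4 * C₁))) (min ρ₀ (min S₀ (min 1 ρ₁)))),
      lt_min (by positivity) (lt_min (by positivity) (lt_min hρ₀ (lt_min hS₀
        (lt_min one_pos hρ₁)))), ?_, ?_, ?_, ?_, ?_, ?_⟩
    · rw [mul_comm, ← le_div_iff₀ a1]; exact min_le_left _ _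
    · rw [mul_comm, ← le_div_iff₀ a2]; exact (min_le_right _ _).trans (min_le_left _ _)
    · exact (min_le_right _ _).trans ((min_le_right _ _).trans (min_le_left _ _))
    · exact (min_le_right _ _).trans ((min_le_right _ _).trans ((min_le_right _ _).trans
        (min_le_left _ _)))
    · exact (min_le_right _ _).trans ((min_le_right _ _).trans ((min_le_right _ _).trans
        ((min_le_right _ _).trans (min_le_left _ _))))
    · exact (min_le_right _ _).trans ((min_le_right _ _).trans ((min_le_right _ _).trans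
        ((min_le_right _ _).trans (min_le_right _ _))))
  set e₃ : ℝ := κ₂ / C₁ * e₂ / (243 * (4 * C₁) ^ 2) with he₃
  have he₃0 : 0 < e₃ := by positivity
  refine ⟨4 * C₁, κ₂ / C₁, min e₂ (min (c₁ / 2) e₃), d, τ, hX1, hom0, hom1,
    lt_min he₂0 (lt_min (by positivity) he₃0), hd, hτ0, t5, ?_⟩
  intro u hu hud y hyd h hN S t hS hSτ ht htS hth
  have hh := hN.h0
  have h16 := arith hC1 ht hh t1 hth
  have hS16 := arith hC1 ht hS t1 htS
  have hCtS : C₁ * t ≤ S := by linarith [hS16.2.1, mul_pos hC0 ht]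
  obtain ⟨y', S', hS'0, n1, n2, n3, n4, hB, hmid⟩ := step1 W hC hc hC1 hCC hκ hball hu hN ht h16
    (by linarith)
  have hrr : 0 < κ * S' / 2 := by positivity
  have hsub : ball (A5.vp P y' u S') (κ * S' / 2) ⊆ ball (A5.vp P y' u S') (κ * S') :=
    ball_subset_ball (by linarith)
  have hη : 0 < κ₂ * S' := by positivity
  -- the point `β`
  set β : ℂ × ℂ := ((y' : ℂ) + (((P u).im - S' : ℝ) : ℂ) * I,
    (u : ℂ) + ((κ₂ * S' : ℝ) : ℂ) * I) with hβ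
  have hβz : dist β (A5.vp P y' u S') ≤ κ₂ * S' := by
    rw [dist_eq_norm, Prod.norm_def]
    apply max_le
    · show ‖(y' : ℂ) + (((P u).im - S' : ℝ) : ℂ) * I - ((y' : ℂ) + (((P u).im - S' : ℝ) : ℂ) * I)‖ ≤ _
      rw [sub_self, norm_zero]
      exact hη.le
    · show ‖(u : ℂ) + ((κ₂ * S' : ℝ) : ℂ) * I - (u : ℂ)‖ ≤ _
      rw [add_sub_cancel_left, norm_mul, norm_I, mul_one, norm_real, Real.norm_of_nonneg hη.le]
  have hκS : κ₂ * S' ≤ κ * S' / 16 := by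
    have := mul_le_mul_of_nonneg_right k1 hS'0.le
    linarith
  have hκS0 : 0 < κ * S' := by positivity
  have hβ1 : β ∈ ball (A5.vp P y' u S') (κ * S' / 2) := by
    rw [mem_ball]; linarith
  have f1 : |(th β).im| ≤ H - e₂ := hmid β hβ1
  have f2 : c₁ / 2 ≤ ‖deriv F (th β)‖ := by
    refine step2 (th := th) W.crv.cv (z₀ := A5.vp P y' u S') (r := κ * S' / 2) (M := M)
      (δ := κ₂ * S') hrr hM0 ((W.dth.mono hB).mono hsub) (fun z hz => W.mem _ (hB (hsub hz)))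
      (fun z hz => hMb _ (hmid z hz)) n4 (by linarith) ?_ hβz
    have : κ₂ * (16 * M) * S' ≤ κ * c₁ * S' := mul_le_mul_of_nonneg_right k2 hS'0.le
    linarith
  have hρ1 : κ₂ * S' < ρ₁ := by
    have h1 : κ * S' / 16 ≤ 1 / 4 * S' / 16 := by
      have := mul_le_mul_of_nonneg_right hκ4 hS'0.le
      linarith
    linarith
  obtain ⟨ζ, z1, z2, z3, z4⟩ := step3 (hcmp u hu) (hT1 u hu) hS hS'0 hκ₂ k3 hρ1 hC1 ht n1 n2 n3
    (y := y)
  have hSρ : S ≤ ρ₀ := hSτ.trans t3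
  obtain ⟨dθ, sθ⟩ := hSm u hu hud y hyd S hS hSρ
  have hρt : 0 < t / S := by positivity
  have hρ2 : 10 * (4 * C₁) * (t / S) ≤ 1 := by
    have : t / S ≤ τ := by rw [div_le_iff₀ hS]; exact htS
    exact (mul_le_mul_of_nonneg_left this (by positivity)).trans t2
  have f1' : |((th ∘ Sm P Ψ y u S) ζ).im| ≤ H - e₂ := by
    show |(th (Sm P Ψ y u S ζ)).im| ≤ H - e₂
    rw [z1]; exact f1
  have f3 := step4 (H := H) hX1 hom0 hom1 hρt hρ2 dθ sθ z2 z3 z4 f1'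
  have f4 : (th ∘ Sm P Ψ y u S) (ax (t / S)) = th (zp P Ψ y u t) := by
    show th (Sm P Ψ y u S (ax (t / S))) = _
    rw [zp_eq P Ψ y u t hS.ne']
  rw [f4] at f3
  constructor
  · refine ⟨ζ, z2, z3, z4, ?_, ?_⟩
    · exact f1'.trans (by linarith [min_le_left e₂ (min (c₁ / 2) e₃)])
    · show _ ≤ ‖deriv F (th (Sm P Ψ y u S ζ))‖
      rw [z1]
      exact ((min_le_right _ _).trans (min_le_left _ _)).trans f2
  · refine f3.trans ?_
    have : min e₂ (min (c₁ / 2) e₃) ≤ e₃ := (min_le_right _ _).trans (min_le_right _ _)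
    linarith

end world

end Vale.Agent.P097.H830.NQ
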