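import Mathlib
import Vale.Agent.P097.H845.LeafB
import Vale.Agent.P097.H100.Ent
import Vale.Agent.P097.H407.Hol

/-!
# P097 / case [c], case (T): the slow world is impossible, on any convex open domain

`D` is any convex open set of `(κ, w)` whose projection to `κ` is the whole plane (with a section on
which the limit has sublinear growth), `T` any open subset of `D` which meets `{Im κ = 0}`. Absence of
zeros of `m n` on `{Im κ < 0}` and touching at `{Im κ = 0}` are only needed in `T`.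
-/

set_option linter.all false

open Complex Metric Set Filter Topology

namespace Vale.Agent.P097.H830.T9D

open Vale.Agent.P097.H100 Vale.Agent.P097.H845

/-- a holomorphic function near a point of `{Im κ = 0}` which vanishes on `{Im κ = 0}` vanishes -/
theorem zero_near {T : Set (ℂ × ℂ)} (hT : IsOpen T) {G : ℂ × ℂ → ℂ} (hG : DifferentiableOn ℂ G T)
    {z0 : ℂ × ℂ} (hz0 : z0 ∈ T) (hi : z0.1.im = 0) (h0 : ∀ z ∈ T, z.1.im = 0 → G z = 0) :
    ∀ᶠ z in 𝓝 z0, G z = 0 := by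
  obtain ⟨r, hr, hrT⟩ := Metric.isOpen_iff.1 hT z0 hz0
  filter_upwards [ball_mem_nhds z0 hr] with z hz
  have hz1 : z.1 ∈ ball z0.1 r := by
    rw [mem_ball, Prod.dist_eq] at hz; exact lt_of_le_of_lt (le_max_left _ _) hz
  have hz2 : z.2 ∈ ball z0.2 r := by
    rw [mem_ball, Prod.dist_eq] at hz; exact lt_of_le_of_lt (le_max_right _ _) hz
  have hin : ∀ k ∈ ball z0.1 r, (k, z.2) ∈ T := by
    intro k hk
    apply hrT
    rw [mem_ball, Prod.dist_eq]
    exact max_lt hk hz2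
  have hd : DifferentiableOn ℂ (fun k => G (k, z.2)) (ball z0.1 r) := by
    refine hG.comp (f := fun k : ℂ => (k, z.2)) ?_ hin
    exact (differentiable_id.prodMk (differentiable_const _)).differentiableOn
  have hfr : ∃ᶠ k in 𝓝[≠] z0.1, G (k, z.2) = 0 := by
    have ht : Tendsto (fun n : ℕ => z0.1 + (((r / 2) * ((1 : ℝ) / ((n : ℝ) + 1)) : ℝ) : ℂ)) atTop
        (𝓝[≠] z0.1) := by
      refine tendsto_nhdsWithin_iff.2 ⟨?_, Eventually.of_forall fun n => ?_⟩
      · have h1 : Tendsto (fun n : ℕ => (r / 2) * ((1 : ℝ) / ((n : ℝ) + 1))) atTop (𝓝 0) := by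
          have := (tendsto_one_div_add_atTop_nhds_zero_nat (𝕜 := ℝ)).const_mul (r / 2)
          simpa using this
        have h2 := (Complex.continuous_ofReal.tendsto 0).comp h1
        have h3 := h2.const_add z0.1
        simpa [Function.comp_def] using h3
      · have h3 : (r / 2) * ((1 : ℝ) / ((n : ℝ) + 1)) ≠ 0 := by positivity
        intro h
        have h4 : (((r / 2) * ((1 : ℝ) / ((n : ℝ) + 1)) : ℝ) : ℂ) = 0 := by
          have h5 : z0.1 + (((r / 2) * ((1 : ℝ) / ((n : ℝ) + 1)) : ℝ) : ℂ) = z0.1 := h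
          exact left_eq_add.mp h5.symm
        exact h3 (Complex.ofReal_eq_zero.mp h4)
    refine ht.frequently (Frequently.of_forall fun n => ?_)
    have hk : z0.1 + (((r / 2) * ((1 : ℝ) / ((n : ℝ) + 1)) : ℝ) : ℂ) ∈ ball z0.1 r := by
      rw [mem_ball, dist_eq_norm, add_sub_cancel_left, norm_real, Real.norm_eq_abs,
        abs_of_nonneg (by positivity)]
      have h1 : (1 : ℝ) / ((n : ℝ) + 1) ≤ 1 := by
        rw [div_le_one (by positivity)]
        linarith [(Nat.cast_nonneg n : (0 : ℝ) ≤ n)]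
      nlinarith
    refine h0 _ (hin _ hk) ?_
    simp only [add_im, ofReal_im, add_zero]
    exact hi
  have h1 := (hd.analyticOnNhd isOpen_ball).eqOn_zero_of_preconnected_of_frequently_eq_zero
    (convex_ball z0.1 r).isPreconnected (mem_ball_self hr) hfr
  exact h1 hz1

/-- identity theorem -/
theorem zero_of_near {D : Set (ℂ × ℂ)} (hD : IsOpen D) (hc : Convex ℝ D) {G : ℂ × ℂ → ℂ}
    (hG : DifferentiableOn ℂ G D) {z0 : ℂ × ℂ} (hz0 : z0 ∈ D) (h : ∀ᶠ z in 𝓝 z0, G z = 0) :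
    ∀ z ∈ D, G z = 0 := fun _ hz =>
  (Hol.analyticOnNhd_of_differentiableOn hD hG).eqOn_zero_of_preconnected_of_eventuallyEq_zero
    hc.isPreconnected hz0 h hz

/-- a holomorphic function on a convex open set with zero derivative in `w` and a section of
sublinear growth over the whole `κ` plane is constant -/
theorem const_of_section {D : Set (ℂ × ℂ)} (hD : IsOpen D) (hc : Convex ℝ D) {X : ℂ × ℂ → ℂ}
    (hX : DifferentiableOn ℂ X D) (h0 : ∀ z ∈ D, fderiv ℂ X z (0, 1) = 0) {θ A : ℝ} (hθ : θ < 1)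
    (hg : ∀ k : ℂ, ∃ w, (k, w) ∈ D ∧ ‖X (k, w)‖ ≤ A * (1 + ‖k‖) ^ θ) : ∃ y, ∀ z ∈ D, X z = y := by
  choose W hW hWb using hg
  -- independence of `w`
  have hind : ∀ k w w' : ℂ, (k, w) ∈ D → (k, w') ∈ D → X (k, w) = X (k, w') := by
    intro k w w' hw hw'
    have ho : IsOpen {v : ℂ | (k, v) ∈ D} :=
      hD.preimage (f := fun v : ℂ => (k, v)) (by fun_prop)
    have hcv : Convex ℝ {v : ℂ | (k, v) ∈ D} := by
      intro a ha b hb p q hp hq hpq
      have h1 := hc ha hb hp hq hpq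
      have h2 : p • (k, a) + q • (k, b) = (k, p • a + q • b) := by
        ext1
        · show p • k + q • k = k
          rw [← add_smul, hpq, one_smul]
        · rfl
      rw [h2] at h1
      exact h1
    have hder : ∀ v ∈ {v : ℂ | (k, v) ∈ D}, HasDerivAt (fun v => X (k, v)) 0 v := by
      intro v hv
      have h1 : HasFDerivAt X (fderiv ℂ X (k, v)) (k, v) :=
        ((hX _ hv).differentiableAt (hD.mem_nhds hv)).hasFDerivAt
      have h2 : HasDerivAt (fun v : ℂ => ((k, v) : ℂ × ℂ)) (0, 1) v :=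
        (hasDerivAt_const v k).prodMk (hasDerivAt_id v)
      have h3 := h1.comp_hasDerivAt v h2
      rw [h0 _ hv] at h3
      exact h3
    exact ho.is_const_of_deriv_eq_zero hcv.isPreconnected
      (fun v hv => (hder v hv).differentiableAt.differentiableWithinAt)
      (fun v hv => (hder v hv).deriv) hw hw'
  -- the entire function
  have hy : Differentiable ℂ (fun k => X (k, W k)) := by
    intro k₁
    have h1 : HasFDerivAt X (fderiv ℂ X (k₁, W k₁)) (k₁, W k₁) :=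
      ((hX _ (hW k₁)).differentiableAt (hD.mem_nhds (hW k₁))).hasFDerivAt
    have h2 : HasDerivAt (fun q : ℂ => ((q, W k₁) : ℂ × ℂ)) (1, 0) k₁ :=
      (hasDerivAt_id k₁).prodMk (hasDerivAt_const k₁ _)
    have h3 : DifferentiableAt ℂ (fun q => X (q, W k₁)) k₁ :=
      (h1.comp_hasDerivAt k₁ h2).differentiableAt
    refine h3.congr_of_eventuallyEq ?_
    have ho : IsOpen {q : ℂ | (q, W k₁) ∈ D} :=
      hD.preimage (f := fun q : ℂ => (q, W k₁)) (by fun_prop)
    filter_upwards [ho.mem_nhds (hW k₁)] with q hq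
    exact hind q _ _ (hW q) hq
  obtain ⟨c, hcc⟩ := entire_sublinear hy (A := A) hθ hWb
  refine ⟨c, ?_⟩
  rintro ⟨k, w⟩ hz
  rw [hind k w (W k) hz (hW k)]
  exact hcc k

/-- **the slow world is impossible** (624 (9), 845 `tan_slow`), on any convex open domain -/
theorem tan_slow_conv {ι : Type*} {l : Filter ι} [NeBot l] {D T : Set (ℂ × ℂ)} (hD : IsOpen D)
    (hc : Convex ℝ D) (hT : IsOpen T) (hTD : T ⊆ D) {zs : ℂ × ℂ} (hzs : zs ∈ T) (hzi : zs.1.im = 0)
    {X m χ : ι → ℂ × ℂ → ℂ} {X' M' χ0 : ℂ × ℂ → ℂ} {cX cm ε J : ι → ℂ}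
    (hε : ∀ᶠ n in l, ε n ≠ 0) (hJ : ∀ᶠ n in l, J n ≠ 0)
    (hd : ∀ K ⊆ T, IsCompact K → ∀ᶠ n in l, ∀ z ∈ K, DifferentiableAt ℂ (X n) z ∧
      DifferentiableAt ℂ (m n) z ∧ jac (X n) (m n) z = J n * χ n z)
    (hχl : TendstoLocallyUniformlyOn χ χ0 l T) (hχc : ContinuousOn χ0 T)
    (hχ0 : ∀ z ∈ T, χ0 z ≠ 0)
    (hX' : DifferentiableOn ℂ X' D) (hM' : DifferentiableOn ℂ M' D)
    (hXl : TendstoLocallyUniformlyOn (fun n z => (X n z - cX n) / ε n) X' l T)
    (hml : TendstoLocallyUniformlyOn (fun n z => (m n z - cm n) / ε n) M' l T)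
    (hnc : ∃ z ∈ D, fderiv ℂ X' z ≠ 0 ∨ fderiv ℂ M' z ≠ 0)
    (hfree : ∀ K ⊆ T, IsCompact K → (∀ z ∈ K, z.1.im < 0) → ∀ᶠ n in l, ∀ z ∈ K, m n z ≠ 0)
    (htouch : ∀ z ∈ T, z.1.im = 0 → ∀ δ > 0, ∀ᶠ n in l, ∃ z' ∈ ball z δ, m n z' = 0)
    {θ A : ℝ} (hθ : θ < 1)
    (hg : ∀ k : ℂ, ∃ w, (k, w) ∈ D ∧ ‖X' (k, w)‖ ≤ A * (1 + ‖k‖) ^ θ) : False := by
  classical
  -- pass to an ultrafilter
  obtain ⟨𝒰, h𝒰⟩ : ∃ 𝒰 : Ultrafilter ι, (𝒰 : Filter ι) ≤ l := ⟨Ultrafilter.of l, Ultrafilter.of_le l⟩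
  have mono : ∀ {f : ι → ℂ × ℂ → ℂ} {g : ℂ × ℂ → ℂ}, TendstoLocallyUniformlyOn f g l T →
      TendstoLocallyUniformlyOn f g 𝒰 T := by
    intro f g h u hu x hx
    obtain ⟨t, ht, hev⟩ := h u hu x hx
    exact ⟨t, ht, hev.filter_mono h𝒰⟩
  have hMT := hM'.mono hTD
  -- step 1: `cm n / ε n` is bounded along the ultrafilter
  have hbdd : ∃ R : ℝ, ∀ᶠ n in (𝒰 : Filter ι), ‖cm n / ε n‖ ≤ R := by
    by_contra hcon
    push Not at hcon
    have hcM : ContinuousAt M' zs :=
      (hMT _ hzs).continuousWithinAt.continuousAt (hT.mem_nhds hzs)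
    have hj := joint_tendsto hT (mono hml) hzs hcM
    obtain ⟨pa, hpa, pb, hpb, hp⟩ := Filter.eventually_prod_iff.mp
      ((Metric.tendsto_nhds.mp hj) 1 one_pos)
    obtain ⟨δ, hδ, hδb⟩ := Metric.mem_nhds_iff.mp hpb
    have hR := hcon (‖M' zs‖ + 1)
    have hR' : ∀ᶠ n in (𝒰 : Filter ι), ‖M' zs‖ + 1 < ‖cm n / ε n‖ := hR
    obtain ⟨n, h1, h2, h3, h4⟩ := (hpa.and ((hR').and (((htouch _ hzs hzi δ hδ).filter_mono
      h𝒰).and (hε.filter_mono h𝒰)))).exists
    obtain ⟨z', hz', hm0⟩ := h3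
    have h5 := hp h1 (hδb hz')
    simp only at h5
    rw [hm0, zero_sub, dist_eq_norm] at h5
    have h6 : ‖cm n / ε n‖ ≤ ‖-cm n / ε n - M' zs‖ + ‖M' zs‖ := by
      have := norm_add_le (-cm n / ε n - M' zs) (M' zs)
      rw [sub_add_cancel, neg_div, norm_neg] at this
      rwa [neg_div]
    linarith
  obtain ⟨R, hR⟩ := hbdd
  -- limit of `cm n / ε n`
  obtain ⟨c, -, hcl⟩ : ∃ c ∈ closedBall (0 : ℂ) R,
      Tendsto (fun n => cm n / ε n) 𝒰 (𝓝 c) := by
    have h1 : (𝒰.map (fun n => cm n / ε n) : Filter ℂ) ≤ 𝓟 (closedBall 0 R) := by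
      rw [le_principal_iff]
      have h2 : ∀ᶠ n in (𝒰 : Filter ι), cm n / ε n ∈ closedBall (0 : ℂ) R := by
        filter_upwards [hR] with n hn
        rw [mem_closedBall, dist_zero_right]; exact hn
      exact h2
    obtain ⟨c, hc1, hc2⟩ := (isCompact_closedBall (0 : ℂ) R).ultrafilter_le_nhds
      (𝒰.map (fun n => cm n / ε n)) h1
    exact ⟨c, hc1, hc2⟩
  -- step 2: `c + M' = 0`
  have hM0 : ∀ z ∈ D, c + M' z = 0 := by
    refine zero_of_near hD hc ((differentiableOn_const c).add hM') (hTD hzs) ?_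
    refine zero_near hT ((differentiableOn_const c).add hMT) hzs hzi ?_
    intro z hz hz1
    have hcM : ContinuousAt M' z :=
      (hMT _ hz).continuousWithinAt.continuousAt (hT.mem_nhds hz)
    have hj := joint_tendsto hT (mono hml) hz hcM
    have hj2 : Tendsto (fun p : ι × (ℂ × ℂ) => cm p.1 / ε p.1 + (m p.1 p.2 - cm p.1) / ε p.1)
        ((𝒰 : Filter ι) ×ˢ 𝓝 z) (𝓝 (c + M' z)) := (hcl.comp tendsto_fst).add hj
    by_contra hne
    have hpos : 0 < ‖c + M' z‖ := norm_pos_iff.mpr hne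
    obtain ⟨pa, hpa, pb, hpb, hp⟩ := Filter.eventually_prod_iff.mp
      ((Metric.tendsto_nhds.mp hj2) _ hpos)
    obtain ⟨δ, hδ, hδb⟩ := Metric.mem_nhds_iff.mp hpb
    obtain ⟨n, h1, h2, h3⟩ := (hpa.and (((htouch _ hz hz1 δ hδ).filter_mono
      h𝒰).and (hε.filter_mono h𝒰))).exists
    obtain ⟨z', hz', hm0⟩ := h2
    have h5 := hp h1 (hδb hz')
    simp only at h5
    rw [hm0, zero_sub, neg_div, add_neg_cancel, dist_eq_norm, zero_sub, norm_neg] at h5
    exact lt_irrefl _ h5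
  have hM1 : ∀ z ∈ D, fderiv ℂ M' z = 0 := by
    intro z hz
    have h1 : M' =ᶠ[𝓝 z] fun _ => -c := by
      filter_upwards [hD.mem_nhds hz] with y hy
      have := hM0 y hy
      linear_combination this
    rw [h1.fderiv_eq]
    exact fderiv_const_apply _
  obtain ⟨z1, hz1, hz1'⟩ := hnc
  have hX1 : fderiv ℂ X' z1 ≠ 0 := hz1'.resolve_right (fun h => h (hM1 z1 hz1))
  -- step 3: on `{Im κ = 0}` the derivative in `w` vanishes (leaf lemma)
  have hsec : ∀ z ∈ T, z.1.im = 0 → fderiv ℂ X' z (0, 1) = 0 := by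
    intro z0 hz0 h1
    by_contra htr
    obtain ⟨δ, hδ, hδW⟩ := Metric.nhds_basis_closedBall.mem_iff.mp (hT.mem_nhds hz0)
    have hdK := hd (closedBall z0 δ) hδW (isCompact_closedBall _ _)
    have hball : ball z0 δ ⊆ T := fun z hz => hδW (ball_subset_closedBall hz)
    refine leafK (l := l) (Ω := ball z0 δ) isOpen_ball (z0 := z0) (mem_ball_self hδ) h1
      (X := fun n z => (X n z - cX n) / ε n) (m := m) (χ := χ) (X0 := X') (χ0 := χ0)
      (J := fun n => J n / ε n) ?_ ?_ (hX'.mono (hball.trans hTD)) (hXl.mono hball) ?_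
      (hχl.mono hball)
      ((hχc z0 hz0).continuousAt (hT.mem_nhds hz0)) (hχ0 z0 hz0) ?_ htr ?_ ?_
    · filter_upwards [hdK] with n hn z hz
      have e1 := (hn z (ball_subset_closedBall hz)).1.sub_const (cX n)
      have e2 : DifferentiableAt ℂ (fun y => (X n y - cX n) * (ε n)⁻¹) z := e1.mul_const _
      exact (e2.congr_of_eventuallyEq (Eventually.of_forall fun y => by
        simp only [div_eq_mul_inv])).differentiableWithinAt
    · filter_upwards [hdK] with n hn z hz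
      exact ((hn z (ball_subset_closedBall hz)).2.1).differentiableWithinAt
    · filter_upwards [hJ, hε] with n e1 e2
      exact div_ne_zero e1 e2
    · filter_upwards [hdK] with n hn z hz
      obtain ⟨e1, e2, e3⟩ := hn z (ball_subset_closedBall hz)
      have e4 : fderiv ℂ (fun z => (X n z - cX n) / ε n) z = (ε n)⁻¹ • fderiv ℂ (X n) z := by
        have h := (e1.hasFDerivAt.sub_const (cX n)).const_mul ((ε n)⁻¹)
        have h' : (fun z => (X n z - cX n) / ε n) = fun z => (ε n)⁻¹ * (X n z - cX n) := by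
          funext y; rw [div_eq_inv_mul]
        rw [h', h.fderiv]
      unfold jac at e3 ⊢
      rw [e4]
      simp only [ContinuousLinearMap.smul_apply, smul_eq_mul]
      rw [show J n / ε n * χ n z = (ε n)⁻¹ * (J n * χ n z) by rw [div_eq_inv_mul]; ring, ← e3]
      ring
    · intro K hK hKc hKim
      exact hfree K (hK.trans hball) hKc hKim
    · intro z hz him ε' hε'
      exact htouch z (hball hz) him ε' hε'
  -- step 4: everywhere
  have hall : ∀ z ∈ D, fderiv ℂ X' z (0, 1) = 0 := by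
    have hG := Hol.differentiableOn_fderiv_apply hD hX' ((0 : ℂ), (1 : ℂ))
    exact zero_of_near hD hc hG (hTD hzs) (zero_near hT (hG.mono hTD) hzs hzi hsec)
  obtain ⟨y, hy⟩ := const_of_section hD hc hX' hall hθ hg
  have h8 : X' =ᶠ[𝓝 z1] fun _ => y := by
    filter_upwards [hD.mem_nhds hz1] with z hz
    exact hy z hz
  apply hX1
  rw [h8.fderiv_eq]
  exact fderiv_const_apply _

end Vale.Agent.P097.H830.T9D
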