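import Vale.Agent.P097.H536.Defs

/-! # P097 / TRIG-T7 (1): the expansion of the model Euler-Lagrange expression (helper830) -/

set_option linter.all false

open Complex Metric Filter Topology Set
open scoped ComplexConjugate

namespace Vale.Agent.P097.H830.W

open Vale.Agent.P097.H536

/-- Taylor expansion of order two with holomorphic remainder -/
lemma taylor3 {f : ℂ → ℂ} {ρ : ℝ} (hρ : 0 < ρ) (hf : DifferentiableOn ℂ f (ball 0 ρ)) :
    ∃ (a0 a1 a2 : ℂ) (r : ℂ → ℂ), DifferentiableOn ℂ r (ball 0 ρ) ∧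
      ∀ y, f y = a0 + a1 * y + a2 * y ^ 2 + y ^ 3 * r y := by
  have hn : ball (0 : ℂ) ρ ∈ 𝓝 (0 : ℂ) := ball_mem_nhds _ hρ
  have h1 := (Complex.differentiableOn_dslope (E := ℂ) (f := f) hn).2 hf
  have h2 := (Complex.differentiableOn_dslope (E := ℂ) (f := dslope f 0) hn).2 h1
  have h3 := (Complex.differentiableOn_dslope (E := ℂ) (f := dslope (dslope f 0) 0) hn).2 h2
  refine ⟨f 0, dslope f 0 0, dslope (dslope f 0) 0 0, dslope (dslope (dslope f 0) 0) 0, h3, ?_⟩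
  intro y
  have e1 := sub_smul_dslope f 0 y
  have e2 := sub_smul_dslope (dslope f 0) 0 y
  have e3 := sub_smul_dslope (dslope (dslope f 0) 0) 0 y
  simp only [smul_eq_mul, sub_zero] at e1 e2 e3
  linear_combination (-1 : ℂ) * e1 - y * e2 - y ^ 2 * e3

/-- coefficients of `(1 + y) ^ μ` -/
lemma binom3 (μ : ℂ) : ∃ r : ℂ → ℂ, DifferentiableOn ℂ r (ball 0 1) ∧
    ∀ y, (1 + y) ^ μ = 1 + μ * y + μ * (μ - 1) / 2 * y ^ 2 + y ^ 3 * r y := by
  have hs : ∀ y ∈ ball (0 : ℂ) 1, 1 + y ∈ slitPlane := by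
    intro y hy
    left
    have h1 : ‖y‖ < 1 := by simpa using hy
    have h2 := abs_re_le_norm y
    have h3 := neg_abs_le y.re
    simp
    linarith
  have hd : ∀ y ∈ ball (0 : ℂ) 1, HasDerivAt (fun y : ℂ => (1 + y) ^ μ) (μ * (1 + y) ^ (μ - 1)) y := by
    intro y hy
    have h0 : HasDerivAt (fun y : ℂ => 1 + y) 1 y := by simpa using (hasDerivAt_id y).const_add 1
    have := h0.cpow_const (c := μ) (hs y hy)
    simpa using this
  have hf : DifferentiableOn ℂ (fun y : ℂ => (1 + y) ^ μ) (ball 0 1) :=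
    fun y hy => (hd y hy).differentiableAt.differentiableWithinAt
  obtain ⟨a0, a1, a2, r, hr, he⟩ := taylor3 one_pos hf
  have hr' : DifferentiableOn ℂ (deriv r) (ball 0 1) := hr.deriv isOpen_ball
  have ha0 : a0 = 1 := by
    have := he 0
    simp at this
    exact this.symm
  -- derivative of the expansion
  have hder : ∀ y ∈ ball (0 : ℂ) 1, μ * (1 + y) ^ (μ - 1) =
      a1 + 2 * a2 * y + (3 * y ^ 2 * r y + y ^ 3 * deriv r y) := by
    intro y hy
    have hry : HasDerivAt r (deriv r y) y :=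
      ((hr y hy).differentiableAt (isOpen_ball.mem_nhds hy)).hasDerivAt
    have h1 : HasDerivAt (fun y : ℂ => a0 + a1 * y + a2 * y ^ 2 + y ^ 3 * r y)
        (a1 + 2 * a2 * y + (3 * y ^ 2 * r y + y ^ 3 * deriv r y)) y := by
      have e1 : HasDerivAt (fun y : ℂ => a0 + a1 * y) a1 y := by
        simpa using ((hasDerivAt_id y).const_mul a1).const_add a0
      have e2 : HasDerivAt (fun y : ℂ => a2 * y ^ 2) (a2 * (2 * y)) y := by
        simpa using (hasDerivAt_pow 2 y).const_mul a2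
      have e3 : HasDerivAt (fun y : ℂ => y ^ 3 * r y) (3 * y ^ 2 * r y + y ^ 3 * deriv r y) y := by
        have := (hasDerivAt_pow 3 y).mul hry
        simp only [Nat.cast_ofNat, Nat.add_one_sub_one] at this
        exact this
      have e4 := (e1.add e2).add e3
      have e5 : a1 + a2 * (2 * y) + (3 * y ^ 2 * r y + y ^ 3 * deriv r y)
          = a1 + 2 * a2 * y + (3 * y ^ 2 * r y + y ^ 3 * deriv r y) := by ring
      rw [e5] at e4
      exact e4
    have h2 := hd y hy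
    have h3 : (fun y : ℂ => (1 + y) ^ μ) = (fun y : ℂ => a0 + a1 * y + a2 * y ^ 2 + y ^ 3 * r y) :=
      funext he
    rw [h3] at h2
    exact h2.unique h1
  -- the ODE
  have hode : ∀ y ∈ ball (0 : ℂ) 1, (a1 - μ) + y * ((2 * a2 + a1 - μ * a1) +
      y * (3 * r y + y * deriv r y + 2 * a2 + 3 * y * r y + y ^ 2 * deriv r y - μ * a2
        - μ * y * r y)) = 0 := by
    intro y hy
    have h1 : (1 + y) * (1 + y) ^ (μ - 1) = (1 + y) ^ μ := by
      have hne : (1 + y : ℂ) ≠ 0 := slitPlane_ne_zero (hs y hy)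
      rw [cpow_sub _ _ hne, cpow_one]
      field_simp
    have h2 := hder y hy
    have h3 := he y
    rw [ha0] at h3
    linear_combination (-(1 + y)) * h2 + μ * h1 + μ * h3
  have h0 : a1 = μ := by
    have := hode 0 (mem_ball_self one_pos)
    simp at this
    exact sub_eq_zero.1 this
  have h1 : ∀ y ∈ ball (0 : ℂ) 1, y ≠ 0 → (2 * a2 + a1 - μ * a1) +
      y * (3 * r y + y * deriv r y + 2 * a2 + 3 * y * r y + y ^ 2 * deriv r y - μ * a2
        - μ * y * r y) = 0 := by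
    intro y hy hy0
    have := hode y hy
    rw [h0, sub_self, zero_add] at this
    rw [h0]
    exact (mul_eq_zero.1 this).resolve_left hy0
  have h2 : 2 * a2 + a1 - μ * a1 = 0 := by
    have hc : ContinuousAt (fun y : ℂ => (2 * a2 + a1 - μ * a1) +
        y * (3 * r y + y * deriv r y + 2 * a2 + 3 * y * r y + y ^ 2 * deriv r y - μ * a2
        - μ * y * r y)) 0 := by
      have c1 : ContinuousAt r 0 := (hr.continuousOn.continuousAt (ball_mem_nhds _ one_pos))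
      have c2 : ContinuousAt (deriv r) 0 := (hr'.continuousOn.continuousAt (ball_mem_nhds _ one_pos))
      fun_prop
    have hlim : Tendsto (fun y : ℂ => (2 * a2 + a1 - μ * a1) +
        y * (3 * r y + y * deriv r y + 2 * a2 + 3 * y * r y + y ^ 2 * deriv r y - μ * a2
        - μ * y * r y)) (𝓝[≠] 0) (𝓝 (2 * a2 + a1 - μ * a1)) := by
      have := hc.tendsto.mono_left (nhdsWithin_le_nhds (s := {0}ᶜ))
      simpa using this
    have hz : Tendsto (fun y : ℂ => (2 * a2 + a1 - μ * a1) +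
        y * (3 * r y + y * deriv r y + 2 * a2 + 3 * y * r y + y ^ 2 * deriv r y - μ * a2
        - μ * y * r y)) (𝓝[≠] 0) (𝓝 0) := by
      refine Tendsto.congr' ?_ tendsto_const_nhds
      have hb : ball (0 : ℂ) 1 ∈ 𝓝[≠] (0 : ℂ) :=
        mem_nhdsWithin_of_mem_nhds (ball_mem_nhds _ one_pos)
      filter_upwards [hb, self_mem_nhdsWithin] with y hy hy0
      exact (h1 y hy hy0).symm
    exact tendsto_nhds_unique hlim hz
  refine ⟨r, hr, ?_⟩
  intro y
  have h3 := he y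
  have ha2 : a2 = μ * (μ - 1) / 2 := by
    rw [h0] at h2
    linear_combination (1 / 2 : ℂ) * h2
  rw [h3, ha0, h0, ha2]

/-- expansion of powers at one -/
lemma pow4 (n : ℕ) : ∃ s : ℂ → ℂ, Differentiable ℂ s ∧ ∀ η : ℂ,
    (1 + η) ^ n = 1 + n * η + n * (n - 1) / 2 * η ^ 2 + n * (n - 1) * (n - 2) / 6 * η ^ 3
      + η ^ 4 * s η := by
  induction n with
  | zero => exact ⟨fun _ => 0, by fun_prop, by intro η; simp⟩
  | succ n ih =>
    obtain ⟨s, hs, he⟩ := ih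
    refine ⟨fun η => n * (n - 1) * (n - 2) / 6 + (1 + η) * s η, by fun_prop, ?_⟩
    intro η
    rw [pow_succ, he]
    push_cast
    ring

lemma nf_exp (n : ℕ) (hn : 2 ≤ n) : ∃ s : ℂ → ℂ, Differentiable ℂ s ∧ ∀ η : ℂ,
    Nf n 1 (1 + η) = Nf n 1 1 - η ^ 2 / 2 - (n - 1) / 3 * η ^ 3 + η ^ 4 * s η := by
  obtain ⟨s1, hs1, h1⟩ := pow4 n
  obtain ⟨s2, hs2, h2⟩ := pow4 (n + 1)
  have hn0 : (n : ℂ) ≠ 0 := by
    have : n ≠ 0 := by omega
    exact_mod_cast this
  have hn1 : (n : ℂ) + 1 ≠ 0 := by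
    have : n + 1 ≠ 0 := by omega
    exact_mod_cast this
  refine ⟨fun η => s1 η / n - s2 η / (n + 1), by fun_prop, ?_⟩
  intro η
  unfold Nf
  rw [h1, h2]
  push_cast
  field_simp
  ring

lemma mu_ne (n : ℕ) : mu n ≠ 0 := by
  unfold mu
  have : ((n : ℂ) + 2) ≠ 0 := by
    have : n + 2 ≠ 0 := by omega
    exact_mod_cast this
  exact div_ne_zero (by norm_num) this

lemma mu_eq (n : ℕ) : ((n : ℂ) + 2) * mu n = 3 := by
  unfold mu
  have : ((n : ℂ) + 2) ≠ 0 := by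
    have : n + 2 ≠ 0 := by omega
    exact_mod_cast this
  field_simp

/-- the holomorphic expansion -/
lemma nu_hol (n : ℕ) (hn : 2 ≤ n) : ∃ κ : ℂ → ℂ, DifferentiableOn ℂ κ (ball 0 1) ∧
    ∀ y : ℂ, Nf n 1 ((1 + (1 + y) ^ mu n) / 2) =
      Nf n 1 1 - mu n ^ 2 / 8 * (y ^ 2 + y ^ 4 * κ y) := by
  obtain ⟨r, hr, hre⟩ := binom3 (mu n)
  obtain ⟨s, hs, hse⟩ := nf_exp n hn
  set μ := mu n with hμ
  have hμ0 : μ ≠ 0 := mu_ne n
  set A : ℂ := μ / 2 with hA
  set B : ℂ := μ * (μ - 1) / 4 with hB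
  have hy : DifferentiableOn ℂ (fun y : ℂ => y) (ball 0 1) := differentiableOn_id
  have hη : DifferentiableOn ℂ (fun y => A + B * y + y ^ 2 * (r y / 2)) (ball 0 1) := by fun_prop
  have hsη : DifferentiableOn ℂ (fun y => s (y * (A + B * y + y ^ 2 * (r y / 2)))) (ball 0 1) := by
    exact hs.comp_differentiableOn (hy.mul hη)
  refine ⟨fun y => -8 / μ ^ 2 * (-(1 / 2) * (B ^ 2 + A * r y + B * y * r y + y ^ 2 * (r y / 2) ^ 2)
    - (n - 1) / 3 * (3 * A ^ 2 * (B + y * (r y / 2)) + 3 * A * y * (B + y * (r y / 2)) ^ 2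
      + y ^ 2 * (B + y * (r y / 2)) ^ 3)
    + (A + B * y + y ^ 2 * (r y / 2)) ^ 4 * s (y * (A + B * y + y ^ 2 * (r y / 2)))), ?_, ?_⟩
  · fun_prop
  · intro y
    have e1 : (1 + (1 + y) ^ μ) / 2 = 1 + y * (A + B * y + y ^ 2 * (r y / 2)) := by
      rw [hre, hA, hB]; ring
    rw [e1, hse]
    have h3 : (n : ℂ) * μ = 3 - 2 * μ := by
      have := mu_eq n
      rw [← hμ] at this
      linear_combination this
    have key : ∀ S : ℂ, Nf n 1 1 - (y * (A + B * y + y ^ 2 * (r y / 2))) ^ 2 / 2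
        - (↑n - 1) / 3 * (y * (A + B * y + y ^ 2 * (r y / 2))) ^ 3
        + (y * (A + B * y + y ^ 2 * (r y / 2))) ^ 4 * S
        = Nf n 1 1 - (μ ^ 2 / 8 * y ^ 2 + y ^ 4 * (-1) * (-(1 / 2) * (B ^ 2 + A * r y + B * y * r y + y ^ 2 * (r y / 2) ^ 2)
    - (n - 1) / 3 * (3 * A ^ 2 * (B + y * (r y / 2)) + 3 * A * y * (B + y * (r y / 2)) ^ 2
      + y ^ 2 * (B + y * (r y / 2)) ^ 3)
    + (A + B * y + y ^ 2 * (r y / 2)) ^ 4 * S)) := by
      intro S
      have h4 : y ^ 3 * (A * B + (n - 1) / 3 * A ^ 3) = 0 := by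
        have : A * B + (n - 1) / 3 * A ^ 3 = 0 := by
          rw [hA, hB]
          linear_combination (μ ^ 2 / 24) * h3
        rw [this, mul_zero]
      rw [hA] at *
      linear_combination (-1 : ℂ) * h4
    rw [key]
    field_simp

/-- **nu lemma** -/
lemma nu_lemma (n : ℕ) (hn : 2 ≤ n) : ∃ (κ : ℂ → ℂ) (C : ℝ), 1 ≤ C ∧
    (∀ y : ℂ, ‖y‖ ≤ 1 / 2 → ‖κ y‖ ≤ C) ∧
    (∀ y y' : ℂ, ‖y‖ ≤ 1 / 2 → ‖y'‖ ≤ 1 / 2 → ‖κ y - κ y'‖ ≤ C * ‖y - y'‖) ∧
    ∀ y : ℂ, Nf n 1 ((1 + (1 + y) ^ mu n) / 2) =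
      Nf n 1 1 - mu n ^ 2 / 8 * (y ^ 2 + y ^ 4 * κ y) := by
  obtain ⟨κ, hκ, he⟩ := nu_hol n hn
  have hsub : closedBall (0 : ℂ) (1 / 2) ⊆ ball 0 1 := closedBall_subset_ball (by norm_num)
  have hκ' : DifferentiableOn ℂ (deriv κ) (ball 0 1) := hκ.deriv isOpen_ball
  obtain ⟨C1, hC1⟩ := (isCompact_closedBall (0 : ℂ) (1 / 2)).exists_bound_of_continuousOn
    (hκ.continuousOn.mono hsub)
  obtain ⟨C2, hC2⟩ := (isCompact_closedBall (0 : ℂ) (1 / 2)).exists_bound_of_continuousOn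
    (hκ'.continuousOn.mono hsub)
  refine ⟨κ, max 1 (max C1 C2), le_max_left _ _, ?_, ?_, he⟩
  · intro y hy
    exact (hC1 y (by simpa using hy)).trans ((le_max_left _ _).trans (le_max_right _ _))
  · intro y y' hy hy'
    have h1 : ∀ x ∈ closedBall (0 : ℂ) (1 / 2), HasDerivWithinAt κ (deriv κ x) (closedBall 0 (1 / 2)) x := by
      intro x hx
      exact ((hκ x (hsub hx)).differentiableAt (isOpen_ball.mem_nhds (hsub hx))).hasDerivAt.hasDerivWithinAt
    have h2 : ∀ x ∈ closedBall (0 : ℂ) (1 / 2), ‖deriv κ x‖ ≤ max 1 (max C1 C2) := fun x hx =>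
      (hC2 x hx).trans ((le_max_right _ _).trans (le_max_right _ _))
    exact (convex_closedBall (0 : ℂ) (1 / 2)).norm_image_sub_le_of_norm_hasDerivWithin_le h1 h2
      (by simpa using hy') (by simpa using hy)

end Vale.Agent.P097.H830.W
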