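import Vale.Agent.P097.H830.W1

/-! # P097 / TRIG-T7 (2): discrete uniqueness of worlds (helper830) -/

set_option linter.all false

open Complex Metric Filter Topology Set
open scoped ComplexConjugate

namespace Vale.Agent.P097.H830.W

open Vale.Agent.P097.H536

lemma cpow_mul_rhp {x t : ℂ} (hx : 0 < x.re) (ht : 0 < t.re) (a : ℂ) :
    (x * t) ^ a = x ^ a * t ^ a := by
  have hx0 : x ≠ 0 := by rintro rfl; simp at hx
  have ht0 : t ≠ 0 := by rintro rfl; simp at ht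
  have h1 := abs_arg_lt_pi_div_two_iff.2 (Or.inl hx)
  have h2 := abs_arg_lt_pi_div_two_iff.2 (Or.inl ht)
  rw [abs_lt] at h1 h2
  rw [cpow_def_of_ne_zero (mul_ne_zero hx0 ht0), cpow_def_of_ne_zero hx0,
    cpow_def_of_ne_zero ht0, log_mul hx0 ht0 ⟨by linarith [h1.1, h2.1], by linarith [h1.2, h2.2]⟩,
    add_mul, exp_add]

lemma Nf_hom (n : ℕ) (l k v : ℂ) : Nf n (l * k) (l * v) = l ^ (n + 1) * Nf n k v := by
  unfold Nf
  rw [mul_pow, mul_pow]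
  ring

lemma Mf_hom (n : ℕ) (l a k c : ℂ) : Mf n (l * a) (l * k) (l * c) = l ^ (n + 1) * Mf n a k c := by
  unfold Mf
  have e1 : (l * k + l * c) / 2 = l * ((k + c) / 2) := by ring
  have e2 : (l * a + l * k) / 2 = l * ((a + k) / 2) := by ring
  rw [e1, e2, Nf_hom, Nf_hom]
  ring

lemma re_pos_of_norm_sub_one {y : ℂ} (h : ‖y‖ < 1) : 0 < (1 + y).re := by
  have h2 := abs_re_le_norm y
  have h3 := neg_abs_le y.re
  simp
  linarith

/-- the relation between three consecutive lines -/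
lemma rel_of_Mf {n : ℕ} {κ : ℂ → ℂ}
    (hκ : ∀ y : ℂ, Nf n 1 ((1 + (1 + y) ^ mu n) / 2) =
      Nf n 1 1 - mu n ^ 2 / 8 * (y ^ 2 + y ^ 4 * κ y))
    {x p m : ℂ} (hx : 0 < x.re) (hp : ‖p / x‖ ≤ 1 / 2) (hm : ‖m / x‖ ≤ 1 / 2)
    (h : Mf n ((x + m) ^ mu n) (x ^ mu n) ((x + p) ^ mu n) = 0) :
    p ^ 2 + p ^ 4 * κ (p / x) / x ^ 2 = m ^ 2 + m ^ 4 * κ (m / x) / x ^ 2 := by
  have hx0 : x ≠ 0 := by rintro rfl; simp at hx
  have e1 : x + p = x * (1 + p / x) := by field_simp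
  have e2 : x + m = x * (1 + m / x) := by field_simp
  rw [e1, e2, cpow_mul_rhp hx (re_pos_of_norm_sub_one (by linarith)),
    cpow_mul_rhp hx (re_pos_of_norm_sub_one (by linarith))] at h
  have hk : x ^ mu n ≠ 0 := by
    rw [cpow_def_of_ne_zero hx0]; exact exp_ne_zero _
  have h2 : Mf n (x ^ mu n * (1 + m / x) ^ mu n) (x ^ mu n * 1) (x ^ mu n * (1 + p / x) ^ mu n) = 0 := by
    rw [mul_one]; exact h
  rw [Mf_hom] at h2
  have h3 := (mul_eq_zero.1 h2).resolve_left (pow_ne_zero _ hk)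
  unfold Mf at h3
  rw [add_comm ((1 + m / x) ^ mu n) 1, hκ, hκ] at h3
  have hmu := mu_ne n
  have h4 : mu n ^ 2 / 8 * (((p / x) ^ 2 + (p / x) ^ 4 * κ (p / x))
      - ((m / x) ^ 2 + (m / x) ^ 4 * κ (m / x))) = 0 := by
    linear_combination (-1 : ℂ) * h3
  have h5 := (mul_eq_zero.1 h4).resolve_left (div_ne_zero (pow_ne_zero 2 hmu) (by norm_num))
  have h6 : x ^ 2 * (((p / x) ^ 2 + (p / x) ^ 4 * κ (p / x))
      - ((m / x) ^ 2 + (m / x) ^ 4 * κ (m / x))) = 0 := by rw [h5, mul_zero]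
  have e3 : x ^ 2 * (((p / x) ^ 2 + (p / x) ^ 4 * κ (p / x))
      - ((m / x) ^ 2 + (m / x) ^ 4 * κ (m / x))) =
      (p ^ 2 + p ^ 4 * κ (p / x) / x ^ 2) - (m ^ 2 + m ^ 4 * κ (m / x) / x ^ 2) := by
    field_simp
  rw [e3] at h6
  exact sub_eq_zero.1 h6

lemma inv_bd {a : ℝ} (ha : 6 ≤ a) {x : ℂ} (hx : a / 2 ≤ ‖x‖) : ‖x⁻¹‖ ≤ 2 * a⁻¹ := by
  have ha0 : 0 < a := by linarith
  rw [norm_inv]
  have : (‖x‖)⁻¹ ≤ (a / 2)⁻¹ := inv_anti₀ (by linarith) hx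
  calc (‖x‖)⁻¹ ≤ (a / 2)⁻¹ := this
    _ = 2 * a⁻¹ := by field_simp

lemma g_lip {κ : ℂ → ℂ} {C a : ℝ} (hC : 1 ≤ C) (hb : ∀ y : ℂ, ‖y‖ ≤ 1 / 2 → ‖κ y‖ ≤ C)
    (hl : ∀ y y' : ℂ, ‖y‖ ≤ 1 / 2 → ‖y'‖ ≤ 1 / 2 → ‖κ y - κ y'‖ ≤ C * ‖y - y'‖)
    (ha : 6 ≤ a) {x x' p p' : ℂ} (hx : a / 2 ≤ ‖x‖) (hx' : a / 2 ≤ ‖x'‖) (hp : ‖p‖ ≤ 3 / 2)
    (hp' : ‖p'‖ ≤ 3 / 2) :
    ‖p ^ 4 * κ (p / x) / x ^ 2 - p' ^ 4 * κ (p' / x') / x' ^ 2‖ ≤
      100 * C * ‖p - p'‖ / a ^ 2 + 210 * C * ‖x - x'‖ / a ^ 3 := by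
  have ha0 : 0 < a := by linarith
  have hx0 : x ≠ 0 := by
    intro h; rw [h, norm_zero] at hx; linarith
  have hx0' : x' ≠ 0 := by
    intro h; rw [h, norm_zero] at hx'; linarith
  set A : ℝ := a⁻¹ with hA
  have hA0 : 0 < A := by positivity
  have hA6 : A ≤ 1 / 6 := by
    rw [hA, one_div]
    exact inv_anti₀ (by norm_num) ha
  set u : ℂ := x⁻¹ with hu
  set u' : ℂ := x'⁻¹ with hu'
  have hun : ‖u‖ ≤ 2 * A := inv_bd ha hx
  have hun' : ‖u'‖ ≤ 2 * A := inv_bd ha hx'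
  set δ : ℝ := ‖p - p'‖ with hδ
  set d : ℝ := ‖x - x'‖ with hd
  have hδ0 : 0 ≤ δ := norm_nonneg _
  have hd0 : 0 ≤ d := norm_nonneg _
  have huu : ‖u - u'‖ ≤ 4 * d * A ^ 2 := by
    have e : u - u' = (x' - x) * (u * u') := by
      rw [hu, hu']; field_simp
    rw [e, norm_mul, norm_mul, norm_sub_rev]
    calc d * (‖u‖ * ‖u'‖) ≤ d * ((2 * A) * (2 * A)) := by gcongr
      _ = 4 * d * A ^ 2 := by ring
  have hpu : ‖p * u‖ ≤ 1 / 2 := by
    rw [norm_mul]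
    calc ‖p‖ * ‖u‖ ≤ (3 / 2) * (2 * A) := by gcongr
      _ ≤ 1 / 2 := by linarith
  have hpu' : ‖p' * u'‖ ≤ 1 / 2 := by
    rw [norm_mul]
    calc ‖p'‖ * ‖u'‖ ≤ (3 / 2) * (2 * A) := by gcongr
      _ ≤ 1 / 2 := by linarith
  have h4 : ‖p ^ 4 - p' ^ 4‖ ≤ 27 / 2 * δ := by
    have e : p ^ 4 - p' ^ 4 = (p - p') * (p ^ 3 + p ^ 2 * p' + p * p' ^ 2 + p' ^ 3) := by ring
    rw [e, norm_mul]
    have : ‖p ^ 3 + p ^ 2 * p' + p * p' ^ 2 + p' ^ 3‖ ≤ 27 / 2 := by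
      calc _ ≤ ‖p ^ 3 + p ^ 2 * p' + p * p' ^ 2‖ + ‖p' ^ 3‖ := norm_add_le _ _
        _ ≤ (‖p ^ 3 + p ^ 2 * p'‖ + ‖p * p' ^ 2‖) + ‖p' ^ 3‖ := by gcongr; exact norm_add_le _ _
        _ ≤ ((‖p ^ 3‖ + ‖p ^ 2 * p'‖) + ‖p * p' ^ 2‖) + ‖p' ^ 3‖ := by gcongr; exact norm_add_le _ _
        _ = ((‖p‖ ^ 3 + ‖p‖ ^ 2 * ‖p'‖) + ‖p‖ * ‖p'‖ ^ 2) + ‖p'‖ ^ 3 := by
          simp only [norm_mul, norm_pow]
        _ ≤ (((3 / 2) ^ 3 + (3 / 2) ^ 2 * (3 / 2)) + (3 / 2) * (3 / 2) ^ 2) + (3 / 2) ^ 3 := by gcongr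
        _ = 27 / 2 := by norm_num
    calc δ * _ ≤ δ * (27 / 2) := by gcongr
      _ = 27 / 2 * δ := by ring
  have h5 : ‖p * u - p' * u'‖ ≤ 2 * δ * A + 6 * d * A ^ 2 := by
    have e : p * u - p' * u' = (p - p') * u + p' * (u - u') := by ring
    rw [e]
    calc _ ≤ ‖(p - p') * u‖ + ‖p' * (u - u')‖ := norm_add_le _ _
      _ = δ * ‖u‖ + ‖p'‖ * ‖u - u'‖ := by rw [norm_mul, norm_mul]
      _ ≤ δ * (2 * A) + (3 / 2) * (4 * d * A ^ 2) := by gcongr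
      _ = 2 * δ * A + 6 * d * A ^ 2 := by ring
  have h6 : ‖u ^ 2 - u' ^ 2‖ ≤ 16 * d * A ^ 3 := by
    have e : u ^ 2 - u' ^ 2 = (u - u') * (u + u') := by ring
    rw [e, norm_mul]
    calc _ ≤ (4 * d * A ^ 2) * (‖u‖ + ‖u'‖) := by gcongr; exact norm_add_le _ _
      _ ≤ (4 * d * A ^ 2) * (2 * A + 2 * A) := by gcongr
      _ = 16 * d * A ^ 3 := by ring
  have hu2 : ‖u ^ 2‖ ≤ 4 * A ^ 2 := by
    rw [norm_pow]
    calc ‖u‖ ^ 2 ≤ (2 * A) ^ 2 := by gcongr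
      _ = 4 * A ^ 2 := by ring
  have hp4 : ‖p' ^ 4‖ ≤ 81 / 16 := by
    rw [norm_pow]
    calc ‖p'‖ ^ 4 ≤ (3 / 2) ^ 4 := by gcongr
      _ = 81 / 16 := by norm_num
  have e0 : p ^ 4 * κ (p / x) / x ^ 2 - p' ^ 4 * κ (p' / x') / x' ^ 2
      = (p ^ 4 - p' ^ 4) * κ (p * u) * u ^ 2 + p' ^ 4 * (κ (p * u) - κ (p' * u')) * u ^ 2
        + p' ^ 4 * κ (p' * u') * (u ^ 2 - u' ^ 2) := by
    rw [div_eq_mul_inv p x, div_eq_mul_inv p' x', ← hu, ← hu', div_eq_mul_inv, div_eq_mul_inv,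
      ← inv_pow, ← inv_pow, ← hu, ← hu']
    ring
  have hCpos : 0 ≤ C := by linarith
  have t1 : ‖(p ^ 4 - p' ^ 4) * κ (p * u) * u ^ 2‖ ≤ (27 / 2 * δ) * C * (4 * A ^ 2) := by
    rw [norm_mul, norm_mul]
    gcongr
    exact hb _ hpu
  have t2 : ‖p' ^ 4 * (κ (p * u) - κ (p' * u')) * u ^ 2‖ ≤
      (81 / 16) * (C * (2 * δ * A + 6 * d * A ^ 2)) * (4 * A ^ 2) := by
    rw [norm_mul, norm_mul]
    have := hl _ _ hpu hpu'
    have h7 : ‖κ (p * u) - κ (p' * u')‖ ≤ C * (2 * δ * A + 6 * d * A ^ 2) :=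
      this.trans (by gcongr)
    gcongr
  have t3 : ‖p' ^ 4 * κ (p' * u') * (u ^ 2 - u' ^ 2)‖ ≤ (81 / 16) * C * (16 * d * A ^ 3) := by
    rw [norm_mul, norm_mul]
    gcongr
    exact hb _ hpu'
  have e1 : 100 * C * δ / a ^ 2 + 210 * C * d / a ^ 3 = 100 * C * δ * A ^ 2 + 210 * C * d * A ^ 3 := by
    rw [hA]; field_simp
  rw [e0, e1]
  refine (norm_add_le _ _).trans ((add_le_add (norm_add_le _ _) le_rfl).trans ?_)
  have hCδ : 0 ≤ C * δ * A ^ 2 := by positivity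
  have hCd : 0 ≤ C * d * A ^ 3 := by positivity
  have q1 : C * δ * A ^ 3 ≤ C * δ * A ^ 2 * (1 / 6) := by
    have : C * δ * A ^ 3 = C * δ * A ^ 2 * A := by ring
    rw [this]; gcongr
  have q2 : C * d * A ^ 4 ≤ C * d * A ^ 3 * (1 / 6) := by
    have : C * d * A ^ 4 = C * d * A ^ 3 * A := by ring
    rw [this]; gcongr
  nlinarith [t1, t2, t3, hCδ, hCd, q1, q2]

/-- the second difference estimate -/
lemma step {κ : ℂ → ℂ} {C a : ℝ} (hC : 1 ≤ C) (hb : ∀ y : ℂ, ‖y‖ ≤ 1 / 2 → ‖κ y‖ ≤ C)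
    (hl : ∀ y y' : ℂ, ‖y‖ ≤ 1 / 2 → ‖y'‖ ≤ 1 / 2 → ‖κ y - κ y'‖ ≤ C * ‖y - y'‖)
    (ha : 6 ≤ a) {x x' p p' m m' : ℂ} (hx : a / 2 ≤ ‖x‖) (hx' : a / 2 ≤ ‖x'‖)
    (hp : ‖p - 1‖ ≤ 1 / 2) (hp' : ‖p' - 1‖ ≤ 1 / 2) (hm : ‖m + 1‖ ≤ 1 / 2)
    (hm' : ‖m' + 1‖ ≤ 1 / 2)
    (h : p ^ 2 + p ^ 4 * κ (p / x) / x ^ 2 = m ^ 2 + m ^ 4 * κ (m / x) / x ^ 2)
    (h' : p' ^ 2 + p' ^ 4 * κ (p' / x') / x' ^ 2 = m' ^ 2 + m' ^ 4 * κ (m' / x') / x' ^ 2) :
    ‖(p + m) - (p' + m')‖ ≤ 500 * C * ((‖p - p'‖ + ‖m - m'‖) / a ^ 2 + ‖x - x'‖ / a ^ 3) := by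
  have ha0 : 0 < a := by linarith
  have np : ∀ q : ℂ, ‖q - 1‖ ≤ 1 / 2 → ‖q‖ ≤ 3 / 2 := by
    intro q hq
    have : q = (q - 1) + 1 := by ring
    rw [this]
    refine (norm_add_le _ _).trans ?_
    rw [norm_one]; linarith
  have nm : ∀ q : ℂ, ‖q + 1‖ ≤ 1 / 2 → ‖q‖ ≤ 3 / 2 := by
    intro q hq
    have : q = (q + 1) - 1 := by ring
    rw [this]
    refine (norm_sub_le _ _).trans ?_
    rw [norm_one]; linarith
  have hpn := np p hp
  have hpn' := np p' hp'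
  have hmn := nm m hm
  have hmn' := nm m' hm'
  have nQ : ∀ q r : ℂ, ‖q - 1‖ ≤ 1 / 2 → ‖r + 1‖ ≤ 1 / 2 → 1 ≤ ‖q - r‖ := by
    intro q r hq hr
    have e : (2 : ℂ) = (q - r) + ((1 - q) + (r + 1)) := by ring
    have h1 : ‖(2 : ℂ)‖ ≤ ‖q - r‖ + (‖1 - q‖ + ‖r + 1‖) := by
      conv_lhs => rw [e]
      exact (norm_add_le _ _).trans (add_le_add le_rfl (norm_add_le _ _))
    rw [norm_sub_rev 1 q] at h1
    have h2 : ‖(2 : ℂ)‖ = 2 := by simp
    linarith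
  have g0 : ∀ q y : ℂ, ‖q‖ ≤ 3 / 2 → a / 2 ≤ ‖y‖ → ‖q ^ 4 * κ (q / y) / y ^ 2‖ ≤ 21 * C / a ^ 2 := by
    intro q y hq hy
    have hy0 : 0 < ‖y‖ := by linarith
    have h1 : ‖q / y‖ ≤ 1 / 2 := by
      rw [norm_div, div_le_iff₀ hy0]
      linarith
    rw [norm_div, norm_mul, norm_pow, norm_pow, div_le_div_iff₀ (by positivity) (by positivity)]
    have h2 := hb _ h1
    have h3 : ‖q‖ ^ 4 ≤ 81 / 16 := by
      calc ‖q‖ ^ 4 ≤ (3 / 2) ^ 4 := by gcongr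
        _ = 81 / 16 := by norm_num
    have h4 : a ^ 2 / 4 ≤ ‖y‖ ^ 2 := by
      calc a ^ 2 / 4 = (a / 2) ^ 2 := by ring
        _ ≤ ‖y‖ ^ 2 := by gcongr
    have h5 : ‖q‖ ^ 4 * ‖κ (q / y)‖ ≤ 81 / 16 * C := by gcongr
    calc ‖q‖ ^ 4 * ‖κ (q / y)‖ * a ^ 2 ≤ 81 / 16 * C * a ^ 2 := by gcongr
      _ ≤ 21 * C * (a ^ 2 / 4) := by nlinarith [mul_pos (by linarith : 0 < C) (pow_pos ha0 2)]
      _ ≤ 21 * C * ‖y‖ ^ 2 := by gcongr
  set g := p ^ 4 * κ (p / x) / x ^ 2 with hg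
  set gm := m ^ 4 * κ (m / x) / x ^ 2 with hgm
  set g' := p' ^ 4 * κ (p' / x') / x' ^ 2 with hg'
  set gm' := m' ^ 4 * κ (m' / x') / x' ^ 2 with hgm'
  have hP' : ‖p' + m'‖ ≤ 42 * C / a ^ 2 := by
    have e : (p' + m') * (p' - m') = -(g' - gm') := by linear_combination h'
    have h1 : ‖p' + m'‖ * ‖p' - m'‖ ≤ 42 * C / a ^ 2 := by
      rw [← norm_mul, e, norm_neg]
      refine (norm_sub_le _ _).trans ?_
      have := g0 p' x' hpn' hx'
      have := g0 m' x' hmn' hx'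
      calc _ ≤ 21 * C / a ^ 2 + 21 * C / a ^ 2 := by gcongr
        _ = 42 * C / a ^ 2 := by ring
    have h2 := nQ p' m' hp' hm'
    nlinarith [norm_nonneg (p' + m')]
  have l1 := g_lip hC hb hl ha hx hx' hpn hpn'
  have l2 := g_lip hC hb hl ha hx hx' hmn hmn'
  rw [← hg, ← hg'] at l1
  rw [← hgm, ← hgm'] at l2
  have e : ((p + m) - (p' + m')) * (p - m) =
      -(p' + m') * ((p - p') - (m - m')) - ((g - g') - (gm - gm')) := by
    linear_combination h - h'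
  have h1 : ‖(p + m) - (p' + m')‖ * ‖p - m‖ ≤
      42 * C / a ^ 2 * (‖p - p'‖ + ‖m - m'‖) + ((100 * C * ‖p - p'‖ / a ^ 2 + 210 * C * ‖x - x'‖ / a ^ 3)
        + (100 * C * ‖m - m'‖ / a ^ 2 + 210 * C * ‖x - x'‖ / a ^ 3)) := by
    rw [← norm_mul, e]
    refine (norm_sub_le _ _).trans ?_
    rw [norm_mul, norm_neg]
    have i1 := norm_sub_le (p - p') (m - m')
    have i2 := norm_sub_le (g - g') (gm - gm')
    gcongr
    exact i2.trans (add_le_add l1 l2)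
  have h2 := nQ p m hp hm
  have h3 : ‖(p + m) - (p' + m')‖ ≤ ‖(p + m) - (p' + m')‖ * ‖p - m‖ := by
    nlinarith [norm_nonneg ((p + m) - (p' + m'))]
  refine (h3.trans h1).trans ?_
  have e2 : 42 * C / a ^ 2 * (‖p - p'‖ + ‖m - m'‖) + ((100 * C * ‖p - p'‖ / a ^ 2 + 210 * C * ‖x - x'‖ / a ^ 3)
        + (100 * C * ‖m - m'‖ / a ^ 2 + 210 * C * ‖x - x'‖ / a ^ 3))
      = 142 * C * ((‖p - p'‖ + ‖m - m'‖) / a ^ 2) + 420 * C * (‖x - x'‖ / a ^ 3) := by ring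
  rw [e2]
  have q1 : 0 ≤ C * ((‖p - p'‖ + ‖m - m'‖) / a ^ 2) := by positivity
  have q2 : 0 ≤ C * (‖x - x'‖ / a ^ 3) := by positivity
  nlinarith

/-- telescoping from infinity -/
lemma tail {u : ℕ → ℂ} {g : ℕ → ℝ} (hu : Tendsto u atTop (𝓝 0)) (hg : ∀ j, 0 ≤ g j)
    (h : ∀ j, ‖u (j + 1) - u j‖ ≤ g j - g (j + 1)) (j : ℕ) : ‖u j‖ ≤ g j := by
  have hm : Monotone (fun i => ‖u i‖ - g i) := by
    refine monotone_nat_of_le_succ ?_
    intro i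
    have h1 : ‖u i‖ ≤ ‖u (i + 1)‖ + ‖u (i + 1) - u i‖ := by
      have : u i = u (i + 1) - (u (i + 1) - u i) := by ring
      conv_lhs => rw [this]
      exact norm_sub_le _ _
    have := h i
    show ‖u i‖ - g i ≤ ‖u (i + 1)‖ - g (i + 1)
    linarith
  have h2 : ∀ N ≥ j, ‖u j‖ - g j ≤ ‖u N‖ := by
    intro N hN
    have := hm hN
    simp only at this
    linarith [hg N]
  have h3 : Tendsto (fun N => ‖u N‖) atTop (𝓝 0) := by simpa using hu.norm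
  have h4 : ‖u j‖ - g j ≤ 0 := ge_of_tendsto h3 (eventually_atTop.2 ⟨j, h2⟩)
  linarith

/-- contraction from infinity -/
lemma contraction {C1 L T0 : ℝ} (hC1 : 1 ≤ C1) (hL : 16 * C1 ≤ L) {D : ℕ → ℂ}
    (hD : Tendsto D atTop (𝓝 0))
    (hb : ∀ j : ℕ, ‖D j‖ ≤ T0 ∧ (L + j) * ‖D (j + 1) - D j‖ ≤ T0)
    (hs : ∀ j : ℕ, ‖(D (j + 2) - D (j + 1)) - (D (j + 1) - D j)‖ ≤
      C1 * ((‖D (j + 2) - D (j + 1)‖ + ‖D (j + 1) - D j‖) / (L + (j + 1)) ^ 2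
        + ‖D (j + 1)‖ / (L + (j + 1)) ^ 3)) : ∀ j, D j = 0 := by
  have hL1 : 16 ≤ L := by linarith
  have hT0 : 0 ≤ T0 := (norm_nonneg _).trans (hb 0).1
  have key : ∀ T : ℝ, 0 ≤ T → (∀ j : ℕ, ‖D j‖ ≤ T ∧ (L + j) * ‖D (j + 1) - D j‖ ≤ T) →
      (∀ j : ℕ, ‖D j‖ ≤ T / 2 ∧ (L + j) * ‖D (j + 1) - D j‖ ≤ T / 2) := by
    intro T hT h
    have hΔ : ∀ j : ℕ, ‖D (j + 1) - D j‖ ≤ 4 * C1 * T / (L + j) ^ 2 := by
      intro j
      have ht : Tendsto (fun j => D (j + 1) - D j) atTop (𝓝 0) := by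
        have := (hD.comp (tendsto_add_atTop_nat 1)).sub hD
        simpa using this
      refine tail (u := fun j => D (j + 1) - D j) (g := fun j => 4 * C1 * T / (L + j) ^ 2) ht
        (fun j => by positivity) ?_ j
      intro i
      have ha : 1 ≤ L + (i : ℝ) := by
        have : (0 : ℝ) ≤ i := Nat.cast_nonneg i
        linarith
      set a : ℝ := L + i with hadef
      have ha0 : 0 < a := by linarith
      have e1 : L + ((i : ℝ) + 1) = a + 1 := by rw [hadef]; ring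
      have e2 : L + ((i + 1 : ℕ) : ℝ) = a + 1 := by rw [hadef]; push_cast; ring
      have s1 := hs i
      rw [e1] at s1
      have b0 := (h i).2
      have b1 := (h (i + 1)).2
      have b2 := (h (i + 1)).1
      rw [← hadef] at b0
      rw [e2] at b1
      show ‖(D (i + 1 + 1) - D (i + 1)) - (D (i + 1) - D i)‖ ≤
        4 * C1 * T / a ^ 2 - 4 * C1 * T / (L + ((i + 1 : ℕ) : ℝ)) ^ 2
      rw [e2]
      have c0 : ‖D (i + 1) - D i‖ ≤ T / a := by rw [le_div_iff₀ ha0]; linarith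
      have c1 : ‖D (i + 2) - D (i + 1)‖ ≤ T / (a + 1) := by
        rw [le_div_iff₀ (by linarith)]; linarith
      have c2 : T / a ≤ 2 * T / (a + 1) := by
        rw [div_le_div_iff₀ ha0 (by linarith)]
        nlinarith
      have s2 : C1 * ((‖D (i + 2) - D (i + 1)‖ + ‖D (i + 1) - D i‖) / (a + 1) ^ 2
        + ‖D (i + 1)‖ / (a + 1) ^ 3) ≤ C1 * ((T / (a + 1) + 2 * T / (a + 1)) / (a + 1) ^ 2
        + T / (a + 1) ^ 3) := by
        gcongr
        linarith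
      refine (s1.trans s2).trans ?_
      have e3 : C1 * ((T / (a + 1) + 2 * T / (a + 1)) / (a + 1) ^ 2 + T / (a + 1) ^ 3)
          = 4 * C1 * T * (1 / (a + 1) ^ 3) := by
        field_simp; ring
      have e4 : 4 * C1 * T / a ^ 2 - 4 * C1 * T / (a + 1) ^ 2
          = 4 * C1 * T * (1 / a ^ 2 - 1 / (a + 1) ^ 2) := by ring
      rw [e3, e4]
      gcongr
      rw [div_sub_div _ _ (by positivity) (by positivity), div_le_div_iff₀ (by positivity) (by positivity)]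
      nlinarith [pow_pos ha0 2, pow_pos ha0 3, pow_pos ha0 4, mul_pos ha0 ha0]
    have hDj : ∀ j : ℕ, ‖D j‖ ≤ 8 * C1 * T / (L + j) := by
      intro j
      refine tail (u := D) (g := fun j => 8 * C1 * T / (L + j)) hD (fun j => by positivity) ?_ j
      intro i
      have ha : 1 ≤ L + (i : ℝ) := by
        have : (0 : ℝ) ≤ i := Nat.cast_nonneg i
        linarith
      have s1 := hΔ i
      set a : ℝ := L + i with hadef
      have ha0 : 0 < a := by linarith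
      have e2 : L + ((i + 1 : ℕ) : ℝ) = a + 1 := by rw [hadef]; push_cast; ring
      refine s1.trans ?_
      show 4 * C1 * T / a ^ 2 ≤ 8 * C1 * T / a - 8 * C1 * T / (L + ((i + 1 : ℕ) : ℝ))
      rw [e2]
      have e3 : 4 * C1 * T / a ^ 2 = 4 * C1 * T * (1 / a ^ 2) := by ring
      have e4 : 8 * C1 * T / a - 8 * C1 * T / (a + 1) = 4 * C1 * T * (2 * (1 / a - 1 / (a + 1))) := by
        ring
      rw [e3, e4]
      gcongr
      rw [div_sub_div _ _ (by positivity) (by positivity), mul_div_assoc',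
        div_le_div_iff₀ (by positivity) (by positivity)]
      nlinarith
    intro j
    have ha : 16 * C1 ≤ L + (j : ℝ) := by
      have : (0 : ℝ) ≤ j := Nat.cast_nonneg j
      linarith
    have ha0 : 0 < L + (j : ℝ) := by linarith
    constructor
    · refine (hDj j).trans ?_
      rw [div_le_iff₀ ha0]
      nlinarith
    · have := hΔ j
      calc (L + j) * ‖D (j + 1) - D j‖ ≤ (L + j) * (4 * C1 * T / (L + j) ^ 2) := by gcongr
        _ = 4 * C1 * T / (L + j) := by field_simp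
        _ ≤ T / 2 := by
          rw [div_le_iff₀ ha0]
          nlinarith
  have hk : ∀ k : ℕ, ∀ j : ℕ, ‖D j‖ ≤ T0 / 2 ^ k ∧ (L + j) * ‖D (j + 1) - D j‖ ≤ T0 / 2 ^ k := by
    intro k
    induction k with
    | zero => simpa using hb
    | succ k ih =>
      have := key (T0 / 2 ^ k) (by positivity) ih
      intro j
      have h1 := this j
      have e : T0 / 2 ^ k / 2 = T0 / 2 ^ (k + 1) := by rw [pow_succ]; field_simp
      rw [e] at h1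
      exact h1
  intro j
  have h1 : Tendsto (fun k : ℕ => T0 / 2 ^ k) atTop (𝓝 0) := by
    have := (tendsto_pow_atTop_nhds_zero_of_lt_one (r := (1 / 2 : ℝ)) (by norm_num) (by norm_num)).const_mul T0
    simp only [mul_zero] at this
    refine this.congr ?_
    intro k
    rw [one_div, inv_pow]; rfl
  have h2 : ‖D j‖ ≤ 0 := ge_of_tendsto' h1 (fun k => (hk k j).1)
  exact norm_le_zero_iff.1 h2

/-- **discrete uniqueness** -/
lemma discrete {n : ℕ} (hn : 2 ≤ n) {K : ℝ} (hK : 0 ≤ K) : ∃ M : ℝ, 1 ≤ M ∧ ∀ L : ℝ, M ≤ L →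
    ∀ x x' : ℕ → ℂ, (∀ j : ℕ, ‖x j - ((L + j : ℝ) : ℂ)‖ ≤ K / (L + j)) →
      (∀ j : ℕ, ‖x' j - ((L + j : ℝ) : ℂ)‖ ≤ K / (L + j)) →
      (∀ j : ℕ, Mf n (x j ^ mu n) (x (j + 1) ^ mu n) (x (j + 2) ^ mu n) = 0) →
      (∀ j : ℕ, Mf n (x' j ^ mu n) (x' (j + 1) ^ mu n) (x' (j + 2) ^ mu n) = 0) → x 0 = x' 0 := by
  obtain ⟨κ, C, hC, hb, hl, hκ⟩ := nu_lemma n hn
  refine ⟨max (8000 * C) (4 * K + 1), ?_, ?_⟩
  · have : 1 ≤ 4 * K + 1 := by linarith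
    exact this.trans (le_max_right _ _)
  intro L hL x x' hx hx' hM hM'
  have hL1 : 8000 * C ≤ L := (le_max_left _ _).trans hL
  have hL2 : 4 * K + 1 ≤ L := (le_max_right _ _).trans hL
  have hLp : 8000 ≤ L := by linarith
  -- basic facts for one sequence
  have basic : ∀ x : ℕ → ℂ, (∀ j : ℕ, ‖x j - ((L + j : ℝ) : ℂ)‖ ≤ K / (L + j)) →
      ∀ j : ℕ, (L + j) / 2 ≤ ‖x j‖ ∧ 0 < (x j).re ∧ ‖x (j + 1) - x j - 1‖ ≤ 1 / 2 ∧
        ‖(x (j + 1) - x j) / x j‖ ≤ 1 / 2 ∧ ‖(x j - x (j + 1)) / x (j + 1)‖ ≤ 1 / 2 := by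
    intro x hx
    have h0 : ∀ j : ℕ, ‖x j - ((L + j : ℝ) : ℂ)‖ ≤ 1 / 4 := by
      intro j
      have hj : (0 : ℝ) ≤ j := Nat.cast_nonneg j
      refine (hx j).trans ?_
      rw [div_le_iff₀ (by linarith)]
      linarith
    have h1 : ∀ j : ℕ, (L + j) / 2 ≤ ‖x j‖ := by
      intro j
      have hj : (0 : ℝ) ≤ j := Nat.cast_nonneg j
      have h2 : ‖((L + j : ℝ) : ℂ)‖ = L + j := by
        rw [norm_real]; exact abs_of_nonneg (by linarith)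
      have h3 : ‖((L + j : ℝ) : ℂ)‖ ≤ ‖x j‖ + ‖x j - ((L + j : ℝ) : ℂ)‖ := by
        have : ((L + j : ℝ) : ℂ) = x j - (x j - ((L + j : ℝ) : ℂ)) := by ring
        conv_lhs => rw [this]
        exact norm_sub_le _ _
      have := h0 j
      linarith
    have h2 : ∀ j : ℕ, 0 < (x j).re := by
      intro j
      have hj : (0 : ℝ) ≤ j := Nat.cast_nonneg j
      have h3 := (abs_re_le_norm (x j - ((L + j : ℝ) : ℂ))).trans (h0 j)
      rw [sub_re, ofReal_re] at h3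
      have := (abs_le.1 h3).1
      linarith
    have h3 : ∀ j : ℕ, ‖x (j + 1) - x j - 1‖ ≤ 1 / 2 := by
      intro j
      have e : x (j + 1) - x j - 1 = (x (j + 1) - ((L + (j + 1 : ℕ) : ℝ) : ℂ)) - (x j - ((L + j : ℝ) : ℂ)) := by
        push_cast; ring
      rw [e]
      refine (norm_sub_le _ _).trans ?_
      linarith [h0 j, h0 (j + 1)]
    have h4 : ∀ j : ℕ, ‖x (j + 1) - x j‖ ≤ 3 / 2 := by
      intro j
      have : x (j + 1) - x j = (x (j + 1) - x j - 1) + 1 := by ring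
      rw [this]
      refine (norm_add_le _ _).trans ?_
      rw [norm_one]; linarith [h3 j]
    intro j
    have hj : (0 : ℝ) ≤ j := Nat.cast_nonneg j
    refine ⟨h1 j, h2 j, h3 j, ?_, ?_⟩
    · have := h1 j
      rw [norm_div, div_le_iff₀ (by linarith)]
      linarith [h4 j]
    · have := h1 (j + 1)
      push_cast at this
      rw [norm_div, div_le_iff₀ (by linarith), norm_sub_rev]
      linarith [h4 j]
  have bx := basic x hx
  have bx' := basic x' hx'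
  -- relations
  have rel : ∀ x : ℕ → ℂ, (∀ j : ℕ, ‖x j - ((L + j : ℝ) : ℂ)‖ ≤ K / (L + j)) →
      (∀ j : ℕ, Mf n (x j ^ mu n) (x (j + 1) ^ mu n) (x (j + 2) ^ mu n) = 0) → ∀ j : ℕ,
      (x (j + 2) - x (j + 1)) ^ 2 + (x (j + 2) - x (j + 1)) ^ 4 *
        κ ((x (j + 2) - x (j + 1)) / x (j + 1)) / x (j + 1) ^ 2
      = (x j - x (j + 1)) ^ 2 + (x j - x (j + 1)) ^ 4 *
        κ ((x j - x (j + 1)) / x (j + 1)) / x (j + 1) ^ 2 := by
    intro x hx hM j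
    have b := basic x hx
    refine rel_of_Mf hκ (b (j + 1)).2.1 (b (j + 1)).2.2.2.1 (b j).2.2.2.2 ?_
    have e1 : x (j + 1) + (x j - x (j + 1)) = x j := by ring
    have e2 : x (j + 1) + (x (j + 2) - x (j + 1)) = x (j + 2) := by ring
    rw [e1, e2]
    exact hM j
  have r1 := rel x hx hM
  have r2 := rel x' hx' hM'
  -- the difference
  set D : ℕ → ℂ := fun j => x j - x' j with hDdef
  have hDb : ∀ j : ℕ, ‖D j‖ ≤ 2 * K / (L + j) := by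
    intro j
    have e : D j = (x j - ((L + j : ℝ) : ℂ)) - (x' j - ((L + j : ℝ) : ℂ)) := by
      simp only [hDdef]; ring
    rw [e]
    refine (norm_sub_le _ _).trans ?_
    have := hx j
    have := hx' j
    have e2 : 2 * K / (L + j) = K / (L + j) + K / (L + j) := by ring
    rw [e2]
    linarith
  have hD0 : Tendsto D atTop (𝓝 0) := by
    refine squeeze_zero_norm hDb ?_
    have h1 : Tendsto (fun j : ℕ => L + (j : ℝ)) atTop atTop :=
      tendsto_atTop_add_const_left _ _ tendsto_natCast_atTop_atTop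
    exact h1.const_div_atTop (2 * K)
  have hfin := contraction (C1 := 500 * C) (L := L) (T0 := 4 * K) (by linarith) (by linarith) hD0 ?_ ?_
  · have := hfin 0
    simp only [hDdef] at this
    exact sub_eq_zero.1 this
  · intro j
    have hj : (0 : ℝ) ≤ j := Nat.cast_nonneg j
    have ha0 : 0 < L + (j : ℝ) := by linarith
    have h1 := hDb j
    have h2 := hDb (j + 1)
    push_cast at h2
    constructor
    · refine h1.trans ?_
      rw [div_le_iff₀ ha0]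
      nlinarith
    · have h3 : ‖D (j + 1) - D j‖ ≤ 4 * K / (L + j) := by
        refine (norm_sub_le _ _).trans ?_
        have h4 : 2 * K / (L + (j + 1)) ≤ 2 * K / (L + j) := by
          gcongr
          linarith
        have e2 : 4 * K / (L + j) = 2 * K / (L + j) + 2 * K / (L + j) := by ring
        rw [e2]
        linarith
      calc (L + j) * ‖D (j + 1) - D j‖ ≤ (L + j) * (4 * K / (L + j)) := by gcongr
        _ = 4 * K := by field_simp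
  · intro j
    have hj : (0 : ℝ) ≤ j := Nat.cast_nonneg j
    have e0 : (L + ((j + 1 : ℕ) : ℝ)) = L + ((j : ℝ) + 1) := by push_cast; ring
    have st := step (a := L + ((j : ℝ) + 1)) hC hb hl (by linarith)
      (x := x (j + 1)) (x' := x' (j + 1)) (p := x (j + 2) - x (j + 1)) (p' := x' (j + 2) - x' (j + 1))
      (m := x j - x (j + 1)) (m' := x' j - x' (j + 1))
      (by have := (bx (j + 1)).1; rw [e0] at this; exact this)
      (by have := (bx' (j + 1)).1; rw [e0] at this; exact this)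
      (bx (j + 1)).2.2.1 (bx' (j + 1)).2.2.1
      (by
        have := (bx j).2.2.1
        rw [← norm_neg] at this
        have e : -(x (j + 1) - x j - 1) = x j - x (j + 1) + 1 := by ring
        rwa [e] at this)
      (by
        have := (bx' j).2.2.1
        rw [← norm_neg] at this
        have e : -(x' (j + 1) - x' j - 1) = x' j - x' (j + 1) + 1 := by ring
        rwa [e] at this)
      (r1 j) (r2 j)
    have e1 : (x (j + 2) - x (j + 1) + (x j - x (j + 1))) - (x' (j + 2) - x' (j + 1) + (x' j - x' (j + 1)))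
        = (D (j + 2) - D (j + 1)) - (D (j + 1) - D j) := by
      simp only [hDdef]; ring
    have e2 : (x (j + 2) - x (j + 1)) - (x' (j + 2) - x' (j + 1)) = D (j + 2) - D (j + 1) := by
      simp only [hDdef]; ring
    have e3 : ‖(x j - x (j + 1)) - (x' j - x' (j + 1))‖ = ‖D (j + 1) - D j‖ := by
      rw [← norm_neg]
      congr 1
      simp only [hDdef]; ring
    have e4 : x (j + 1) - x' (j + 1) = D (j + 1) := rfl
    rw [e1, e2, e3, e4] at st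
    exact st

end Vale.Agent.P097.H830.W
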