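import Vale.Agent.P097.H830.W2

/-! # P097 / TRIG-T7 (3): worlds are homogeneous and real at real points (helper830) -/

set_option linter.all false

open Complex Metric Filter Topology Set
open scoped ComplexConjugate

namespace Vale.Agent.P097.H830.W

open Vale.Agent.P097.H536 Vale.Agent.P097.TA

lemma mu_conj (n : ℕ) : conj (mu n) = mu n := by
  have : mu n = ((3 / ((n : ℝ) + 2) : ℝ) : ℂ) := by
    unfold mu; push_cast; rfl
  rw [this, conj_ofReal]

lemma conj_cpow_mu (n : ℕ) {x : ℂ} (hx : 0 < x.re) : conj x ^ mu n = conj (x ^ mu n) := by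
  have h : x.arg ≠ Real.pi := by
    have h1 := abs_arg_lt_pi_div_two_iff.2 (Or.inl hx)
    rw [abs_lt] at h1
    have := Real.pi_pos
    intro h2
    rw [h2] at h1
    linarith [h1.2]
  rw [conj_cpow _ _ h, mu_conj]

lemma Nf_conj (n : ℕ) (k v : ℂ) : Nf n (conj k) (conj v) = conj (Nf n k v) := by
  unfold Nf
  simp [map_sub, map_mul, map_div₀, map_pow]

lemma Mf_conj (n : ℕ) (a k c : ℂ) : Mf n (conj a) (conj k) (conj c) = conj (Mf n a k c) := by
  unfold Mf
  have h2 : conj (2 : ℂ) = 2 := by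
    have : (2 : ℂ) = ((2 : ℝ) : ℂ) := by norm_num
    rw [this, conj_ofReal]
  rw [map_sub, ← Nf_conj, ← Nf_conj, map_div₀, map_div₀, map_add, map_add, h2]

variable {n : ℕ} {c K : ℝ} {z : ℂ → ℂ → ℂ}

/-- values of a world lie in the right half plane -/
lemma world_re (W : World n c K z) {s u : ℂ} (h : (s, u) ∈ HP c) : ‖z s u - s‖ ≤ s.re / 4 := by
  have h0 : ‖u‖ < c * s.re := h
  have hs : 0 < s.re := by
    by_contra hcon
    push Not at hcon
    have := norm_nonneg u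
    nlinarith [W.hc]
  have h1 := W.bd s u h
  have h2 : K * ‖u‖ ^ 2 ≤ s.re ^ 2 / 4 := by
    have h3 : ‖u‖ ^ 2 ≤ (c * s.re) ^ 2 := by gcongr
    calc K * ‖u‖ ^ 2 ≤ K * (c * s.re) ^ 2 := mul_le_mul_of_nonneg_left h3 W.hK
      _ = (K * c ^ 2) * s.re ^ 2 := by ring
      _ ≤ 1 / 4 * s.re ^ 2 := by
        apply mul_le_mul_of_nonneg_right W.hKc (by positivity)
      _ = s.re ^ 2 / 4 := by ring
  have h4 : ‖z s u - s‖ * s.re ≤ (s.re / 4) * s.re := by
    have : (s.re / 4) * s.re = s.re ^ 2 / 4 := by ring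
    rw [this]; exact h1.trans h2
  exact le_of_mul_le_mul_right h4 hs

lemma world_re_pos (W : World n c K z) {s u : ℂ} (h : (s, u) ∈ HP c) : 0 < (z s u).re := by
  have h0 : ‖u‖ < c * s.re := h
  have hs : 0 < s.re := by
    by_contra hcon
    push Not at hcon
    have := norm_nonneg u
    nlinarith [W.hc]
  have h1 := (abs_re_le_norm (z s u - s)).trans (world_re W h)
  rw [sub_re] at h1
  have := (abs_le.1 h1).1
  linarith

/-- the sequence along a real row -/
lemma row (W : World n c K z) {s u : ℝ} (hs : 0 < s) (hu : 0 < u) (hL : 2 / c < s / u) :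
    (∀ j : ℕ, ‖z ((s + j * u : ℝ) : ℂ) u / u - ((s / u + j : ℝ) : ℂ)‖ ≤ K / (s / u + j)) ∧
    (∀ j : ℕ, 0 < (z ((s + j * u : ℝ) : ℂ) u / u).re) ∧
    (∀ j : ℕ, Mf n ((z ((s + j * u : ℝ) : ℂ) u / u) ^ mu n)
      ((z ((s + (j + 1 : ℕ) * u : ℝ) : ℂ) u / u) ^ mu n)
      ((z ((s + (j + 2 : ℕ) * u : ℝ) : ℂ) u / u) ^ mu n) = 0) := by
  have hc := W.hc
  have huc : 2 * u < c * s := by
    rw [div_lt_div_iff₀ hc hu] at hL
    linarith
  have hmem2 : ∀ j : ℕ, (((s + j * u : ℝ) : ℂ), (u : ℂ)) ∈ HP (c / 2) := by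
    intro j
    show ‖(u : ℂ)‖ < c / 2 * ((s + j * u : ℝ) : ℂ).re
    rw [norm_real, ofReal_re, Real.norm_eq_abs, abs_of_pos hu]
    have : 0 ≤ (j : ℝ) * u := by positivity
    nlinarith
  have hmem : ∀ j : ℕ, (((s + j * u : ℝ) : ℂ), (u : ℂ)) ∈ HP c := by
    intro j
    have h1 : ‖(u : ℂ)‖ < c / 2 * ((s + j * u : ℝ) : ℂ).re := hmem2 j
    show ‖(u : ℂ)‖ < c * ((s + j * u : ℝ) : ℂ).re
    have := norm_nonneg (u : ℂ)
    nlinarith
  have hu0 : (u : ℂ) ≠ 0 := by exact_mod_cast hu.ne'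
  have hre : ∀ j : ℕ, 0 < (z ((s + j * u : ℝ) : ℂ) u / u).re := by
    intro j
    rw [div_ofReal_re]
    exact div_pos (world_re_pos W (hmem j)) hu
  refine ⟨?_, hre, ?_⟩
  · intro j
    have h1 := W.bd _ _ (hmem j)
    have hsj : 0 < s + j * u := by positivity
    rw [ofReal_re, norm_real, Real.norm_eq_abs, abs_of_pos hu] at h1
    have e1 : z ((s + j * u : ℝ) : ℂ) u / u - ((s / u + j : ℝ) : ℂ)
        = (z ((s + j * u : ℝ) : ℂ) u - ((s + j * u : ℝ) : ℂ)) / u := by
      push_cast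
      field_simp
    rw [e1, norm_div, norm_real, Real.norm_eq_abs, abs_of_pos hu]
    have e2 : s / u + j = (s + j * u) / u := by field_simp
    rw [e2, div_div_eq_mul_div, div_le_div_iff₀ hu hsj]
    nlinarith
  · intro j
    have hel := W.el _ _ (hmem2 (j + 1))
    have e1 : ((s + (j + 1 : ℕ) * u : ℝ) : ℂ) - u = ((s + j * u : ℝ) : ℂ) := by push_cast; ring
    have e2 : ((s + (j + 1 : ℕ) * u : ℝ) : ℂ) + u = ((s + (j + 2 : ℕ) * u : ℝ) : ℂ) := by
      push_cast; ring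
    rw [e1, e2] at hel
    have hui : 0 < ((u : ℂ)⁻¹).re := by
      rw [← ofReal_inv, ofReal_re]; positivity
    have sc : ∀ j : ℕ, (z ((s + j * u : ℝ) : ℂ) u / u) ^ mu n
        = ((u : ℂ)⁻¹) ^ mu n * z ((s + j * u : ℝ) : ℂ) u ^ mu n := by
      intro j
      rw [div_eq_inv_mul, cpow_mul_rhp hui (world_re_pos W (hmem j))]
    rw [sc j, sc (j + 1), sc (j + 2), Mf_hom, hel, mul_zero]

/-- **homogeneity and reality at real points** -/
lemma hom_real (W : World n c K z) : ∃ M : ℝ, 1 ≤ M ∧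
    (∀ s u s' u' : ℝ, 0 < s → 0 < u → 0 < s' → 0 < u' → M ≤ s / u → s / u = s' / u' →
      z s u / u = z s' u' / u') ∧
    (∀ s u : ℝ, 0 < s → 0 < u → M ≤ s / u → conj (z s u) = z s u) := by
  obtain ⟨M, hM1, hM⟩ := discrete W.hn W.hK
  have hc := W.hc
  refine ⟨max M (2 / c + 1), hM1.trans (le_max_left _ _), ?_, ?_⟩
  · intro s u s' u' hs hu hs' hu' hL he
    have hL1 : M ≤ s / u := (le_max_left _ _).trans hL
    have hL2 : 2 / c < s / u := by
      have := (le_max_right _ _).trans hL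
      linarith
    obtain ⟨a1, a2, a3⟩ := row W hs hu hL2
    obtain ⟨b1, b2, b3⟩ := row W hs' hu' (by rw [← he]; exact hL2)
    have := hM (s / u) hL1 (fun j => z ((s + j * u : ℝ) : ℂ) u / u)
      (fun j => z ((s' + j * u' : ℝ) : ℂ) u' / u') a1 (by rw [he]; exact b1) a3 b3
    simpa using this
  · intro s u hs hu hL
    have hL1 : M ≤ s / u := (le_max_left _ _).trans hL
    have hL2 : 2 / c < s / u := by
      have := (le_max_right _ _).trans hL
      linarith
    obtain ⟨a1, a2, a3⟩ := row W hs hu hL2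
    have hu0 : (u : ℂ) ≠ 0 := by exact_mod_cast hu.ne'
    have := hM (s / u) hL1 (fun j => conj (z ((s + j * u : ℝ) : ℂ) u / u))
      (fun j => z ((s + j * u : ℝ) : ℂ) u / u) ?_ a1 ?_ a3
    · simp only [Nat.cast_zero, zero_mul, add_zero] at this
      rw [map_div₀, conj_ofReal] at this
      exact (div_left_inj' hu0).1 this
    · intro j
      have h1 := a1 j
      rw [← RCLike.norm_conj, map_sub, conj_ofReal] at h1
      exact h1
    · intro j
      show Mf n ((conj (z ((s + j * u : ℝ) : ℂ) u / u)) ^ mu n)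
        ((conj (z ((s + (j + 1 : ℕ) * u : ℝ) : ℂ) u / u)) ^ mu n)
        ((conj (z ((s + (j + 2 : ℕ) * u : ℝ) : ℂ) u / u)) ^ mu n) = 0
      rw [conj_cpow_mu n (a2 j), conj_cpow_mu n (a2 (j + 1)), conj_cpow_mu n (a2 (j + 2)), Mf_conj,
        a3 j, map_zero]

/-- identity theorem from a real segment -/
lemma eq_of_real {f g : ℂ → ℂ} {ρ ε : ℝ} (hρ : 0 < ρ) (hε : 0 < ε)
    (hf : DifferentiableOn ℂ f (ball 0 ρ)) (hg : DifferentiableOn ℂ g (ball 0 ρ))
    (h : ∀ t : ℝ, 0 < t → t < ε → f t = g t) : ∀ v ∈ ball (0 : ℂ) ρ, f v = g v := by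
  have hfa := hf.analyticOnNhd isOpen_ball
  have hga := hg.analyticOnNhd isOpen_ball
  refine hfa.eqOn_of_preconnected_of_frequently_eq hga (convex_ball _ _).isPreconnected
    (mem_ball_self hρ) ?_
  have h1 : Tendsto (fun k : ℕ => (((ε / 2) / ((k : ℝ) + 1) : ℝ) : ℂ)) atTop (𝓝[≠] 0) := by
    refine tendsto_nhdsWithin_iff.2 ⟨?_, ?_⟩
    · have h2 : Tendsto (fun k : ℕ => (ε / 2) / ((k : ℝ) + 1)) atTop (𝓝 0) :=
        tendsto_const_div_atTop_nhds_zero_nat (ε / 2) |>.comp (tendsto_add_atTop_nat 1) |>.congr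
          (by intro k; simp)
      have h3 := (continuous_ofReal.tendsto (0 : ℝ)).comp h2
      rw [ofReal_zero] at h3
      exact h3
    · refine Eventually.of_forall ?_
      intro k
      have : 0 < (ε / 2) / ((k : ℝ) + 1) := by positivity
      simp only [mem_compl_iff, mem_singleton_iff]
      exact_mod_cast this.ne'
  refine h1.frequently (Eventually.frequently (Eventually.of_forall ?_))
  intro k
  refine h _ (by positivity) ?_
  have : (ε / 2) / ((k : ℝ) + 1) ≤ ε / 2 := by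
    apply div_le_self (by positivity)
    have : (0 : ℝ) ≤ k := Nat.cast_nonneg k
    linarith
  linarith

end Vale.Agent.P097.H830.W
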